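import Crest.Agent.H5.KS.Iface

/-! Uniform averages over finite types. -/

set_option autoImplicit false
set_option linter.unusedSectionVars false

namespace Crest.Agent.H5.KS

open scoped InnerProductSpace
open Finset Function

section
variable {Ω Ω' : Type*} [Fintype Ω] [Fintype Ω'] {V V' : Type*} [AddCommGroup V] [Module ℝ V]
  [AddCommGroup V'] [Module ℝ V']

lemma av_const [Nonempty Ω] (c : V) : av (fun _ : Ω => c) = c := by
  unfold av
  rw [sum_const, card_univ, ← Nat.cast_smul_eq_nsmul ℝ, smul_smul, inv_mul_cancel₀, one_smul]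
  exact_mod_cast Fintype.card_ne_zero

lemma av_add (f g : Ω → V) : av (fun ω => f ω + g ω) = av f + av g := by
  unfold av; rw [sum_add_distrib, smul_add]

lemma av_sub (f g : Ω → V) : av (fun ω => f ω - g ω) = av f - av g := by
  unfold av; rw [sum_sub_distrib, smul_sub]

lemma av_sum {ι : Type*} (s : Finset ι) (f : ι → Ω → V) :
    av (fun ω => ∑ i ∈ s, f i ω) = ∑ i ∈ s, av (f i) := by
  unfold av; rw [sum_comm, smul_sum]

lemma av_map (L : V →ₗ[ℝ] V') (f : Ω → V) : L (av f) = av fun ω => L (f ω) := by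
  unfold av; rw [map_smul, map_sum]

lemma av_equiv (e : Ω ≃ Ω') (f : Ω' → V) : av (fun ω => f (e ω)) = av f := by
  unfold av; rw [Equiv.sum_comp e f, Fintype.card_congr e]

lemma av_prod (f : Ω → Ω' → V) : av (fun p : Ω × Ω' => f p.1 p.2) = av fun a => av fun b => f a b := by
  unfold av
  rw [Fintype.sum_prod_type, ← smul_sum, smul_smul, Fintype.card_prod]; push_cast; rw [mul_inv]

lemma av_comm (f : Ω → Ω' → V) : (av fun a => av fun b => f a b) = av fun b => av fun a => f a b := by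
  rw [← av_prod, ← av_prod (fun b a => f a b), ← av_equiv (Equiv.prodComm Ω Ω')]; rfl

lemma av_eq_zero_of_neg (e : Ω ≃ Ω) (f : Ω → V) (h : ∀ ω, f (e ω) = - f ω) : av f = 0 := by
  have h1 := av_equiv e f
  simp only [h] at h1
  have h2 : av (fun ω => - f ω) = - av f := by unfold av; simp
  rw [h2] at h1
  have h3 : (2 : ℝ) • av f = 0 := by rw [two_smul]; nth_rewrite 1 [← h1]; simp
  simpa using h3

lemma av_mono {f g : Ω → ℝ} (h : ∀ ω, f ω ≤ g ω) : av f ≤ av g := by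
  unfold av
  exact smul_le_smul_of_nonneg_left (sum_le_sum fun ω _ => h ω) (by positivity)

lemma av_le [Nonempty Ω] {f : Ω → ℝ} {c : ℝ} (h : ∀ ω, f ω ≤ c) : av f ≤ c :=
  (av_mono h).trans (av_const c).le

lemma av_nonneg {f : Ω → ℝ} (h : ∀ ω, 0 ≤ f ω) : 0 ≤ av f := by
  unfold av
  exact smul_nonneg (by positivity) (sum_nonneg fun ω _ => h ω)

lemma av_mul_left (c : ℝ) (f : Ω → ℝ) : av (fun ω => c * f ω) = c * av f := by
  unfold av; rw [← mul_sum, smul_eq_mul, smul_eq_mul]; ring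

lemma av_mul_right (c : ℝ) (f : Ω → ℝ) : av (fun ω => f ω * c) = av f * c := by
  unfold av; rw [← sum_mul, smul_eq_mul, smul_eq_mul]; ring

lemma av_sq_le [Nonempty Ω] (f : Ω → ℝ) : av f ^ 2 ≤ av fun ω => f ω ^ 2 := by
  have h : 0 ≤ av fun ω => (f ω - av f) ^ 2 := av_nonneg fun _ => sq_nonneg _
  have e : (fun ω => (f ω - av f) ^ 2) = fun ω => (f ω ^ 2 - (2 * av f) * f ω) + av f ^ 2 := by
    ext ω; ring
  rw [e, av_add, av_sub, av_mul_left, av_const] at h
  nlinarith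

lemma av_le_of_sq [Nonempty Ω] {f : Ω → ℝ} {c : ℝ} (hc : 0 ≤ c) (h : av (fun ω => f ω ^ 2) ≤ c ^ 2) :
    av f ≤ c :=
  le_trans (le_abs_self _) (abs_le_of_sq_le_sq ((av_sq_le f).trans h) hc)

lemma norm_av_le {W : Type*} [NormedAddCommGroup W] [NormedSpace ℝ W] (f : Ω → W) :
    ‖av f‖ ≤ av fun ω => ‖f ω‖ := by
  unfold av
  rw [norm_smul, Real.norm_of_nonneg (by positivity)]
  exact mul_le_mul_of_nonneg_left (norm_sum_le _ _) (by positivity)

variable {I : Type*} [Fintype I] [DecidableEq I]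

lemma av_update [Nonempty Ω] (ι : I) (F : (I → Ω) → V) :
    av F = av fun ω : I → Ω => av fun t => F (update ω ι t) := by
  let e : (I → Ω) × Ω ≃ (I → Ω) × Ω := Involutive.toPerm (fun p => (update p.1 ι p.2, p.1 ι))
    fun p => by simp
  rw [← av_prod (fun (ω : I → Ω) t => F (update ω ι t))]
  have := av_equiv e fun p => F p.1
  rw [av_prod (fun (ω : I → Ω) (_ : Ω) => F ω)] at this
  simp only [av_const] at this
  exact this.symm

lemma av_indep [Nonempty Ω] [Module ℂ V] [IsScalarTower ℝ ℂ V] [SMulCommClass ℝ ℂ V] (T : Finset I)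
    (f : (I → Ω) → ℂ) (F : (I → Ω) → V)
    (hf : ∀ ω ω', (∀ i ∈ T, ω i = ω' i) → f ω = f ω')
    (hF : ∀ ω ω', (∀ i, i ∉ T → ω i = ω' i) → F ω = F ω') :
    av (fun ω => f ω • F ω) = av f • av F := by
  let e : (I → Ω) × (I → Ω) ≃ (I → Ω) × (I → Ω) := Involutive.toPerm
    (fun p => (T.piecewise p.1 p.2, T.piecewise p.2 p.1)) fun p => by
      ext i <;> by_cases h : i ∈ T <;> simp [h]
  have h1 := av_equiv e fun p => f p.1 • F p.2
  have h2 : (fun p => f (e p).1 • F (e p).2) = fun p : (I → Ω) × (I → Ω) => f p.1 • F p.1 := by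
    ext p
    rw [hf (e p).1 p.1 fun i hi => by simp [e, hi], hF (e p).2 p.1 fun i hi => by simp [e, hi]]
  rw [h2, av_prod (fun (ω : I → Ω) (_ : I → Ω) => f ω • F ω),
    av_prod (fun (ω : I → Ω) (ω' : I → Ω) => f ω • F ω')] at h1
  simp only [av_const] at h1
  rw [h1]
  unfold av
  simp only [← smul_comm (f _), ← smul_sum]
  rw [← sum_smul, smul_assoc]

lemma av_flip (neg : Ω ≃ Ω) (ι : I) (F : (I → Ω) → V)
    (h : ∀ ω, F (update ω ι (neg (ω ι))) = - F ω) : av F = 0 :=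
  av_eq_zero_of_neg (Equiv.piCongrRight fun κ => if κ = ι then neg else Equiv.refl Ω) F fun ω => by
    rw [← h]; congr 1; ext κ
    by_cases hk : κ = ι
    · subst hk; simp
    · simp [hk]

end

section
variable {H : Type*} [NormedAddCommGroup H] [InnerProductSpace ℂ H] [CompleteSpace H]
variable {Ω : Type*} [Fintype Ω]

lemma av_mul_op (a b : H →L[ℂ] H) (f : Ω → H →L[ℂ] H) :
    av (fun t => a * f t * b) = a * av f * b := by
  unfold av; rw [mul_smul_comm, smul_mul_assoc, mul_sum, sum_mul]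

lemma av_mul_opr (b : H →L[ℂ] H) (f : Ω → H →L[ℂ] H) : av (fun t => f t * b) = av f * b := by
  simpa using av_mul_op 1 b f

lemma av_mul_opl (a : H →L[ℂ] H) (f : Ω → H →L[ℂ] H) : av (fun t => a * f t) = a * av f := by
  simpa using av_mul_op a 1 f

lemma av_re_inner (f : Ω → H →L[ℂ] H) (ξ : H) :
    (⟪ξ, av f ξ⟫_ℂ).re = av fun t => (⟪ξ, f t ξ⟫_ℂ).re := by
  unfold av
  rw [re_inner_rsmul, _root_.sum_apply, inner_sum, Complex.re_sum, smul_eq_mul]

lemma av_normsq (f : Ω → H →L[ℂ] H) (ξ : H) :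
    av (fun t => ‖f t ξ‖ ^ 2) = (⟪ξ, av (fun t => star (f t) * f t) ξ⟫_ℂ).re := by
  rw [av_re_inner]; simp only [norm_sq_eq_re]

lemma av_lin (L : (H →L[ℂ] H) →ₗ[ℂ] ℂ) (f : Ω → H →L[ℂ] H) : L (av f) = av fun ω => L (f ω) :=
  av_map (L.restrictScalars ℝ) f

lemma av_mem {M : VonNeumannAlgebra H} {f : Ω → H →L[ℂ] H} (h : ∀ t, f t ∈ M) : av f ∈ M :=
  rsmul_mem _ (sum_mem fun t _ => h t)

lemma av_op_nonneg {f : Ω → H →L[ℂ] H} (h : ∀ t, 0 ≤ f t) : 0 ≤ av f :=
  smul_nonneg (by positivity) (sum_nonneg fun t _ => h t)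

lemma norm_av_le_one [Nonempty Ω] {f : Ω → H →L[ℂ] H} (h : ∀ t, ‖f t‖ ≤ 1) : ‖av f‖ ≤ 1 :=
  (norm_av_le f).trans (av_le h)

lemma mul_le_one' {a b : H →L[ℂ] H} (ha : ‖a‖ ≤ 1) (hb : ‖b‖ ≤ 1) : ‖a * b‖ ≤ 1 :=
  (norm_mul_le _ _).trans (by nlinarith [norm_nonneg a, norm_nonneg b])

lemma norm_conj_le {a b c : H →L[ℂ] H} (ha : ‖a‖ ≤ 1) (hc : ‖c‖ ≤ 1) : ‖a * b * c‖ ≤ ‖b‖ :=
  (norm_mul_le _ _).trans ((mul_le_mul (norm_mul_le _ _) hc (norm_nonneg _) (by positivity)).trans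
    (by nlinarith [norm_nonneg a, norm_nonneg b]))

end

end Crest.Agent.H5.KS
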