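import Crest.Agent.H7.KadGT

/-! Elementary von Neumann algebra toolkit: range projections, spectral splitting, polar
decomposition, strong limits of chains of partial isometries, central supports, comparison. -/

set_option autoImplicit false
set_option linter.unusedSectionVars false

namespace Crest.Agent.H5.KS

open scoped InnerProductSpace
open Filter Topology

variable {H : Type*} [NormedAddCommGroup H] [InnerProductSpace ℂ H] [CompleteSpace H]

/-- partial isometry -/
def PI (v : H →L[ℂ] H) : Prop := v * star v * v = v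

/-- central projection of `M` -/
structure Cen (M : VonNeumannAlgebra H) (z : H →L[ℂ] H) : Prop where
  mem : z ∈ M
  proj : IsStarProjection z
  comm : ∀ a ∈ M, z * a = a * z

/-- `e ≲ f` in `M` -/
def Sub (M : VonNeumannAlgebra H) (e f : H →L[ℂ] H) : Prop :=
  ∃ v ∈ M, PI v ∧ star v * v = e ∧ f * v = v

lemma mem_of_comm {M : VonNeumannAlgebra H} {a : H →L[ℂ] H}
    (h : ∀ t ∈ M.commutant, t * a = a * t) : a ∈ M := by
  rw [← M.commutant_commutant, VonNeumannAlgebra.mem_commutant_iff]
  exact h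

lemma comm_of_mem {M : VonNeumannAlgebra H} {a t : H →L[ℂ] H} (ha : a ∈ M)
    (ht : t ∈ M.commutant) : t * a = a * t :=
  (VonNeumannAlgebra.mem_commutant_iff.1 ht a ha).symm

lemma vsmul_mem {M : VonNeumannAlgebra H} {a : H →L[ℂ] H} (c : ℂ) (ha : a ∈ M) : c • a ∈ M :=
  M.toStarSubalgebra.smul_mem ha c

lemma rsmul_mem {M : VonNeumannAlgebra H} {a : H →L[ℂ] H} (c : ℝ) (ha : a ∈ M) : c • a ∈ M := by
  rw [← Complex.coe_smul]; exact vsmul_mem _ ha

lemma inner_star_left (T : H →L[ℂ] H) (x y : H) : ⟪star T x, y⟫_ℂ = ⟪x, T y⟫_ℂ := by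
  rw [ContinuousLinearMap.star_eq_adjoint, ContinuousLinearMap.adjoint_inner_left]

lemma inner_star_right (T : H →L[ℂ] H) (x y : H) : ⟪x, star T y⟫_ℂ = ⟪T x, y⟫_ℂ := by
  rw [ContinuousLinearMap.star_eq_adjoint, ContinuousLinearMap.adjoint_inner_right]

lemma inner_star_mul (S T : H →L[ℂ] H) (x y : H) : ⟪x, (star S * T) y⟫_ℂ = ⟪S x, T y⟫_ℂ := by
  rw [mul_apply_eq_comp, inner_star_right]

lemma norm_sq_eq_re (T : H →L[ℂ] H) (x : H) : ‖T x‖ ^ 2 = (⟪x, (star T * T) x⟫_ℂ).re := by
  rw [inner_star_mul, inner_self_eq_norm_sq_to_K]; norm_cast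

lemma nstar (T : H →L[ℂ] H) : ‖star T‖ = ‖T‖ := norm_star T

lemma sstar {ι : Type*} (s : Finset ι) (f : ι → H →L[ℂ] H) :
    star (∑ i ∈ s, f i) = ∑ i ∈ s, star (f i) := star_sum s f

lemma eq_zero_of_star_mul_self {T : H →L[ℂ] H} (h : star T * T = 0) : T = 0 :=
  (CStarRing.star_mul_self_eq_zero_iff T).1 h

lemma eq_zero_of_mul_star_self {T : H →L[ℂ] H} (h : T * star T = 0) : T = 0 :=
  (CStarRing.mul_star_self_eq_zero_iff T).1 h

lemma pmul {e : H →L[ℂ] H} (he : IsStarProjection e) : e * e = e := he.isIdempotentElem.eq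

lemma pstar {e : H →L[ℂ] H} (he : IsStarProjection e) : star e = e := he.isSelfAdjoint.star_eq

lemma pmul' {e : H →L[ℂ] H} (he : IsStarProjection e) (x : H →L[ℂ] H) : e * (e * x) = e * x := by
  rw [← mul_assoc, pmul he]

lemma mkproj {e : H →L[ℂ] H} (h1 : e * e = e) (h2 : star e = e) : IsStarProjection e := ⟨h1, h2⟩

/-- flipping an absorption identity between self-adjoint elements -/
lemma flip_mul {e f : H →L[ℂ] H} (he : star e = e) (hf : star f = f) {g : H →L[ℂ] H}
    (hg : star g = g) (h : e * f = g) : f * e = g := by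
  have := congrArg star h
  rwa [star_mul, he, hf, hg] at this

lemma proj_apply_le {e : H →L[ℂ] H} (he : IsStarProjection e) (x : H) : ‖e x‖ ≤ ‖x‖ :=
  (e.le_opNorm x).trans (by nlinarith [he.norm_le e, norm_nonneg x])

namespace PI
variable {v : H →L[ℂ] H}

lemma star (h : PI v) : PI (star v) := by
  unfold PI at *
  have := congrArg Star.star h
  simpa [mul_assoc] using this

lemma eq (h : PI v) : v * Star.star v * v = v := h

lemma eq' (h : PI v) : v * (Star.star v * v) = v := by rw [← mul_assoc]; exact h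

lemma seq (h : PI v) : Star.star v * v * Star.star v = Star.star v := by
  simpa using h.star.eq

lemma seq' (h : PI v) : Star.star v * (v * Star.star v) = Star.star v := by
  rw [← mul_assoc]; exact h.seq

lemma dom (h : PI v) : IsStarProjection (Star.star v * v) :=
  mkproj (by rw [mul_assoc, ← mul_assoc v, h.eq]) (by simp)

lemma ran (h : PI v) : IsStarProjection (v * Star.star v) :=
  mkproj (by rw [← mul_assoc, h.eq]) (by simp)

lemma norm_le (h : PI v) : ‖v‖ ≤ 1 := by
  have h1 := h.dom.norm_le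
  rw [CStarRing.norm_star_mul_self] at h1
  nlinarith [norm_nonneg v]

lemma of_dom (h : IsStarProjection (Star.star v * v)) : PI v := by
  have h1 := pmul h
  have : Star.star (v * Star.star v * v - v) * (v * Star.star v * v - v) = 0 := by
    simp only [star_sub, star_mul, star_star, mul_sub, sub_mul]
    have e1 : Star.star v * (v * Star.star v) * (v * Star.star v * v) =
      (Star.star v * v * (Star.star v * v)) * (Star.star v * v) := by simp only [mul_assoc]
    have e2 : Star.star v * (v * Star.star v * v) = (Star.star v * v * (Star.star v * v)) := by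
      simp only [mul_assoc]
    have e3 : Star.star v * (v * Star.star v) * v = (Star.star v * v * (Star.star v * v)) := by
      simp only [mul_assoc]
    rw [e1, e2, e3, h1, h1]; abel
  exact sub_eq_zero.1 (eq_zero_of_star_mul_self this)

lemma of_ran (h : IsStarProjection (v * Star.star v)) : PI v := by
  have : PI (Star.star v) := of_dom (by simpa using h)
  simpa using this.star

lemma of_proj {e : H →L[ℂ] H} (he : IsStarProjection e) : PI e := by
  unfold PI; rw [pstar he, pmul he, pmul he]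

lemma zero : PI (0 : H →L[ℂ] H) := by simp [PI]

lemma add {s t : H →L[ℂ] H} (hs : PI s) (ht : PI t) (h1 : Star.star s * t = 0)
    (h2 : t * Star.star s = 0) : PI (s + t) := by
  have h3 : Star.star t * s = 0 := by simpa using congrArg Star.star h1
  have h4 : s * Star.star t = 0 := by simpa using congrArg Star.star h2
  unfold PI
  have e : (s + t) * Star.star (s + t) = s * Star.star s + t * Star.star t := by
    rw [star_add, add_mul, mul_add, mul_add, h2, h4]; simp
  rw [e, add_mul, mul_add, mul_add, hs.eq, ht.eq, mul_assoc, h1, mul_assoc, h3]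
  simp

/-- multiplying by a projection commuting with the initial projection -/
lemma mul_proj (h : PI v) {e : H →L[ℂ] H} (he : IsStarProjection e)
    (hc : Star.star v * v * e = e * (Star.star v * v)) : PI (v * e) := by
  apply of_dom
  have : Star.star (v * e) * (v * e) = Star.star v * v * e := by
    rw [star_mul, pstar he, mul_assoc, ← mul_assoc (Star.star v), hc, pmul' he]
  rw [this]
  exact h.dom.mul he hc

end PI

lemma add_dom {s t : H →L[ℂ] H} (h1 : star s * t = 0) :
    star (s + t) * (s + t) = star s * s + star t * t := by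
  have h3 : star t * s = 0 := by simpa using congrArg star h1
  rw [star_add, add_mul, mul_add, mul_add, h1, h3]; simp

lemma add_ran {s t : H →L[ℂ] H} (h2 : t * star s = 0) :
    (s + t) * star (s + t) = s * star s + t * star t := by
  have h4 : s * star t = 0 := by simpa using congrArg star h2
  rw [star_add, add_mul, mul_add, mul_add, h2, h4]; simp

namespace Cen
variable {M : VonNeumannAlgebra H} {z z' : H →L[ℂ] H}

lemma one : Cen M 1 := ⟨one_mem _, IsStarProjection.one _, fun a _ => by simp⟩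

lemma one_sub (h : Cen M z) : Cen M (1 - z) :=
  ⟨sub_mem (one_mem _) h.mem, h.proj.one_sub, fun a ha => by
    rw [sub_mul, mul_sub, h.comm a ha]; simp⟩

lemma mul (h : Cen M z) (h' : Cen M z') : Cen M (z * z') :=
  ⟨mul_mem h.mem h'.mem, h.proj.mul h'.proj (h.comm _ h'.mem), fun a ha => by
    rw [mul_assoc, h'.comm a ha, ← mul_assoc, h.comm a ha, mul_assoc]⟩

lemma sq (h : Cen M z) : z * z = z := pmul h.proj

lemma star_eq (h : Cen M z) : star z = z := pstar h.proj

lemma pi_mul (h : Cen M z) {v : H →L[ℂ] H} (hv : v ∈ M) (hp : PI v) : PI (v * z) :=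
  hp.mul_proj h.proj (h.comm _ (mul_mem (star_mem hv) hv)).symm

lemma dom_mul (h : Cen M z) {v w : H →L[ℂ] H} (hv : v ∈ M) (hw : w ∈ M) :
    star (v * z) * (w * z) = star v * w * z := by
  rw [star_mul, h.star_eq, h.comm _ (star_mem hv), mul_assoc, ← mul_assoc z, h.comm _ hw,
    mul_assoc, h.sq, mul_assoc]

lemma ran_mul (h : Cen M z) {v w : H →L[ℂ] H} (hw : w ∈ M) :
    (v * z) * star (w * z) = v * star w * z := by
  rw [star_mul, h.star_eq, mul_assoc, pmul' h.proj, h.comm _ (star_mem hw), mul_assoc]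

lemma proj_mul (h : Cen M z) {e : H →L[ℂ] H} (heM : e ∈ M) (he : IsStarProjection e) :
    IsStarProjection (e * z) := he.mul h.proj (h.comm e heM).symm

end Cen

/-! ### range projections -/

lemma exists_proj (V : Set H) : ∃ R : H →L[ℂ] H, IsStarProjection R ∧ (∀ ξ ∈ V, R ξ = ξ) ∧
    ∀ T : H →L[ℂ] H, (∀ ξ ∈ V, T ξ = 0) → T * R = 0 := by
  let K : Submodule ℂ H := (Submodule.span ℂ V).topologicalClosure
  refine ⟨K.starProjection, isStarProjection_starProjection, fun ξ hξ => ?_, fun T hT => ?_⟩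
  · exact Submodule.starProjection_eq_self_iff.2
      ((Submodule.le_topologicalClosure _) (Submodule.subset_span hξ))
  · have hK : K ≤ LinearMap.ker (T : H →ₗ[ℂ] H) :=
      Submodule.topologicalClosure_minimal _ (Submodule.span_le.2 fun ξ hξ => hT ξ hξ)
        T.isClosed_ker
    ext x
    exact hK (K.starProjection_apply_mem x)

lemma comm_of_inv {R t : H →L[ℂ] H} (hR : IsStarProjection R) (h1 : (1 - R) * t * R = 0)
    (h2 : (1 - R) * star t * R = 0) : t * R = R * t := by
  have h3 := congrArg star h2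
  simp only [star_mul, star_sub, star_one, pstar hR, star_star, star_zero] at h3
  have e1 : t * R = R * t * R := by
    rw [sub_mul, sub_mul, one_mul] at h1; exact sub_eq_zero.1 h1
  have e2 : R * t = R * t * R := by
    rw [mul_sub, mul_one, mul_sub, ← mul_assoc] at h3; exact sub_eq_zero.1 h3
  rw [e1, ← e2]

/-- projection onto the closed span of the ranges of a family -/
lemma exists_rpS (𝓕 : Set (H →L[ℂ] H)) : ∃ R : H →L[ℂ] H, IsStarProjection R ∧
    (∀ b ∈ 𝓕, R * b = b) ∧ ∀ T : H →L[ℂ] H, (∀ b ∈ 𝓕, T * b = 0) → T * R = 0 := by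
  obtain ⟨R, hR, h1, h2⟩ := exists_proj {ξ : H | ∃ b ∈ 𝓕, ∃ η, b η = ξ}
  refine ⟨R, hR, fun b hb => ?_, fun T hT => h2 T ?_⟩
  · ext η; exact h1 _ ⟨b, hb, η, rfl⟩
  · rintro _ ⟨b, hb, η, rfl⟩
    have := congrArg (fun S : H →L[ℂ] H => S η) (hT b hb)
    simpa using this

lemma exists_rp (b : H →L[ℂ] H) : ∃ R : H →L[ℂ] H, IsStarProjection R ∧ R * b = b ∧
    (∀ T : H →L[ℂ] H, T * b = 0 → T * R = 0) ∧
    ∀ t : H →L[ℂ] H, t * b = b * t → star t * b = b * star t → t * R = R * t := by
  obtain ⟨R, hR, h1, h2⟩ := exists_rpS {b}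
  have h1' := h1 b rfl
  have h2' : ∀ T : H →L[ℂ] H, T * b = 0 → T * R = 0 := fun T hT => h2 T (by simpa using hT)
  have key : ∀ t : H →L[ℂ] H, t * b = b * t → (1 - R) * t * R = 0 := fun t ht =>
    h2' _ (by rw [mul_assoc, ht, ← mul_assoc, sub_mul, h1', one_mul, sub_self, zero_mul])
  exact ⟨R, hR, h1', h2', fun t ht hs => comm_of_inv hR (key t ht) (key _ hs)⟩

/-- spectral splitting at `0` -/
lemma exists_split (a : H →L[ℂ] H) (ha : IsSelfAdjoint a) : ∃ e : H →L[ℂ] H,
    IsStarProjection e ∧ 0 ≤ a * e ∧ a * (1 - e) ≤ 0 ∧ a * e = e * a ∧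
    (∀ t : H →L[ℂ] H, t * a = a * t → star t * a = a * star t → t * e = e * t) ∧
    ∀ T : H →L[ℂ] H, T * a = 0 → T * e = 0 := by
  obtain ⟨R, hR, h1, h2, h3⟩ := exists_rp a⁺
  have hp : star a⁺ = a⁺ := (CFC.posPart_nonneg a).isSelfAdjoint.star_eq
  have h4 : a⁻ * R = 0 := h2 _ (CFC.negPart_mul_posPart a)
  have h5 : a⁺ * R = a⁺ := flip_mul (pstar hR) hp hp h1
  have h6 := CFC.posPart_sub_negPart a ha
  have h7 : a * R = a⁺ := by
    conv_lhs => rw [← h6]
    rw [sub_mul, h4, h5, sub_zero]
  have hc : ∀ t : H →L[ℂ] H, t * a = a * t → t * a⁺ = a⁺ * t := fun t ht => by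
    have : Commute a t := ht.symm
    exact (this.cfcₙ_real _).symm.eq
  refine ⟨R, hR, by rw [h7]; exact CFC.posPart_nonneg a, ?_, ?_, fun t ht hs => ?_, fun T hT => ?_⟩
  · rw [mul_sub, mul_one, h7]
    have : a - a⁺ = -a⁻ := by conv_lhs => lhs; rw [← h6]
                              abel
    rw [this]; exact neg_nonpos.2 (CFC.negPart_nonneg a)
  · exact h3 a (hc a rfl) (by rw [ha.star_eq]; exact hc a rfl)
  · exact h3 t (hc t ht) (hc _ hs)
  · apply h2
    apply eq_zero_of_mul_star_self
    have e : a⁺ * a⁺ = a * a⁺ := by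
      conv_rhs => lhs; rw [← h6]
      rw [sub_mul, CFC.negPart_mul_posPart, sub_zero]
    rw [star_mul, hp, mul_assoc, ← mul_assoc a⁺, e, ← mul_assoc, ← mul_assoc, hT]; simp

lemma re_inner_nonneg {T : H →L[ℂ] H} (h : 0 ≤ T) (x : H) : 0 ≤ (⟪x, T x⟫_ℂ).re :=
  ((ContinuousLinearMap.nonneg_iff_isPositive T).1 h).re_inner_nonneg_right x

lemma re_inner_mono {S T : H →L[ℂ] H} (h : S ≤ T) (x : H) : (⟪x, S x⟫_ℂ).re ≤ (⟪x, T x⟫_ℂ).re := by
  have := re_inner_nonneg (sub_nonneg.2 h) x
  rw [_root_.sub_apply, inner_sub_right, Complex.sub_re] at this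
  linarith

/-! ### polar decomposition -/

lemma exists_douglas (a b : H →L[ℂ] H) (h : star a * a = star b * b) : ∃ v : H →L[ℂ] H,
    PI v ∧ v * b = a ∧ star v * v * b = b ∧ (∀ T : H →L[ℂ] H, T * b = 0 → T * (star v * v) = 0) ∧
    ∀ t : H →L[ℂ] H, t * a = a * t → t * b = b * t → star t * b = b * star t → t * v = v * t := by
  have hn : ∀ x, ‖a x‖ = ‖b x‖ := fun x => by
    have h1 := norm_sq_eq_re a x
    rw [h, ← norm_sq_eq_re] at h1
    exact (pow_left_inj₀ (norm_nonneg _) (norm_nonneg _) two_ne_zero).1 h1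
  let K : Submodule ℂ H := (LinearMap.range (b : H →ₗ[ℂ] H)).topologicalClosure
  have hbK : ∀ x, b x ∈ K := fun x => Submodule.le_topologicalClosure _ ⟨x, rfl⟩
  let e : H →ₗ[ℂ] K := LinearMap.codRestrict K (b : H →ₗ[ℂ] H) hbK
  have hd : DenseRange e := by
    intro y
    rw [closure_subtype]
    have : Subtype.val '' Set.range e = Set.range b := by
      ext z; simp [e]
    rw [this]
    exact y.2
  have hbd : ∀ x, ‖(a : H →ₗ[ℂ] H) x‖ ≤ 1 * ‖e x‖ := fun x => by
    simpa [e] using (hn x).le
  let w : K →L[ℂ] H := (a : H →ₗ[ℂ] H).extendOfNorm e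
  have hw : ∀ x, w (e x) = a x := fun x => LinearMap.extendOfNorm_eq hd ⟨1, hbd⟩ x
  let v : H →L[ℂ] H := w.comp K.orthogonalProjectionOnto
  have hvb : v * b = a := by
    ext x
    have : K.orthogonalProjectionOnto (b x) = e x :=
      Submodule.orthogonalProjectionOnto_mem_subspace_eq_self (e x)
    simp [v, this, hw]
  have hP : IsStarProjection K.starProjection := isStarProjection_starProjection
  have hPb : K.starProjection * b = b := by
    ext x; exact Submodule.starProjection_eq_self_iff.2 (hbK x)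
  have hT : ∀ T : H →L[ℂ] H, T * b = 0 → T * K.starProjection = 0 := fun T hT => by
    have hK : K ≤ LinearMap.ker (T : H →ₗ[ℂ] H) := by
      refine Submodule.topologicalClosure_minimal _ ?_ T.isClosed_ker
      rintro _ ⟨x, rfl⟩
      have := congrArg (fun S : H →L[ℂ] H => S x) hT
      simpa using this
    ext x
    exact hK (K.starProjection_apply_mem x)
  have hvP : v * K.starProjection = v := by
    ext x
    have : K.orthogonalProjectionOnto (K.starProjection x) = K.orthogonalProjectionOnto x :=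
      Submodule.orthogonalProjectionOnto_mem_subspace_eq_self (K.orthogonalProjectionOnto x)
    simp [v, this]
  have hvv : star v * v = K.starProjection := by
    have h1 : star b * (star v * v - K.starProjection) * b = 0 := by
      rw [mul_sub, sub_mul, mul_assoc (star b) K.starProjection, hPb, ← mul_assoc, ← star_mul,
        mul_assoc, hvb, h, sub_self]
    have h2 := hT _ h1
    have h3 : K.starProjection * (star v * v - K.starProjection) * b = 0 := by
      have := congrArg star h2
      simpa [pstar hP, mul_assoc] using this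
    have h4 := hT _ h3
    have h5 : K.starProjection * star v = star v := by
      simpa [pstar hP] using congrArg star hvP
    rw [mul_sub, sub_mul, pmul hP, pmul hP, ← mul_assoc, h5, mul_assoc, hvP] at h4
    exact sub_eq_zero.1 h4
  have hPI : PI v := PI.of_dom (hvv ▸ hP)
  refine ⟨v, hPI, hvb, by rw [hvv, hPb], by rw [hvv]; exact hT, fun t h1 h2 h3 => ?_⟩
  have key : ∀ t : H →L[ℂ] H, t * b = b * t → (1 - K.starProjection) * t * K.starProjection = 0 :=
    fun t ht => hT _ (by rw [mul_assoc, ht, ← mul_assoc, sub_mul, hPb, one_mul, sub_self, zero_mul])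
  have hc := comm_of_inv hP (key t h2) (key _ h3)
  have h4 := hT (t * v - v * t) (by
    rw [sub_mul, mul_assoc, hvb, mul_assoc, h2, ← mul_assoc, hvb, h1, sub_self])
  rw [sub_mul, mul_assoc, hvP, mul_assoc, hc, ← mul_assoc, hvP] at h4
  exact sub_eq_zero.1 h4

/-- polar decomposition in `M` -/
lemma exists_polarM {M : VonNeumannAlgebra H} {x : H →L[ℂ] H} (hx : x ∈ M) : ∃ v ∈ M, PI v ∧
    v * (star x * x) * star v = x * star x ∧ star v * v * star x = star x ∧ v * star v * x = x ∧
    (∀ e : H →L[ℂ] H, e * x = x → e * v = v) ∧ (∀ f : H →L[ℂ] H, x * f = x → v * f = v) := by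
  have h0 : 0 ≤ star x * x := star_mul_self_nonneg x
  set b := CFC.sqrt (star x * x) with hb
  have hbs : star b = b := (CFC.sqrt_nonneg _).isSelfAdjoint.star_eq
  have hbb : b * b = star x * x := CFC.sqrt_mul_sqrt_self _ h0
  obtain ⟨v, hv, h1, h2, h3, h4⟩ := exists_douglas x b (by rw [hbs, hbb])
  have hcb : ∀ t ∈ M.commutant, t * b = b * t := fun t ht => by
    have : Commute (star x * x) t := (comm_of_mem (mul_mem (star_mem hx) hx) ht).symm
    exact (this.cfcₙ_nnreal _).symm.eq
  refine ⟨v, mem_of_comm fun t ht => h4 t (comm_of_mem hx ht) (hcb t ht) (hcb _ (star_mem ht)),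
    hv, ?_, ?_, ?_, fun e he => ?_, fun f hf => ?_⟩
  · rw [← hbb, ← h1, star_mul, hbs]; simp only [mul_assoc]
  · rw [← h1, star_mul, hbs, ← mul_assoc, h2]
  · rw [← h1, ← mul_assoc, hv.eq]
  · have := h3 (e * v - v) (by rw [sub_mul, mul_assoc, h1, he, sub_self])
    rw [sub_mul, mul_assoc, hv.eq'] at this
    exact sub_eq_zero.1 this
  · have hbf : b * (1 - f) = 0 := by
      apply eq_zero_of_star_mul_self
      have : x * (1 - f) = 0 := by rw [mul_sub, hf, mul_one, sub_self]
      rw [star_mul, hbs, mul_assoc, ← mul_assoc b, hbb, mul_assoc, this]; simp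
    have h5 := h3 (star (1 - f)) (by simpa [hbs] using congrArg star hbf)
    have h6 : star v * v * (1 - f) = 0 := by simpa [mul_assoc] using congrArg star h5
    have h7 : v * (1 - f) = 0 := by rw [← hv.eq', mul_assoc, h6, mul_zero]
    rw [mul_sub, mul_one] at h7
    exact (sub_eq_zero.1 h7).symm

lemma exists_PI_of_ne {M : VonNeumannAlgebra H} {x : H →L[ℂ] H} (hx : x ∈ M) (h0 : x ≠ 0) :
    ∃ v ∈ M, PI v ∧ v ≠ 0 ∧
    (∀ e : H →L[ℂ] H, e * x = x → e * v = v) ∧ (∀ f : H →L[ℂ] H, x * f = x → v * f = v) := by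
  obtain ⟨v, hv, h1, -, -, h4, h5, h6⟩ := exists_polarM hx
  refine ⟨v, hv, h1, fun h => h0 ?_, h5, h6⟩
  rw [← h4, h]; simp

end Crest.Agent.H5.KS
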