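import Crest.Agent.H5.KS.Zorn

/-! Systems of partial isometries, finiteness, halving, the infinite case. -/

set_option autoImplicit false
set_option linter.unusedSectionVars false
set_option linter.style.haveILetI false

namespace Crest.Agent.H5.KS

open scoped InnerProductSpace
open Filter Topology Finset

variable {H : Type*} [NormedAddCommGroup H] [InnerProductSpace ℂ H] [CompleteSpace H]

/-- a system of partial isometries with common initial projection `q`, ranges summing to `f` -/
structure Sys (M : VonNeumannAlgebra H) {κ : Type*} [Fintype κ] [DecidableEq κ]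
    (w : κ → H →L[ℂ] H) (q f : H →L[ℂ] H) : Prop where
  mem : ∀ i, w i ∈ M
  qmem : q ∈ M
  proj : IsStarProjection q
  orth : ∀ i j, star (w i) * w j = if i = j then q else 0
  sum : ∑ i, w i * star (w i) = f

namespace Sys
variable {M : VonNeumannAlgebra H} {κ : Type*} [Fintype κ] [DecidableEq κ]
  {w : κ → H →L[ℂ] H} {q f : H →L[ℂ] H}

lemma dom (h : Sys M w q f) (i : κ) : star (w i) * w i = q := by simpa using h.orth i i

lemma pi (h : Sys M w q f) (i : κ) : PI (w i) := PI.of_dom (by rw [h.dom]; exact h.proj)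

lemma wq (h : Sys M w q f) (i : κ) : w i * q = w i := by rw [← h.dom i]; exact (h.pi i).eq'

lemma qw (h : Sys M w q f) (i : κ) : q * star (w i) = star (w i) := by
  simpa [pstar h.proj] using congrArg star (h.wq i)

lemma fw (h : Sys M w q f) (i : κ) : f * w i = w i := by
  rw [← h.sum, sum_mul]
  simp only [mul_assoc, h.orth, mul_ite, mul_zero, sum_ite_eq', mem_univ, if_true, h.wq]

lemma fstar (h : Sys M w q f) : star f = f := by
  rw [← h.sum, sstar]; simp

lemma wf (h : Sys M w q f) (i : κ) : star (w i) * f = star (w i) := by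
  simpa [h.fstar] using congrArg star (h.fw i)

lemma fproj (h : Sys M w q f) : IsStarProjection f := by
  refine mkproj ?_ h.fstar
  conv_lhs => rhs; rw [← h.sum]
  rw [mul_sum, ← h.sum]
  exact sum_congr rfl fun i _ => by rw [← mul_assoc, h.sum, h.fw]

lemma fmem (h : Sys M w q f) : f ∈ M := by
  rw [← h.sum]; exact sum_mem fun i _ => mul_mem (h.mem i) (star_mem (h.mem i))

/-- amplification `a ↦ ∑ w a w*` -/
noncomputable def hat (w : κ → H →L[ℂ] H) (a : H →L[ℂ] H) : H →L[ℂ] H := ∑ i, w i * a * star (w i)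

lemma hat_mem (h : Sys M w q f) {a : H →L[ℂ] H} (ha : a ∈ M) : hat w a ∈ M :=
  sum_mem fun i _ => mul_mem (mul_mem (h.mem i) ha) (star_mem (h.mem i))

lemma hat_star (a : H →L[ℂ] H) : star (hat w a) = hat w (star a) := by
  unfold hat; rw [sstar]; simp [mul_assoc]

lemma hat_add (a b : H →L[ℂ] H) : hat w (a + b) = hat w a + hat w b := by
  unfold hat; simp [mul_add, add_mul, sum_add_distrib]

lemma hat_sub (a b : H →L[ℂ] H) : hat w (a - b) = hat w a - hat w b := by
  unfold hat; simp [mul_sub, sub_mul, sum_sub_distrib]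

lemma hat_smul (c : ℂ) (a : H →L[ℂ] H) : hat w (c • a) = c • hat w a := by
  unfold hat; simp [smul_sum]

lemma hat_zero : hat w 0 = 0 := by unfold hat; simp

lemma hat_sum {ι : Type*} (s : Finset ι) (a : ι → H →L[ℂ] H) :
    hat w (∑ j ∈ s, a j) = ∑ j ∈ s, hat w (a j) := by
  unfold hat; simp only [mul_sum, sum_mul]; exact sum_comm

lemma hat_w (h : Sys M w q f) (a : H →L[ℂ] H) (j : κ) : hat w a * w j = w j * a * q := by
  unfold hat; rw [sum_mul]
  simp only [mul_assoc, h.orth, mul_ite, mul_zero, sum_ite_eq', mem_univ, if_true]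

lemma w_hat (h : Sys M w q f) (a : H →L[ℂ] H) (j : κ) :
    star (w j) * hat w a = q * a * star (w j) := by
  unfold hat; rw [mul_sum]
  simp only [← mul_assoc, h.orth, ite_mul, zero_mul, sum_ite_eq, mem_univ, if_true]

lemma hat_mul (h : Sys M w q f) (a b : H →L[ℂ] H) : hat w a * hat w b = hat w (a * q * b) := by
  conv_lhs => rhs; unfold hat
  rw [mul_sum]
  exact sum_congr rfl fun i _ => by rw [← mul_assoc, ← mul_assoc, h.hat_w]; simp only [mul_assoc]

lemma hat_q (h : Sys M w q f) : hat w q = f := by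
  unfold hat; simp only [h.wq, h.sum]

lemma hat_cen (h : Sys M w q f) {z : H →L[ℂ] H} (hz : Cen M z) (a : H →L[ℂ] H) :
    hat w (a * z) = hat w a * z := by
  unfold hat; rw [sum_mul]
  exact sum_congr rfl fun i _ => by
    rw [mul_assoc _ (star (w i)), ← hz.comm _ (star_mem (h.mem i))]; simp only [mul_assoc]

lemma hat_proj (h : Sys M w q f) {a : H →L[ℂ] H} (ha : IsStarProjection a) (hq : q * a = a) :
    IsStarProjection (hat w a) :=
  mkproj (by rw [h.hat_mul, mul_assoc, hq, pmul ha]) (by rw [hat_star, pstar ha])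

/-- composing systems -/
lemma comp {κ' : Type*} [Fintype κ'] [DecidableEq κ'] {v : κ' → H →L[ℂ] H} {r : H →L[ℂ] H}
    (h : Sys M w q f) (h' : Sys M v r q) :
    Sys M (fun x : κ × κ' => w x.1 * v x.2) r f := by
  refine ⟨fun x => mul_mem (h.mem _) (h'.mem _), h'.qmem, h'.proj, fun x y => ?_, ?_⟩
  · rw [star_mul, mul_assoc, ← mul_assoc (star (w _)), h.orth]
    by_cases h1 : x.1 = y.1
    · rw [if_pos h1, h'.fw, h'.orth]
      by_cases h2 : x.2 = y.2
      · rw [if_pos h2, if_pos (Prod.ext h1 h2)]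
      · rw [if_neg h2, if_neg fun e => h2 (congrArg Prod.snd e)]
    · rw [if_neg h1, if_neg fun e => h1 (congrArg Prod.fst e)]; simp
  · rw [Fintype.sum_prod_type, ← h.sum]
    refine sum_congr rfl fun i _ => ?_
    have : w i * star (w i) = w i * (∑ j, v j * star (v j)) * star (w i) := by rw [h'.sum, h.wq]
    rw [this]
    simp only [star_mul, mul_sum, sum_mul, mul_assoc]

lemma reindex {κ' : Type*} [Fintype κ'] [DecidableEq κ'] (e : κ' ≃ κ) (h : Sys M w q f) :
    Sys M (fun x => w (e x)) q f :=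
  ⟨fun _ => h.mem _, h.qmem, h.proj, fun x y => by rw [h.orth]; simp,
    by rw [← h.sum]; exact Equiv.sum_comp e fun i => w i * star (w i)⟩

lemma mul_cen (h : Sys M w q f) {z : H →L[ℂ] H} (hz : Cen M z) :
    Sys M (fun i => w i * z) (q * z) (f * z) := by
  refine ⟨fun i => mul_mem (h.mem i) hz.mem, mul_mem h.qmem hz.mem, hz.proj_mul h.qmem h.proj,
    fun i j => ?_, ?_⟩
  · rw [hz.dom_mul (h.mem i) (h.mem j), h.orth]; split_ifs <;> simp
  · rw [← h.sum, sum_mul]; exact sum_congr rfl fun i _ => hz.ran_mul (h.mem i)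

end Sys

/-- no infinite orthogonal sequence of equivalent nonzero projections under `f` -/
def NS (M : VonNeumannAlgebra H) (f : H →L[ℂ] H) : Prop :=
  ¬ ∃ (q : H →L[ℂ] H) (t : ℕ → H →L[ℂ] H), IsStarProjection q ∧ q ≠ 0 ∧ (∀ n, t n ∈ M) ∧
    (∀ n, f * t n = t n) ∧ ∀ n m, star (t n) * t m = if n = m then q else 0

lemma NS.mono {M : VonNeumannAlgebra H} {f f' : H →L[ℂ] H} (h : NS M f) (hf : f * f' = f') :
    NS M f' := fun ⟨q, t, h1, h2, h3, h4, h5⟩ =>
  h ⟨q, t, h1, h2, h3, fun n => by rw [← h4 n, ← mul_assoc, hf], h5⟩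

lemma NS.fin {M : VonNeumannAlgebra H} {e v : H →L[ℂ] H} (h : NS M e) (pe : IsStarProjection e)
    (hv : v ∈ M) (h1 : star v * v = e) (h2 : e * v = v) : v * star v = e := by
  have hp : PI v := PI.of_dom (h1 ▸ pe)
  have heM : e ∈ M := h1 ▸ mul_mem (star_mem hv) hv
  by_contra hne
  have pq := sub_ran_proj hp pe h2
  set q := e - v * star v with hq
  have hqM : q ∈ M := sub_mem heM (mul_mem hv (star_mem hv))
  have h2' : star v * e = star v := by simpa [pstar pe] using congrArg star h2
  have heq : e * q = q := by rw [hq, mul_sub, pmul pe, ← mul_assoc, h2]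
  have hqv : q * v = 0 := by rw [hq, sub_mul, h2, hp.eq, sub_self]
  have het : ∀ n, e * (v ^ n * q) = v ^ n * q := fun n => by
    cases n with
    | zero => simpa using heq
    | succ n => rw [pow_succ', ← mul_assoc, ← mul_assoc, h2]
  have hsucc : ∀ n m, star (v ^ (n + 1) * q) * (v ^ (m + 1) * q) =
      star (v ^ n * q) * (v ^ m * q) := fun n m => by
    rw [pow_succ', pow_succ', mul_assoc v, mul_assoc v, star_mul v, mul_assoc,
      ← mul_assoc (star v), h1, het]
  have h0 : ∀ m, star (v ^ 0 * q) * (v ^ (m + 1) * q) = 0 := fun m => by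
    rw [pow_zero, one_mul, pstar pq, pow_succ', ← mul_assoc, ← mul_assoc, hqv]; simp
  refine h ⟨q, fun n => v ^ n * q, pq, fun h0 => hne (sub_eq_zero.1 h0).symm,
    fun n => mul_mem (pow_mem hv n) hqM, het, fun n => ?_⟩
  induction n with
  | zero =>
    intro m
    cases m with
    | zero => simp [pstar pq, pmul pq]
    | succ m => simpa using h0 m
  | succ n ih =>
    intro m
    cases m with
    | zero => simpa using congrArg star (h0 n)
    | succ m => rw [hsucc, ih]; simp

/-- finite maximal family of copies of `q` under a finite projection -/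
theorem NS.fam {M : VonNeumannAlgebra H} {f q : H →L[ℂ] H} (h : NS M f) (hf : f ∈ M)
    (pf : IsStarProjection f) (hq : q ∈ M) (pq : IsStarProjection q) (h0 : q ≠ 0) :
    ∃ z', Cen M z' ∧ z' ≠ 0 ∧ (∀ z, Cen M z → z * q = q → z' * z = z') ∧
      ∃ (k : ℕ) (v : Option (Fin k) → H →L[ℂ] H), (∀ a, v a ∈ M) ∧ (∀ a, PI (v a)) ∧
        (∀ a, v a * q = v a) ∧
        (∀ a b, a ≠ b → star (v a) * v b = 0) ∧ ∑ a, v a * star (v a) = f * z' := by
  classical
  let G : Finset (H →L[ℂ] H) → Prop := fun s => (∀ a ∈ s, a ∈ M ∧ f * a = a ∧ star a * a = q) ∧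
    ∀ a ∈ s, ∀ b ∈ s, a ≠ b → star a * b = 0
  have hS : ∀ s, G s → Sys M (fun a : s => (a : H →L[ℂ] H)) q (∑ a ∈ s, a * star a) :=
    fun s hG => ⟨fun a => (hG.1 _ a.2).1, hq, pq, fun a b => by
      split_ifs with hab
      · rw [hab]; exact (hG.1 _ b.2).2.2
      · exact hG.2 _ a.2 _ b.2 fun h => hab (Subtype.ext h),
      sum_coe_sort s fun a => a * star a⟩
  have hfs : ∀ s, G s → f * ∑ a ∈ s, a * star a = ∑ a ∈ s, a * star a := fun s hG => by
    rw [mul_sum]; exact sum_congr rfl fun a ha => by rw [← mul_assoc, (hG.1 a ha).2.1]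
  have hstop : ∃ s, G s ∧ ¬ Sub M q (f - ∑ a ∈ s, a * star a) := by
    by_contra hcon
    push Not at hcon
    have step : ∀ s : {s // G s}, ∃ t ∈ M, f * t = t ∧ star t * t = q ∧
        ∀ a ∈ s.1, star a * t = 0 := by
      rintro ⟨s, hG⟩
      obtain ⟨t, htM, ht, h1, h2⟩ := hcon s hG
      refine ⟨t, htM, ?_, h1, fun a ha => ?_⟩
      · rw [← h2, ← mul_assoc, mul_sub, pmul pf, hfs s hG]
      · have : star a * f = star a := by simpa [pstar pf] using congrArg star (hG.1 a ha).2.1
        rw [← h2, ← mul_assoc, mul_sub, this, (hS s hG).wf ⟨a, ha⟩, sub_self, zero_mul]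
    choose t t1 t2 t3 t4 using step
    let nx : {s // G s} → {s // G s} := fun s => ⟨insert (t s) s.1, by
      refine ⟨fun a ha => ?_, fun a ha b hb hab => ?_⟩
      · rcases mem_insert.1 ha with rfl | ha
        exacts [⟨t1 s, t2 s, t3 s⟩, s.2.1 a ha]
      · rcases mem_insert.1 ha with rfl | ha <;> rcases mem_insert.1 hb with rfl | hb
        · exact absurd rfl hab
        · simpa using congrArg star (t4 s b hb)
        · exact t4 s a ha
        · exact s.2.2 a ha b hb hab⟩
    let sq : ℕ → {s // G s} := fun n => nx^[n] ⟨∅, by simp [G]⟩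
    have hsq : ∀ n, (sq (n + 1)).1 = insert (t (sq n)) (sq n).1 := fun n => by
      simp only [sq, Function.iterate_succ_apply']; rfl
    have mono : ∀ n m, n < m → t (sq n) ∈ (sq m).1 := fun n m hnm => by
      induction m, hnm using Nat.le_induction with
      | base => rw [hsq]; exact mem_insert_self _ _
      | succ m _ ih => rw [hsq]; exact mem_insert_of_mem ih
    refine h ⟨q, fun n => t (sq n), pq, h0, fun n => t1 _, fun n => t2 _, fun n m => ?_⟩
    rcases lt_trichotomy n m with hnm | rfl | hnm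
    · rw [if_neg hnm.ne]; exact t4 _ _ (mono n m hnm)
    · rw [if_pos rfl]; exact t3 _
    · rw [if_neg hnm.ne']; simpa using congrArg star (t4 _ _ (mono m n hnm))
  obtain ⟨s, hG, hns⟩ := hstop
  have S := hS s hG
  set b := ∑ a ∈ s, a * star a with hb
  have pr : IsStarProjection (f - b) := S.fproj.sub_of_mul_eq_right pf (hfs s hG)
  have rM : f - b ∈ M := sub_mem hf S.fmem
  obtain ⟨u, huM, hu, u1, u2, u3⟩ := exists_compare hq rM pq pr
  obtain ⟨c, hc, c1, c2⟩ := exists_cs (sub_mem hq (mul_mem (star_mem huM) huM))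
  have c3 := c2 _ u3
  have hau : ∀ a : s, star (a : H →L[ℂ] H) * u = 0 := fun a => by
    have : star (a : H →L[ℂ] H) * f = star (a : H →L[ℂ] H) := by
      simpa [pstar pf] using congrArg star (hG.1 a a.2).2.1
    rw [← u2, ← mul_assoc, mul_sub, this, S.wf a, sub_self, zero_mul]
  let e := s.equivFin.symm
  let v : Option (Fin s.card) → H →L[ℂ] H := fun a => a.elim u fun a => (e a : H →L[ℂ] H)
  have vM : ∀ a, v a ∈ M := by rintro (_ | a); exacts [huM, S.mem _]
  refine ⟨c, hc, ?_, fun z hz hzq => ?_, s.card, fun a => v a * c, fun a => mul_mem (vM a) hc.mem,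
    fun a => hc.pi_mul (vM a) ?_, fun a => ?_, fun a a' hne => ?_, ?_⟩
  · rintro rfl
    rw [zero_mul] at c1
    exact hns ⟨u, huM, hu, (sub_eq_zero.1 c1.symm).symm, u2⟩
  · have : (1 - z) * c = 0 := c2 _ fun x hx => by
      have e1 : z * (q - star u * u) = q - star u * u := by
        have : q * star u = star u := by simpa [pstar pq] using congrArg star u1
        rw [mul_sub, hzq, ← this, ← mul_assoc, ← mul_assoc, hzq]
      rw [hz.one_sub.comm x hx, mul_assoc, sub_mul, e1, one_mul, sub_self, mul_zero]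
    rw [sub_mul, one_mul] at this
    rw [← hz.comm c hc.mem]; exact (sub_eq_zero.1 this).symm
  · rcases a with _ | a
    exacts [hu, S.pi _]
  · rw [mul_assoc, hc.comm q hq, ← mul_assoc]
    congr 1
    rcases a with _ | a
    exacts [u1, S.wq _]
  · rw [hc.dom_mul (vM a) (vM a')]
    have : star (v a) * v a' = 0 := by
      rcases a with _ | a <;> rcases a' with _ | a'
      · exact absurd rfl hne
      · show star u * (e a' : H →L[ℂ] H) = 0
        simpa using congrArg star (hau (e a'))
      · exact hau (e a)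
      · exact hG.2 _ (e a).2 _ (e a').2 fun h => hne (congrArg some (e.injective (Subtype.ext h)))
    rw [this, zero_mul]
  · simp only [hc.ran_mul (vM _)]
    rw [← sum_mul, Fintype.sum_option]
    have : ∑ a : Fin s.card, v (some a) * star (v (some a)) = b := by
      rw [← S.sum]; exact Equiv.sum_comp e fun a : s => (a : H →L[ℂ] H) * star (a : H →L[ℂ] H)
    rw [this]
    have e2 : f = (f - b - u * star u) + (u * star u + b) := by abel
    conv_rhs => rw [e2, add_mul, c3, zero_add]
    rfl

/-- abelian projection (weak form) -/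
def Ab (M : VonNeumannAlgebra H) (e : H →L[ℂ] H) : Prop :=
  ∀ f ∈ M, IsStarProjection f → e * f = f → ∀ x ∈ M, (e - f) * x * f = 0

lemma Ab.split {M : VonNeumannAlgebra H} {e f z : H →L[ℂ] H} (h : Ab M e) (hf : f ∈ M)
    (pf : IsStarProjection f) (hef : e * f = f) (hz : Cen M z) (h0 : z ≠ 0) :
    ∃ z', Cen M z' ∧ z' ≠ 0 ∧ z' * z = z' ∧ (f * z' = 0 ∨ f * z' = e * z') := by
  obtain ⟨c, hc, c1, c2⟩ := exists_cs hf
  have c3 := c2 _ (h f hf pf hef)
  by_cases hcz : c * z = 0
  · exact ⟨z, hz, h0, hz.sq, Or.inl (by rw [← c1, hc.comm f hf, mul_assoc, hcz, mul_zero])⟩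
  · refine ⟨c * z, hc.mul hz, hcz, by rw [mul_assoc, hz.sq], Or.inr ?_⟩
    rw [sub_mul] at c3
    rw [← mul_assoc, ← mul_assoc, sub_eq_zero.1 c3]

/-- no abelian projection below `f` -/
def NA (M : VonNeumannAlgebra H) (f : H →L[ℂ] H) : Prop :=
  ∀ e ∈ M, IsStarProjection e → f * e = e → e ≠ 0 → ¬ Ab M e

lemma NA.mono {M : VonNeumannAlgebra H} {f f' : H →L[ℂ] H} (h : NA M f) (hf : f * f' = f') :
    NA M f' := fun e he pe h1 => h e he pe (by rw [← h1, ← mul_assoc, hf])

lemma NA.halve {M : VonNeumannAlgebra H} {f : H →L[ℂ] H} (h : NA M f) (hf : f ∈ M)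
    (pf : IsStarProjection f) : ∃ (q : H →L[ℂ] H) (w : Bool → H →L[ℂ] H), Sys M w q f ∧ f * q = q := by
  obtain ⟨s, hsM, hs, ⟨h1, h2, h3⟩, hmax⟩ := exists_maxPI M
    (fun s => s * f = s ∧ f * s = s ∧ s * s = 0) (by simp) (fun c F _ t hc ht =>
      ⟨(ht.mul (SSC.const f)).eq ht (Eventually.of_forall fun a => (hc _ a.2).2.2.1.1),
        ((SSC.const f).mul ht).eq ht (Eventually.of_forall fun a => (hc _ a.2).2.2.1.2.1),
        (ht.mul ht).eq (SSC.const 0) (Eventually.of_forall fun a => (hc _ a.2).2.2.1.2.2)⟩)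
  have h1' : f * star s = star s := by simpa [pstar pf] using congrArg star h1
  have h2' : star s * f = star s := by simpa [pstar pf] using congrArg star h2
  have h3' : star s * star s = 0 := by simpa using congrArg star h3
  have pa : IsStarProjection (star s * s + s * star s) :=
    hs.dom.add hs.ran (by rw [mul_assoc, ← mul_assoc s, h3]; simp)
  have hfa : f * (star s * s + s * star s) = star s * s + s * star s := by
    rw [mul_add, ← mul_assoc, ← mul_assoc, h1', h2]
  have pr := pa.sub_of_mul_eq_right pf hfa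
  set r := f - (star s * s + s * star s) with hr
  have rM : r ∈ M := sub_mem hf (add_mem (mul_mem (star_mem hsM) hsM) (mul_mem hsM (star_mem hsM)))
  have hfr : f * r = r := by rw [hr, mul_sub, pmul pf, hfa]
  have hrf : r * f = r := flip_mul (pstar pf) (pstar pr) (pstar pr) hfr
  have hsr : s * r = 0 := by
    rw [hr, mul_sub, mul_add, h1, hs.eq', ← mul_assoc, h3]; simp
  have hsr' : star s * r = 0 := by
    rw [hr, mul_sub, mul_add, h2', hs.seq', ← mul_assoc, h3']; simp
  have hrs : r * s = 0 := by simpa [pstar pr] using congrArg star hsr'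
  have hrs' : r * star s = 0 := by simpa [pstar pr] using congrArg star hsr
  have hr0 : r = 0 := by
    by_contra hne
    have := h r rM pr hfr hne
    unfold Ab at this
    push Not at this
    obtain ⟨g, gM, pg, hrg, x, hx, hne2⟩ := this
    have pg' := pg.sub_of_mul_eq_right pr hrg
    obtain ⟨t, tM, ht, t0, t1, t2⟩ := exists_PI_between gM (sub_mem rM gM) hx (pmul pg) (pmul pg')
      hne2
    have hgr : g * r = g := flip_mul (pstar pr) (pstar pg) (pstar pg) hrg
    have hrt : r * t = t := by rw [← t1, ← mul_assoc, mul_sub, pmul pr, hrg]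
    have htr : t * r = t := by rw [← t2, mul_assoc, hgr]
    have htt : t * t = 0 := by
      calc t * t = t * g * ((r - g) * t) := by rw [t1, t2]
        _ = 0 := by rw [mul_assoc, ← mul_assoc g, mul_sub, hgr, pmul pg]; simp
    refine t0 (hmax t tM ht (by rw [← hrt, ← mul_assoc, hsr', zero_mul])
      (by rw [← htr, mul_assoc, hrs', mul_zero]) ⟨?_, ?_, ?_⟩)
    · rw [add_mul, h1, ← htr, mul_assoc, hrf]
    · rw [mul_add, h2, ← hrt, ← mul_assoc, hfr]
    · have e1 : s * t = 0 := by rw [← hrt, ← mul_assoc, hsr, zero_mul]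
      have e2 : t * s = 0 := by rw [← htr, mul_assoc, hrs, mul_zero]
      rw [add_mul, mul_add, mul_add, h3, e1, e2, htt]; simp
  refine ⟨star s * s, fun b => if b then s else star s * s, ⟨fun b => ?_,
    mul_mem (star_mem hsM) hsM, hs.dom, fun b b' => ?_, ?_⟩, by rw [← mul_assoc, h1']⟩
  · split_ifs
    exacts [hsM, mul_mem (star_mem hsM) hsM]
  · cases b <;> cases b'
    · simpa using pmul hs.dom
    · simp only [star_mul, star_star, Bool.false_eq_true, if_false, if_true]
      rw [mul_assoc, h3, mul_zero]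
    · simp only [Bool.true_eq_false, Bool.false_eq_true, if_false, if_true]
      rw [← mul_assoc, h3', zero_mul]
    · simp
  · rw [Fintype.sum_bool]
    simp only [if_true, Bool.false_eq_true, if_false, star_mul, star_star, pmul hs.dom]
    rw [hr, sub_eq_zero] at hr0
    rw [hr0, add_comm]

lemma NA.sys {M : VonNeumannAlgebra H} {f : H →L[ℂ] H} (h : NA M f) (hf : f ∈ M)
    (pf : IsStarProjection f) (n : ℕ) :
    ∃ (q : H →L[ℂ] H) (w : Fin (2 ^ n) → H →L[ℂ] H), Sys M w q f ∧ f * q = q := by
  induction n with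
  | zero => exact ⟨f, fun _ => f, ⟨fun _ => hf, hf, pf, fun i j => by
      rw [if_pos (Subsingleton.elim (α := Fin 1) i j), pstar pf, pmul pf],
      by simp [pstar pf, pmul pf]⟩, pmul pf⟩
  | succ n ih =>
    obtain ⟨q, w, hw, hq⟩ := ih
    obtain ⟨r, v, hv, hr⟩ := (h.mono hq).halve hw.qmem hw.proj
    let e : Fin (2 ^ (n + 1)) ≃ Fin (2 ^ n) × Bool :=
      Fintype.equivOfCardEq (by simp [pow_succ])
    exact ⟨r, _, (hw.comp hv).reindex e, by rw [← hr, ← mul_assoc, hq]⟩

end Crest.Agent.H5.KS
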