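import Crest.Agent.H5.KS.LemC2

/-! Fourier rotation of a system, and the two mutually unbiased partitions. -/

set_option autoImplicit false
set_option linter.unusedSectionVars false

namespace Crest.Agent.H5.KS

open scoped InnerProductSpace ComplexConjugate
open Finset Function

lemma exists_fourier (J : ℕ) (hJ : 0 < J) : ∃ c : Fin J → Fin J → ℂ,
    (∀ a i, c a i * conj (c a i) = (J : ℂ)⁻¹) ∧ (∀ a i, c a i = c i a) ∧
    ∀ a a', ∑ i, conj (c a i) * c a' i = if a = a' then 1 else 0 := by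
  set ω := Complex.exp (2 * Real.pi * Complex.I / J) with hω
  have hp : IsPrimitiveRoot ω J := Complex.isPrimitiveRoot_exp J hJ.ne'
  have h1 : conj ω * ω = 1 := by
    rw [Complex.conj_mul', hp.norm'_eq_one hJ.ne']; simp
  have hJc : (J : ℂ) ≠ 0 := by exact_mod_cast hJ.ne'
  have hs : ((√(J : ℝ))⁻¹ : ℝ) * (√(J : ℝ))⁻¹ = (J : ℝ)⁻¹ := by
    rw [← mul_inv, Real.mul_self_sqrt (by positivity)]
  have hs' : (((√(J : ℝ))⁻¹ : ℝ) : ℂ) * ((√(J : ℝ))⁻¹ : ℝ) = (J : ℂ)⁻¹ := by
    rw [← Complex.ofReal_mul, hs]; simp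
  have key : ∀ a a' i : ℕ, conj ((((√(J : ℝ))⁻¹ : ℝ) : ℂ) * ω ^ (a * i)) *
      ((((√(J : ℝ))⁻¹ : ℝ) : ℂ) * ω ^ (a' * i)) = (J : ℂ)⁻¹ * (conj ω ^ a * ω ^ a') ^ i := by
    intro a a' i
    rw [map_mul, Complex.conj_ofReal, map_pow, ← hs', mul_pow, ← pow_mul, ← pow_mul]; ring
  have h2 : ∀ a : ℕ, conj ω ^ a * ω ^ a = 1 := fun a => by rw [← mul_pow, h1, one_pow]
  refine ⟨fun a i => ((√(J : ℝ))⁻¹ : ℝ) * ω ^ ((a : ℕ) * (i : ℕ)), fun a i => ?_,
    fun a i => by simp only [mul_comm], fun a a' => ?_⟩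
  · rw [mul_comm, key, h2, one_pow, mul_one]
  · simp only [key]
    rw [← mul_sum, Fin.sum_univ_eq_sum_range (fun i => (conj ω ^ (a : ℕ) * ω ^ (a' : ℕ)) ^ i)]
    split_ifs with h
    · subst h; simp [h2, hJc]
    · set x := conj ω ^ (a : ℕ) * ω ^ (a' : ℕ) with hx
      have x1 : x ≠ 1 := fun e => h (Fin.ext (hp.pow_inj a.2 a'.2 (by
        have : ω ^ (a : ℕ) * x = ω ^ (a' : ℕ) := by
          rw [hx, ← mul_assoc, mul_comm (ω ^ (a : ℕ)), h2, one_mul]
        rw [← this, e, mul_one])))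
      have x2 : x ^ J = 1 := by
        rw [hx, mul_pow, ← pow_mul, ← pow_mul, mul_comm _ J, mul_comm _ J, pow_mul, pow_mul,
          ← map_pow, hp.pow_eq_one]; simp
      rw [geom_sum_eq x1, x2]; simp

variable {H : Type*} [NormedAddCommGroup H] [InnerProductSpace ℂ H] [CompleteSpace H]
variable {M : VonNeumannAlgebra H}

lemma CT.sub {k : ℕ} {ζ : Fin k → H} (h : CT M ζ) {e f : H →L[ℂ] H} (pf : IsStarProjection f)
    (hs : Sub M e f) : ∑ a, ‖e (ζ a)‖ ^ 2 ≤ 2 * ∑ a, ‖f (ζ a)‖ ^ 2 := by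
  obtain ⟨v, vM, hv, v1, v2⟩ := hs
  have h1 := h (star v) (star_mem vM)
  rw [star_star] at h1
  have v2' : star v * f = star v := by simpa [pstar pf] using congrArg star v2
  calc ∑ a, ‖e (ζ a)‖ ^ 2 = ∑ a, ‖v (ζ a)‖ ^ 2 :=
        sum_congr rfl fun a _ => normsq_congr (by rw [← v1, pstar hv.dom, pmul hv.dom]) _
    _ ≤ _ := h1.trans (by
        refine mul_le_mul_of_nonneg_left (sum_le_sum fun a _ => ?_) zero_le_two
        rw [← v2']
        exact pow_le_pow_left₀ (norm_nonneg _) (apply_le_of_le_one hv.star.norm_le _) 2)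

/-- two mutually unbiased systems -/
lemma Sys.fourier {J : ℕ} (hJ : 0 < J) {w : Fin J → H →L[ℂ] H} {q f : H →L[ℂ] H} (h : Sys M w q f) :
    ∃ W : Bool → Fin J → H →L[ℂ] H, W false = w ∧ (∀ b, Sys M (W b) q f) ∧
      (∀ b b' i a, b ≠ b' → W b i * star (W b i) * (W b' a * star (W b' a)) * (W b i * star (W b i)) =
        ((J : ℝ)⁻¹ : ℝ) • (W b i * star (W b i))) ∧
      ∀ A : H →L[ℂ] H, (∀ i j, A * (w i * star (w j)) = w i * star (w j) * A) →
        ∀ b i, A * (W b i * star (W b i)) = W b i * star (W b i) * A := by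
  obtain ⟨c, c1, c2, c3⟩ := exists_fourier J hJ
  let w' : Fin J → H →L[ℂ] H := fun a => ∑ i, c a i • w i
  have e1 : ∀ i a, star (w i) * w' a = c a i • q := fun i a => by
    simp only [w', mul_sum, mul_smul_comm, h.orth, smul_ite, smul_zero, sum_ite_eq, mem_univ, if_true]
  have e1' : ∀ i a, star (w' a) * w i = conj (c a i) • q := fun i a => by
    have := congrArg star (e1 i a)
    simpa [pstar h.proj] using this
  have e2 : ∀ a a', w' a * star (w' a') = ∑ i, ∑ j, (c a i * conj (c a' j)) • (w i * star (w j)) :=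
    fun a a' => by
      simp only [w']
      rw [sstar, sum_mul]
      refine sum_congr rfl fun i _ => ?_
      rw [mul_sum]
      exact sum_congr rfl fun j _ => by simp [smul_smul, mul_comm]
  have h' : Sys M w' q f := by
    refine ⟨fun a => sum_mem fun i _ => vsmul_mem _ (h.mem i), h.qmem, h.proj, fun a a' => ?_, ?_⟩
    · conv_lhs => rhs; simp only [w']
      simp only [mul_sum, mul_smul_comm, e1', smul_smul]
      rw [← sum_smul, sum_congr rfl fun i _ => mul_comm (c a' i) _, c3]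
      split_ifs <;> simp
    · simp only [e2]
      rw [sum_comm, ← h.sum]
      refine sum_congr rfl fun i _ => ?_
      rw [sum_comm]
      simp only [← sum_smul]
      have : ∀ j, ∑ a, c a i * conj (c a j) = if j = i then 1 else 0 := fun j => by
        rw [← c3 j i]; exact sum_congr rfl fun a _ => by rw [c2 a i, c2 a j, mul_comm]
      simp [this]
  have hJ' : (((J : ℝ)⁻¹ : ℝ) : ℂ) = (J : ℂ)⁻¹ := by simp
  have key : ∀ (x y : H →L[ℂ] H) (s : ℂ), x * q = x → star x * y = s • q → s * conj s = (J : ℂ)⁻¹ →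
      x * star x * (y * star y) * (x * star x) = ((J : ℝ)⁻¹ : ℝ) • (x * star x) := by
    intro x y s h1 h2 h3
    have h4 : star y * x = conj s • q := by simpa [pstar h.proj] using congrArg star h2
    have : x * star x * (y * star y) * (x * star x) = x * (star x * y) * (star y * x) * star x := by
      simp only [mul_assoc]
    rw [this, h2, h4, ← Complex.coe_smul, hJ', ← h3]
    simp only [mul_smul_comm, smul_mul_assoc, smul_smul, h1, mul_comm]
  refine ⟨fun b => if b then w' else w, by simp, fun b => by cases b <;> simpa, ?_, ?_⟩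
  · rintro (_ | _) (_ | _) i a hb
    · exact absurd rfl hb
    · simpa using key (w i) (w' a) _ (h.wq i) (e1 i a) (c1 a i)
    · simpa using key (w' i) (w a) _ (h'.wq i) (e1' a i) (by simpa [mul_comm] using c1 i a)
    · exact absurd rfl hb
  · rintro A hA (_ | _) i
    · simpa using hA i i
    · simp only [if_true, e2, mul_sum, sum_mul, mul_smul_comm, smul_mul_assoc, hA]

end Crest.Agent.H5.KS
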