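import Crest.Agent.H5.KS.Fin

/-! The infinite case: on a nonzero central part, `1` is a sum of two projections `≲ p`. -/

set_option autoImplicit false
set_option linter.unusedSectionVars false
set_option linter.style.haveILetI false

namespace Crest.Agent.H5.KS

open scoped InnerProductSpace
open Filter Topology Finset

variable {H : Type*} [NormedAddCommGroup H] [InnerProductSpace ℂ H] [CompleteSpace H]

lemma SSC.sum {ι κ : Type*} {F : Filter ι} (s : Finset κ) {T : κ → ι → H →L[ℂ] H}
    {t : κ → H →L[ℂ] H} (h : ∀ k ∈ s, SSC F (T k) (t k)) :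
    SSC F (fun i => ∑ k ∈ s, T k i) (∑ k ∈ s, t k) := by
  classical
  induction s using Finset.induction_on with
  | empty => simpa using SSC.const 0
  | insert a s ha ih =>
    simp only [sum_insert ha]
    exact (h a (mem_insert_self _ _)).add (ih fun k hk => h k (mem_insert_of_mem hk))

lemma SSC.hat {ι κ : Type*} [Fintype κ] {F : Filter ι} (w : κ → H →L[ℂ] H) {T : ι → H →L[ℂ] H}
    {t : H →L[ℂ] H} (h : SSC F T t) : SSC F (fun i => Sys.hat w (T i)) (Sys.hat w t) :=
  SSC.sum _ fun _ _ => ((SSC.const _).mul h).mul (SSC.const _)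

lemma dom_sum_orth {ι : Type*} [DecidableEq ι] (s : Finset ι) {t : ι → H →L[ℂ] H}
    (y : ι → H →L[ℂ] H) {q : H →L[ℂ] H}
    (h : ∀ i ∈ s, ∀ j ∈ s, star (t i) * t j = if i = j then q else 0) :
    star (∑ i ∈ s, t i * star (y i)) * (∑ i ∈ s, t i * star (y i)) = ∑ i ∈ s, y i * q * star (y i) := by
  rw [sstar, sum_mul]
  refine sum_congr rfl fun i hi => ?_
  rw [mul_sum, sum_eq_single i]
  · rw [star_mul, star_star, mul_assoc, ← mul_assoc (star (t i)), h i hi i hi, if_pos rfl, mul_assoc]
  · intro j hj hne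
    rw [star_mul, mul_assoc, ← mul_assoc (star (t i)), h i hi j hj, if_neg hne.symm]; simp
  · intro hi'; exact absurd hi hi'

/-- strong sum of an orthogonal sequence of partial isometries -/
lemma exists_seq_sum (u : ℕ → H →L[ℂ] H) (hp : ∀ n, PI (u n))
    (h1 : ∀ n m, n ≠ m → star (u n) * u m = 0) (h2 : ∀ n m, n ≠ m → u n * star (u m) = 0) :
    ∃ t, SSC atTop (fun N => ∑ n ∈ range N, u n) t ∧ (∀ N, PI (∑ n ∈ range N, u n)) ∧
      ∀ N, SLe (∑ n ∈ range N, u n) t := by
  have o1 : ∀ N m, N ≤ m → star (∑ n ∈ range N, u n) * u m = 0 := fun N m hm => by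
    rw [sstar, sum_mul]
    exact sum_eq_zero fun n hn => h1 n m (by have := mem_range.1 hn; omega)
  have o2 : ∀ N m, N ≤ m → u m * star (∑ n ∈ range N, u n) = 0 := fun N m hm => by
    rw [sstar, mul_sum]
    exact sum_eq_zero fun n hn => h2 m n (by have := mem_range.1 hn; omega)
  have hP : ∀ N, PI (∑ n ∈ range N, u n) := fun N => by
    induction N with
    | zero => simpa using PI.zero
    | succ N ih => rw [sum_range_succ]; exact ih.add (hp N) (o1 N N le_rfl) (o2 N N le_rfl)
  have hle : ∀ N K, N ≤ K → SLe (∑ n ∈ range N, u n) (∑ n ∈ range K, u n) := fun N K hK => by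
    induction K, hK using Nat.le_induction with
    | base => exact SLe.refl _
    | succ K hK ih =>
      rw [sum_range_succ _ K]
      exact ⟨by rw [mul_add, o1 N K hK, add_zero, ih.1], by rw [add_mul, o2 N K hK, add_zero, ih.2]⟩
  obtain ⟨t, ht, ht'⟩ := exists_chain_lim atTop (fun N => ∑ n ∈ range N, u n) hP
    fun N => (eventually_ge_atTop N).mono (hle N)
  exact ⟨t, ht, hP, ht'⟩

variable {M : VonNeumannAlgebra H} {κ : Type*} [Fintype κ] [DecidableEq κ]
  {E : κ → H →L[ℂ] H} {p : H →L[ℂ] H}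

lemma absorb (hE : Sys M E p 1) {f q : H →L[ℂ] H} (hpf : p * f = f) {t : ℕ → H →L[ℂ] H}
    (pq : IsStarProjection q) (tM : ∀ n, t n ∈ M) (ft : ∀ n, f * t n = t n)
    (ht : ∀ n m, star (t n) * t m = if n = m then q else 0) :
    ∃ b ∈ M, ∃ s ∈ M, f * b = b ∧ star b = b ∧ PI s ∧ star s * s = Sys.hat E b ∧ b * s = s ∧
      b * t 0 = t 0 := by
  have tP : ∀ n, PI (t n) := fun n => PI.of_dom (by rw [ht, if_pos rfl]; exact pq)
  have tq : ∀ n, t n * q = t n := fun n => by
    have := (tP n).eq'; rwa [ht, if_pos rfl] at this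
  have pt : ∀ n, p * t n = t n := fun n => by rw [← ft n, ← mul_assoc, hpf]
  obtain ⟨φ, hφ⟩ : ∃ φ : ℕ × κ → ℕ, Function.Injective φ := exists_injective_nat _
  obtain ⟨b, hb, -, hb2⟩ := exists_seq_sum (fun n => t n * star (t n)) (fun n => PI.of_proj (tP n).ran)
    (fun n m h => by
      rw [star_mul, star_star, mul_assoc, ← mul_assoc (star (t n)), ht, if_neg h]; simp)
    (fun n m h => by
      rw [star_mul, star_star, mul_assoc, ← mul_assoc (star (t n)), ht, if_neg h]; simp)
  let u : ℕ → H →L[ℂ] H := fun n => ∑ i, t (φ (n, i)) * star (E i * t n)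
  have hu : ∀ n, star (u n) * u n = Sys.hat E (t n * star (t n)) := fun n => by
    rw [dom_sum_orth (q := q) univ _ (fun i _ j _ => by
      rw [ht]; simp [hφ.eq_iff])]
    exact sum_congr rfl fun i _ => by rw [mul_assoc (E i), tq, star_mul]; simp only [mul_assoc]
  have hu1 : ∀ n m, n ≠ m → star (u n) * u m = 0 := fun n m h => by
    simp only [u]
    rw [sstar, sum_mul]
    refine sum_eq_zero fun i _ => ?_
    rw [mul_sum]
    refine sum_eq_zero fun j _ => ?_
    rw [star_mul, mul_assoc, ← mul_assoc (star (t _)), ht,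
      if_neg fun e => h (congrArg Prod.fst (hφ e))]; simp
  have hu2 : ∀ n m, n ≠ m → u n * star (u m) = 0 := fun n m h => by
    simp only [u]
    rw [sstar, sum_mul]
    refine sum_eq_zero fun i _ => ?_
    rw [mul_sum]
    refine sum_eq_zero fun j _ => ?_
    have : star (E i * t n) * (E j * t m) = 0 := by
      rw [star_mul, mul_assoc, ← mul_assoc (star (E i)), hE.orth]
      split_ifs
      · rw [pt, ht, if_neg h]
      · simp
    rw [star_mul (t (φ (m, j))), star_star, mul_assoc, ← mul_assoc (star (E i * t n)), this]; simp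
  obtain ⟨s, hs, hs1, -⟩ := exists_seq_sum u
    (fun n => PI.of_dom (by rw [hu]; exact hE.hat_proj (tP n).ran (by rw [← mul_assoc, pt]))) hu1 hu2
  have bt : ∀ n, b * t n = t n := fun n => by
    have h1 := (hb2 (n + 1)).2
    have h2 : star (∑ k ∈ range (n + 1), t k * star (t k)) = ∑ k ∈ range (n + 1), t k * star (t k) := by
      rw [sstar]; simp
    have h3 : (∑ k ∈ range (n + 1), t k * star (t k)) * t n = t n := by
      rw [sum_mul, sum_eq_single n]
      · exact (tP n).eq
      · intro k _ hk; rw [mul_assoc, ht, if_neg hk, mul_zero]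
      · intro h; exact absurd (self_mem_range_succ n) h
    rw [h2] at h1
    calc b * t n = b * (∑ k ∈ range (n + 1), t k * star (t k)) * t n := by rw [mul_assoc, h3]
      _ = t n := by rw [h1, mul_assoc, h3, h3]
  refine ⟨b, hb.mem (Eventually.of_forall fun N => sum_mem fun n _ =>
      mul_mem (tM n) (star_mem (tM n))), s, hs.mem (Eventually.of_forall fun N => sum_mem fun n _ =>
      sum_mem fun i _ => mul_mem (tM _) (star_mem (mul_mem (hE.mem i) (tM n)))), ?_, ?_,
      hs.pi (Eventually.of_forall hs1), ?_, ?_, bt 0⟩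
  · refine ((SSC.const f).mul hb).eq hb (Eventually.of_forall fun N => ?_)
    rw [mul_sum]; exact sum_congr rfl fun n _ => by rw [← mul_assoc, ft]
  · refine hb.star.eq hb (Eventually.of_forall fun N => ?_)
    rw [sstar]; simp
  · refine (hs.star.mul hs).eq (hb.hat E) (Eventually.of_forall fun N => ?_)
    rw [Sys.hat_sum, sstar, sum_mul]
    refine sum_congr rfl fun n hn => ?_
    rw [mul_sum, sum_eq_single n, hu]
    · intro m _ hm; exact hu1 n m hm.symm
    · intro h; exact absurd hn h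
  · refine ((SSC.const b).mul hs).eq hs (Eventually.of_forall fun N => ?_)
    rw [mul_sum]
    refine sum_congr rfl fun n _ => ?_
    simp only [u]
    rw [mul_sum]
    exact sum_congr rfl fun i _ => by rw [← mul_assoc, bt]

theorem infinite_case [Nonempty κ] (hE : Sys M E p 1) {z : H →L[ℂ] H} (hz : Cen M z)
    (h : ¬ NS M (p * z)) : ∃ z', Cen M z' ∧ z' ≠ 0 ∧ z' * z = z' ∧
      ∃ e₁ e₂, e₁ + e₂ = z' ∧ Sub M e₁ p ∧ Sub M e₂ p := by
  classical
  obtain ⟨i₀⟩ := ‹Nonempty κ›
  let A : (H →L[ℂ] H) → H →L[ℂ] H := fun s => star (E i₀) * (star s * s) * E i₀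
  have hA : ∀ a, star (E i₀) * Sys.hat E a * E i₀ = p * a * p := fun a => by
    rw [hE.w_hat, mul_assoc, hE.dom]
  obtain ⟨s, sM, hs, ⟨h1, h2, h3⟩, hmax⟩ := exists_maxPI M
    (fun s => star s * s = Sys.hat E (A s) ∧ A s * s = s ∧ s * z = s)
    (by simp [A, Sys.hat_zero]) (fun c F _ t hc ht => by
      have hAt : SSC F (fun i => A i.1) (A t) :=
        ((SSC.const _).mul (ht.star.mul ht)).mul (SSC.const _)
      exact ⟨(ht.star.mul ht).eq (hAt.hat E) (Eventually.of_forall fun a => (hc _ a.2).2.2.1.1),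
        (hAt.mul ht).eq ht (Eventually.of_forall fun a => (hc _ a.2).2.2.1.2.1),
        (ht.mul (SSC.const z)).eq ht (Eventually.of_forall fun a => (hc _ a.2).2.2.1.2.2)⟩)
  set a := A s with ha
  have aM : a ∈ M := mul_mem (mul_mem (star_mem (hE.mem _)) (mul_mem (star_mem sM) sM)) (hE.mem _)
  have hpa : p * a = a := by rw [ha]; simp only [A, ← mul_assoc, hE.qw]
  have hap : a * p = a := by rw [ha]; simp only [A, mul_assoc, hE.wq]
  have hsa : star a = a := by rw [ha]; simp [A, mul_assoc]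
  have pa : IsStarProjection a := by
    refine mkproj ?_ hsa
    have e1 := pmul hs.dom
    rw [h1, hE.hat_mul] at e1
    have e2 := congrArg (fun x => star (E i₀) * x * E i₀) e1
    simp only [hA] at e2
    rw [hap, hpa, hap, ← mul_assoc, hpa, mul_assoc, hap] at e2
    exact e2
  have haz : a * z = a := by
    rw [ha]; simp only [A]
    rw [mul_assoc, ← hz.comm _ (hE.mem _), ← mul_assoc, mul_assoc _ _ z, mul_assoc _ _ z, h3]
  have ppz := hz.proj_mul hE.qmem hE.proj
  have hpza : p * z * a = a := by rw [mul_assoc, hz.comm a aM, haz, hpa]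
  have pr := pa.sub_of_mul_eq_right ppz hpza
  set r := p * z - a with hr
  have rM : r ∈ M := sub_mem (mul_mem hE.qmem hz.mem) aM
  have hpr : p * r = r := by rw [hr, mul_sub, ← mul_assoc, pmul hE.proj, hpa]
  have har : a * r = 0 := by rw [hr, mul_sub, ← mul_assoc, hap, haz, pmul pa, sub_self]
  have hzr : z * r = r := by
    rw [hz.comm r rM, hr, sub_mul, mul_assoc, hz.sq, haz]
  have hNS : NS M r := by
    rintro ⟨q, t, pq, q0, tM, rt, ht⟩
    obtain ⟨b, bM, s', s'M, b1, b2, hs', b3, b4, b5⟩ := absorb hE hpr pq tM rt ht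
    have hpb : p * b = b := by rw [← b1, ← mul_assoc, hpr]
    have hbp : b * p = b := flip_mul (pstar hE.proj) b2 b2 hpb
    have hab : a * b = 0 := by rw [← b1, ← mul_assoc, har, zero_mul]
    have hba : b * a = 0 := flip_mul hsa b2 (star_zero _) hab
    have o1 : star s * s' = 0 := by
      have : star s * a = star s := by simpa [hsa] using congrArg star h2
      rw [← this, ← b4, mul_assoc, ← mul_assoc a, hab]; simp
    have o2 : s' * star s = 0 := by
      rw [← hs'.eq', ← hs.seq, b3, h1, mul_assoc, ← mul_assoc (Sys.hat E b), hE.hat_mul, hbp, hba,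
        Sys.hat_zero]; simp
    have hAs : A (s + s') = a + b := by
      simp only [A]
      rw [add_dom o1, mul_add, add_mul, b3, hA, hpb, hbp]
    have hs0 := hmax s' s'M hs' o1 o2 ⟨by rw [hAs, add_dom o1, Sys.hat_add, ← h1, b3], ?_, ?_⟩
    · have e1 : Sys.hat E b = 0 := by rw [← b3, hs0]; simp
      have e2 := hA b
      rw [e1, hpb, hbp] at e2
      have e3 : t 0 = 0 := by rw [← b5, ← e2]; simp
      have e4 := ht 0 0
      rw [e3] at e4
      exact q0 (by simpa using e4.symm)
    · have e1 : a * s' = 0 := by rw [← b4, ← mul_assoc, hab, zero_mul]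
      have e2 : b * s = 0 := by rw [← h2, ← mul_assoc, hba, zero_mul]
      rw [hAs, add_mul, mul_add, mul_add, h2, e1, e2, b4]; simp
    · rw [add_mul, h3, ← hz.comm s' s'M, ← b4, ← mul_assoc, ← b1, ← mul_assoc, hzr]
  unfold NS at h
  push Not at h
  obtain ⟨q, t, pq, q0, tM, ft, ht⟩ := h
  have qM : q ∈ M := by
    have := ht 0 0; rw [if_pos rfl] at this; rw [← this]; exact mul_mem (star_mem (tM 0)) (tM 0)
  have hzq : z * q = q := by
    have e1 := ht 0 0; rw [if_pos rfl] at e1
    have e2 : z * t 0 = t 0 := by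
      rw [← ft 0, ← mul_assoc, ← mul_assoc, hz.comm p hE.qmem, mul_assoc p, hz.sq]
    rw [← e1, ← mul_assoc, hz.comm _ (star_mem (tM 0)), mul_assoc, e2]
  obtain ⟨z', hz', z0, hzz, k, v, vM, vP, vq, vo, vs⟩ := hNS.fam rM pr qM pq q0
  have hzz' := hzz z hz hzq
  obtain ⟨φ, hφ⟩ : ∃ φ : κ × Option (Fin k) → ℕ, Function.Injective φ := exists_injective_nat _
  refine ⟨z', hz', z0, hzz', Sys.hat E (a * z'), Sys.hat E (r * z'), ?_, ⟨s * z', mul_mem sM hz'.mem,
    hz'.pi_mul sM hs, by rw [hz'.dom_mul sM sM, h1, hE.hat_cen hz'], ?_⟩, ?_⟩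
  · rw [← Sys.hat_add, ← add_mul, hr, add_sub_cancel, mul_assoc, hz.comm z' hz'.mem, hzz',
      hE.hat_cen hz', hE.hat_q, one_mul]
  · rw [← mul_assoc, ← h2, ← mul_assoc, hpa]
  · have hV := dom_sum_orth (q := q) (t := fun x : κ × Option (Fin k) => t (φ x)) univ
      (fun x => E x.1 * v x.2) (fun i _ j _ => by rw [ht]; simp [hφ.eq_iff])
    have hV2 : ∑ x : κ × Option (Fin k), E x.1 * v x.2 * q * star (E x.1 * v x.2) =
        Sys.hat E (r * z') := by
      rw [Fintype.sum_prod_type, ← vs]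
      refine sum_congr rfl fun i _ => ?_
      rw [mul_sum, sum_mul]
      exact sum_congr rfl fun j _ => by rw [mul_assoc (E i), vq, star_mul]; simp only [mul_assoc]
    rw [hV2] at hV
    refine ⟨_, sum_mem fun x _ => mul_mem (tM _) (star_mem (mul_mem (hE.mem _) (vM _))),
      PI.of_dom ?_, hV, ?_⟩
    · rw [hV]; exact hE.hat_proj (hz'.proj_mul rM pr) (by rw [← mul_assoc, hpr])
    · rw [mul_sum]
      refine sum_congr rfl fun x _ => ?_
      rw [← mul_assoc, ← ft, ← mul_assoc, ← mul_assoc, pmul hE.proj]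

end Crest.Agent.H5.KS
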