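import Crest.Agent.H5.KS.Thin
import Crest.Agent.H5.KS.Inf

/-! Interface statements for the modules of the proof of the cb bound. -/

set_option autoImplicit false

universe u

namespace Crest.Agent.H5.KS

open scoped InnerProductSpace Pointwise
open Finset

/-- uniform average over a finite type -/
noncomputable def av {Ω : Type*} [Fintype Ω] {V : Type*} [AddCommMonoid V] [Module ℝ V]
    (f : Ω → V) : V := (Fintype.card Ω : ℝ)⁻¹ • ∑ ω, f ω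

section
variable {H : Type*} [NormedAddCommGroup H] [InnerProductSpace ℂ H] [CompleteSpace H]

/-- the positive functional attached to a finite family of vectors -/
noncomputable def tr {k : ℕ} (ζ : Fin k → H) (x : H →L[ℂ] H) : ℂ := ∑ a, ⟪ζ a, x (ζ a)⟫_ℂ

/-- `p` splits into arbitrarily many equivalent pieces -/
def Div (M : VonNeumannAlgebra H) (p : H →L[ℂ] H) : Prop :=
  ∀ n : ℕ, ∃ m : ℕ, n ≤ m ∧ ∃ (q : H →L[ℂ] H) (w : Fin m → H →L[ℂ] H), Sys M w q p ∧ p * q = q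

/-- generators available to batch `ι` -/
def Gen {I Ω : Type} (G₀ : Set (H →L[ℂ] H)) (r : I → ℕ) (u : I → Ω → H →L[ℂ] H) (ι : I) :
    Set (H →L[ℂ] H) :=
  G₀ ∪ {x | ∃ κ t, r κ < r ι ∧ (x = u κ t ∨ x = star (u κ t))}
end

/-- Module A: random block unitaries with the (local) Dixmier property. -/
def BatchStmt : Prop :=
  ∀ (H : Type u) [NormedAddCommGroup H] [InnerProductSpace ℂ H] [CompleteSpace H]
    (M : VonNeumannAlgebra H) (I : Type) [Fintype I] [DecidableEq I] (r : I → ℕ)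
    (g : I → H →L[ℂ] H) (q z : H →L[ℂ] H) (G₀ : Set (H →L[ℂ] H)) (R : ℕ) (ε : ℝ),
    G₀.Finite → (∀ x ∈ G₀, x ∈ M) → IsStarProjection q → Cen M z → z ≠ 0 → 0 < ε →
    (∀ ι, ∃ (K : ℕ) (f : Fin K → H →L[ℂ] H), (∀ a, f a ∈ M ∧ IsStarProjection (f a) ∧ Sub M (f a) q) ∧
      (∀ a b, a ≠ b → f a * f b = 0) ∧ ∑ a, f a = g ι) →
    ∃ z', Cen M z' ∧ z' ≠ 0 ∧ z' * z = z' ∧
      ∃ (Ω : Type) (_ : Fintype Ω) (_ : Nonempty Ω) (neg : Ω ≃ Ω) (u : I → Ω → H →L[ℂ] H),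
        (∀ ι t, u ι t ∈ M ∧ star (u ι t) * u ι t = g ι ∧ u ι t * star (u ι t) = g ι) ∧
        (∀ ι t, u ι (neg t) = - u ι t) ∧
        (∀ ι (k : ℕ) (ζ : Fin k → H), CT M ζ → ∀ a ∈ M, ∀ b ∈ M, ‖a‖ ≤ 1 → ‖b‖ ≤ 1 →
          av (fun t => ‖tr ζ (a * u ι t * b)‖ ^ 2) ≤
            4 * (∑ j, ‖q (ζ j)‖ ^ 2) * ∑ j, ‖ζ j‖ ^ 2) ∧
        ∀ ι, ∀ A ∈ Gen G₀ r u ι ^ R,
          (∃ c : ℂ, ‖(av (fun t => star (u ι t) * A * u ι t) - c • g ι) * z'‖ ≤ ε) ∧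
          (∃ c : ℂ, ‖(av (fun t => u ι t * A * star (u ι t)) - c • g ι) * z'‖ ≤ ε)

/-- Module D: the two one-sided averages along a unitary with thin arcs agree. -/
def ArcStmt : Prop :=
  ∀ (H : Type u) [NormedAddCommGroup H] [InnerProductSpace ℂ H] [CompleteSpace H]
    (M : VonNeumannAlgebra H) (W : H →L[ℂ] H) (m m' : ℕ),
    W ∈ M → star W * W = 1 → W * star W = 1 → 0 < m → 0 < m' →
    ∃ e : Fin m → H →L[ℂ] H, (∀ j, e j ∈ M ∧ IsStarProjection (e j)) ∧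
      (∀ j (k : ℕ) (ζ : Fin k → H) (τ : ℝ), (∀ i, 0 < i → i < m' → ‖tr ζ (W ^ i)‖ ≤ τ) → 0 ≤ τ →
        ∑ a, ‖e j (ζ a)‖ ^ 2 ≤ 4 / m' * ∑ a, ‖ζ a‖ ^ 2 + 4 * τ) ∧
      ∀ (Y o : H →L[ℂ] H) (C : ℝ), Cen M o → Y * o = o * Y → 0 ≤ C →
        (∀ j, Cheap M Y C (e j * o)) → ∀ ξ, o ξ = ξ →
        ‖(∑ j ∈ range m, (star W ^ (j + 1) * Y * W ^ (j + 1) -
            W ^ (j + 1) * Y * star W ^ (j + 1))) ξ‖ ≤
          m * (2 * C + 4 * ‖Y‖ * m' / √m) * ‖ξ‖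

/-- The abstract form of the cb bound for divisible algebras. -/
def AbsDiv : Prop :=
  ∃ C₀ : ℝ, 0 ≤ C₀ ∧ ∀ (H : Type u) [NormedAddCommGroup H] [InnerProductSpace ℂ H] [CompleteSpace H]
    (M : VonNeumannAlgebra H) (h : ℕ) (E : Fin h → H →L[ℂ] H) (p Y X : H →L[ℂ] H) (C : ℝ),
    0 < h → Sys M E p 1 → Div M p → CommE E Y → Hyp M p Y C →
    X ∈ M → star X * X = 1 → X * star X = 1 → ‖cm Y X‖ ≤ C₀ * C

end Crest.Agent.H5.KS
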