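import Crest.Agent.H5.KS.Av

/-! Weighted column bound. -/

set_option autoImplicit false
set_option linter.unusedSectionVars false

namespace Crest.Agent.H5.KS

open scoped InnerProductSpace
open Finset Function

variable {H : Type*} [NormedAddCommGroup H] [InnerProductSpace ℂ H] [CompleteSpace H]
variable {M : VonNeumannAlgebra H}

lemma exists_sqrt_invM {s : H →L[ℂ] H} (sM : s ∈ M) (hs : 0 ≤ s) {ε : ℝ} (hε : 0 < ε) :
    ∃ b ∈ M, ∃ b' ∈ M, star b = b ∧ star b' = b' ∧ b * b' = 1 ∧ b' * b = 1 ∧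
      b * b = s + ε • (1 : H →L[ℂ] H) ∧
      ∀ t : H →L[ℂ] H, t * s = s * t → t * b = b * t ∧ t * b' = b' * t := by
  have hsa : IsSelfAdjoint s := hs.isSelfAdjoint
  have hsp : ∀ x ∈ spectrum ℝ s, 0 < x + ε := fun x hx => by
    have := spectrum_nonneg_of_nonneg hs hx
    linarith
  have c1 : ContinuousOn (fun x : ℝ => √(x + ε)) (spectrum ℝ s) := by fun_prop
  have c2 : ContinuousOn (fun x : ℝ => (√(x + ε))⁻¹) (spectrum ℝ s) :=
    c1.inv₀ fun x hx => (Real.sqrt_pos.2 (hsp x hx)).ne'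
  have hc : ∀ (f : ℝ → ℝ) (t : H →L[ℂ] H), t * s = s * t → t * cfc f s = cfc f s * t :=
    fun f t ht => by
      have : Commute s t := ht.symm
      exact (this.cfc_real f).symm.eq
  have hm : ∀ f : ℝ → ℝ, cfc f s ∈ M := fun f => mem_of_comm fun t ht => hc f t (comm_of_mem sM ht)
  refine ⟨cfc (fun x : ℝ => √(x + ε)) s, hm _, cfc (fun x : ℝ => (√(x + ε))⁻¹) s, hm _,
    (cfc_predicate _ _ : IsSelfAdjoint _).star_eq, (cfc_predicate _ _ : IsSelfAdjoint _).star_eq,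
    ?_, ?_, ?_, fun t ht => ⟨hc _ t ht, hc _ t ht⟩⟩
  · rw [← cfc_mul _ _ s c1 c2, ← cfc_one (R := ℝ) s]
    exact cfc_congr fun x hx => mul_inv_cancel₀ (Real.sqrt_pos.2 (hsp x hx)).ne'
  · rw [← cfc_mul _ _ s c2 c1, ← cfc_one (R := ℝ) s]
    exact cfc_congr fun x hx => inv_mul_cancel₀ (Real.sqrt_pos.2 (hsp x hx)).ne'
  · rw [← cfc_mul _ _ s c1 c1, ← Algebra.algebraMap_eq_smul_one, ← cfc_const ε s]
    conv_rhs => lhs; rw [← cfc_id' ℝ s]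
    rw [← cfc_add s _ _]
    exact cfc_congr fun x hx => Real.mul_self_sqrt (hsp x hx).le

variable {Ω : Type*} [Fintype Ω] [Nonempty Ω]

lemma av_normsq_le (x : Ω → H →L[ℂ] H) (ζ : H) :
    av (fun t => ‖x t ζ‖ ^ 2) ≤ ‖av fun t => star (x t) * x t‖ * ‖ζ‖ ^ 2 := by
  rw [av_normsq]
  refine (Complex.re_le_norm _).trans ((norm_inner_le_norm _ _).trans ?_)
  have := (av fun t => star (x t) * x t).le_opNorm ζ
  nlinarith [norm_nonneg ζ]

lemma Cheap.av {Y e : H →L[ℂ] H} {C : ℝ} (h : Cheap M Y C e) (x : Ω → H →L[ℂ] H)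
    (hx : ∀ i, x i ∈ M ∧ x i * e = x i) (ζ : H) :
    av (fun t => ‖cm Y (x t) ζ‖ ^ 2) ≤ C ^ 2 * ‖av fun t => star (x t) * x t‖ * ‖ζ‖ ^ 2 := by
  have := h.gen univ x (fun i _ => hx i) ζ
  unfold KS.av
  rw [norm_smul, Real.norm_of_nonneg (by positivity), smul_eq_mul]
  have h2 := mul_le_mul_of_nonneg_left this (show (0 : ℝ) ≤ (Fintype.card Ω : ℝ)⁻¹ by positivity)
  linarith

lemma wcol {Y e o D b b' : H →L[ℂ] H} {C ε : ℝ} (h : Cheap M Y C e) (eM : e ∈ M) (ho : Cen M o)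
    (hYo : Y * o = o * Y) (x : Ω → H →L[ℂ] H) (hx : ∀ i, x i ∈ M ∧ x i * e = x i)
    (DM : D ∈ M) (D0 : 0 ≤ D) (b'M : b' ∈ M) (sb' : star b' = b') (h1 : b * b' = 1) (h2 : b' * b = 1)
    (h3 : b * b = D + ε • (1 : H →L[ℂ] H)) (h4 : e * b' = b' * e)
    (h5 : ‖(av (fun t => star (x t) * x t) - D) * o‖ ≤ ε) {ξ : H} (hξ : o ξ = ξ) :
    av (fun t => ‖cm Y (x t) ξ‖ ^ 2) ≤ 2 * C ^ 2 * ‖b ξ‖ ^ 2 + 2 * ‖cm Y b ξ‖ ^ 2 := by
  set a := av (fun t => star (x t) * x t) with ha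
  have aM : a ∈ M := av_mem fun t => mul_mem (star_mem (hx t).1) (hx t).1
  have a0 : 0 ≤ a := av_op_nonneg fun t => star_mul_self_nonneg _
  let x' : Ω → H →L[ℂ] H := fun t => x t * o * b'
  have e1 : av (fun t => star (x' t) * x' t) = b' * (a * o) * b' := by
    rw [ha, ← av_mul_opr, ← av_mul_op]
    congr 1; ext1 t
    simp only [x']
    rw [star_mul _ b', sb', mul_assoc, ← mul_assoc (star _), ho.dom_mul (hx t).1 (hx t).1, mul_assoc b']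
  have e2 : a * o ≤ b * b := by
    have s1 : IsSelfAdjoint ((a - D) * o) := by
      rw [IsSelfAdjoint, star_mul, ho.star_eq, star_sub, a0.isSelfAdjoint.star_eq,
        D0.isSelfAdjoint.star_eq, ho.comm _ (sub_mem aM DM)]
    have s2 := s1.le_algebraMap_norm_self
    rw [Algebra.algebraMap_eq_smul_one] at s2
    have s3 := s2.trans (smul_le_smul_of_nonneg_right h5 zero_le_one)
    have s4 := conj_nonneg' D0 ho.one_sub.proj (ho.one_sub.comm D DM).symm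
    rw [mul_sub, mul_one, sub_nonneg] at s4
    rw [sub_mul, sub_le_iff_le_add'] at s3
    rw [h3]
    exact s3.trans (add_le_add_left s4 _)
  have e3 : ‖av (fun t => star (x' t) * x' t)‖ ≤ 1 := by
    rw [e1]
    exact H7.Kad.norm_conj_le_one (conj_nonneg' a0 ho.proj (ho.comm a aM).symm) sb' h1 h2 e2
  have c1 := h.av x' (fun t => ⟨mul_mem (mul_mem (hx t).1 ho.mem) b'M, by
    simp only [x']
    rw [mul_assoc, ← h4, ← mul_assoc, mul_assoc (x t), ho.comm e eM, ← mul_assoc, (hx t).2]⟩) (b ξ)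
  have c2 := av_normsq_le x' (cm Y b ξ)
  have c3 : ∀ t, ‖cm Y (x t) ξ‖ ^ 2 ≤ 2 * ‖cm Y (x' t) (b ξ)‖ ^ 2 + 2 * ‖x' t (cm Y b ξ)‖ ^ 2 :=
    fun t => by
      have e4 : x' t * b = x t * o := by simp only [x']; rw [mul_assoc, h2, mul_one]
      have e5 : cm Y (x t) ξ = cm Y (x' t * b) ξ := by
        rw [e4, cm_mul, cm_eq_zero hYo, mul_zero, add_zero, mul_apply_eq_comp, hξ]
      rw [e5, cm_mul]
      exact normsq_add_le _ _
  refine (av_mono c3).trans ?_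
  rw [av_add, av_mul_left, av_mul_left]
  have c4 : C ^ 2 * ‖av fun t => star (x' t) * x' t‖ * ‖b ξ‖ ^ 2 ≤ C ^ 2 * 1 * ‖b ξ‖ ^ 2 := by gcongr
  have c5 : ‖av fun t => star (x' t) * x' t‖ * ‖cm Y b ξ‖ ^ 2 ≤ 1 * ‖cm Y b ξ‖ ^ 2 := by gcongr
  nlinarith

lemma normsq_sum_eq {ι : Type*} (s : Finset ι) (v : ι → H) :
    ‖∑ i ∈ s, v i‖ ^ 2 = ∑ i ∈ s, ∑ j ∈ s, (⟪v i, v j⟫_ℂ).re := by
  have : ‖∑ i ∈ s, v i‖ ^ 2 = (⟪∑ i ∈ s, v i, ∑ i ∈ s, v i⟫_ℂ).re := by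
    rw [inner_self_eq_norm_sq_to_K]; norm_cast
  rw [this, sum_inner, Complex.re_sum]
  exact sum_congr rfl fun i _ => by rw [inner_sum, Complex.re_sum]

lemma re_inner_self (v : H) : (⟪v, v⟫_ℂ).re = ‖v‖ ^ 2 := by
  rw [inner_self_eq_norm_sq_to_K]; norm_cast

lemma normsq_sum_orth {ι : Type*} (s : Finset ι) (v : ι → H)
    (h : ∀ i ∈ s, ∀ j ∈ s, i ≠ j → ⟪v i, v j⟫_ℂ = 0) : ‖∑ i ∈ s, v i‖ ^ 2 = ∑ i ∈ s, ‖v i‖ ^ 2 := by
  rw [normsq_sum_eq]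
  refine sum_congr rfl fun i hi => ?_
  rw [sum_eq_single i, re_inner_self]
  · intro j hj hne; rw [h i hi j hj hne.symm]; simp
  · intro h; exact absurd hi h

lemma av_normsq_sum_orth {ι : Type*} (s : Finset ι) (v : ι → Ω → H)
    (h : ∀ i ∈ s, ∀ j ∈ s, i ≠ j → av (fun t => (⟪v i t, v j t⟫_ℂ).re) = 0) :
    av (fun t => ‖∑ i ∈ s, v i t‖ ^ 2) = ∑ i ∈ s, av (fun t => ‖v i t‖ ^ 2) := by
  simp only [normsq_sum_eq]
  rw [av_sum]
  refine sum_congr rfl fun i hi => ?_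
  rw [av_sum, sum_eq_single i]
  · simp only [re_inner_self]
  · intro j hj hne; exact h i hi j hj hne.symm
  · intro h; exact absurd hi h

lemma proj_sum {ι : Type*} (s : Finset ι) (g : ι → H →L[ℂ] H) (h1 : ∀ i ∈ s, IsStarProjection (g i))
    (h2 : ∀ i ∈ s, ∀ j ∈ s, i ≠ j → g i * g j = 0) :
    IsStarProjection (∑ i ∈ s, g i) ∧ ∀ i ∈ s, g i * ∑ i ∈ s, g i = g i := by
  have h3 : ∀ i ∈ s, g i * ∑ i ∈ s, g i = g i := fun i hi => by
    rw [mul_sum, sum_eq_single i, pmul (h1 i hi)]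
    · intro j hj hne; exact h2 i hi j hj hne.symm
    · intro h; exact absurd hi h
  refine ⟨mkproj ?_ ?_, h3⟩
  · rw [sum_mul]; exact sum_congr rfl h3
  · rw [sstar]; exact sum_congr rfl fun i hi => pstar (h1 i hi)

lemma sum_proj_normsq {ι : Type*} (s : Finset ι) (g : ι → H →L[ℂ] H)
    (h1 : ∀ i ∈ s, IsStarProjection (g i)) (h2 : ∀ i ∈ s, ∀ j ∈ s, i ≠ j → g i * g j = 0) (ζ : H) :
    ∑ i ∈ s, ‖g i ζ‖ ^ 2 ≤ ‖ζ‖ ^ 2 := by
  have := sum_normsq_le s g ζ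
  rw [sum_congr rfl fun i hi => show star (g i) * g i = g i by rw [pstar (h1 i hi), pmul (h1 i hi)]]
    at this
  have h3 := (proj_sum s g h1 h2).1.norm_le
  nlinarith [sq_nonneg ‖ζ‖]

end Crest.Agent.H5.KS
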