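import Crest.Agent.H5.KS.Rec
import Crest.Agent.H5.KS.WCol

/-! Expansion of the random product into words; the words with repeated letters are negligible. -/

set_option autoImplicit false
set_option linter.unusedSectionVars false

namespace Crest.Agent.H5.KS

open scoped InnerProductSpace
open Finset Function

variable {H : Type*} [NormedAddCommGroup H] [InnerProductSpace ℂ H] [CompleteSpace H]
variable {I Ω : Type*} [Fintype I] [DecidableEq I] [Fintype Ω] [Nonempty Ω]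

/-- type of the letter at time `t` -/
def par : ℕ → Bool
  | 0 => false
  | t + 1 => !par t

/-- alternating words without repeated letters -/
def Gs (ty : I → Bool) : ℕ → Finset (List I)
  | 0 => {[]}
  | t + 1 => ((Gs ty t ×ˢ univ).filter fun p => ty p.2 = par t ∧ p.2 ∉ p.1).image
      fun p => p.2 :: p.1

lemma sum_Gs {V : Type*} [AddCommMonoid V] (ty : I → Bool) (t : ℕ) (f : List I → V) :
    ∑ σ ∈ Gs ty (t + 1), f σ =
      ∑ σ ∈ Gs ty t, ∑ ι ∈ univ.filter (fun ι => ty ι = par t ∧ ι ∉ σ), f (ι :: σ) := by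
  rw [Gs, sum_image (fun p _ q _ h => by
    simp only [List.cons.injEq] at h; exact Prod.ext h.2 h.1), sum_filter, sum_product]
  exact sum_congr rfl fun σ _ => by rw [sum_filter]

lemma mem_Gs {ty : I → Bool} {t : ℕ} {σ : List I} (h : σ ∈ Gs ty (t + 1)) :
    ∃ ι σ', σ = ι :: σ' ∧ σ' ∈ Gs ty t ∧ ty ι = par t ∧ ι ∉ σ' := by
  rw [Gs, mem_image] at h
  obtain ⟨p, hp, rfl⟩ := h
  rw [mem_filter, mem_product] at hp
  exact ⟨p.2, p.1, rfl, hp.1.1, hp.2⟩

lemma Gs_len {ty : I → Bool} {t : ℕ} {σ : List I} (h : σ ∈ Gs ty t) : σ.length = t ∧ σ.Nodup := by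
  induction t generalizing σ with
  | zero => rw [Gs, mem_singleton] at h; subst h; simp
  | succ t ih =>
    obtain ⟨ι, σ', rfl, h1, -, h3⟩ := mem_Gs h
    exact ⟨by simp [(ih h1).1], List.nodup_cons.2 ⟨h3, (ih h1).2⟩⟩

lemma card_Gs (ty : I → Bool) (t : ℕ) : (Gs ty t).card ≤ Fintype.card I ^ t := by
  induction t with
  | zero => simp [Gs]
  | succ t ih =>
    rw [Gs]
    refine card_image_le.trans ((card_filter_le _ _).trans ?_)
    rw [card_product, card_univ, pow_succ]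
    exact Nat.mul_le_mul_right _ ih

lemma card_Gs_le (ty : I → Bool) {t n : ℕ} (h : t ≤ n) :
    ((Gs ty t).card : ℝ) ≤ (Fintype.card I + 1) ^ n := by
  have h1 := card_Gs ty t
  have h2 : Fintype.card I ^ t ≤ (Fintype.card I + 1) ^ t := Nat.pow_le_pow_left (by omega) _
  have h3 : (Fintype.card I + 1) ^ t ≤ (Fintype.card I + 1) ^ n := Nat.pow_le_pow_right (by omega) h
  exact_mod_cast h1.trans (h2.trans h3)

/-- one layer -/
noncomputable def lay (ty : I → Bool) (y : I → Ω → H →L[ℂ] H) (b : Bool) (ω : I → Ω) : H →L[ℂ] H :=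
  ∑ ι ∈ univ.filter (fun ι => ty ι = b), y ι (ω ι)

/-- product of the first `t` layers -/
noncomputable def Bt (ty : I → Bool) (y : I → Ω → H →L[ℂ] H) : ℕ → (I → Ω) → H →L[ℂ] H
  | 0 => fun _ => 1
  | t + 1 => fun ω => lay ty y (par t) ω * Bt ty y t ω

/-- its part without repeated letters -/
noncomputable def Bg (ty : I → Bool) (y : I → Ω → H →L[ℂ] H) (t : ℕ) (ω : I → Ω) : H →L[ℂ] H :=
  ∑ σ ∈ Gs ty t, wd y σ ω

lemma par_two_mul (m : ℕ) : par (2 * m) = false := by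
  induction m with
  | zero => rfl
  | succ m ih => rw [Nat.mul_succ, par, par, ih]; rfl

lemma Bt_two_mul (ty : I → Bool) (y : I → Ω → H →L[ℂ] H) (m : ℕ) (ω : I → Ω) :
    Bt ty y (2 * m) ω = (lay ty y true ω * lay ty y false ω) ^ m := by
  induction m with
  | zero => rfl
  | succ m ih =>
    rw [Nat.mul_succ, Bt, Bt]
    simp only [par, par_two_mul, ih, Bool.not_false]
    rw [pow_succ', mul_assoc]

/-- hypotheses of the expansion lemma -/
structure CData (M : VonNeumannAlgebra H) (o : H →L[ℂ] H) (r : I → ℕ) (g : I → H →L[ℂ] H)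
    (y : I → Ω → H →L[ℂ] H) (ρ : I → (H →L[ℂ] H) →ₗ[ℂ] ℂ) (n : ℕ) (ε : ℝ)
    (ty : I → Bool) (neg : Ω ≃ Ω) (J Λ : ℝ) : Prop extends RData M o r g y ρ n ε where
  hneg : ∀ ι t, y ι (neg t) = - y ι t
  ydom : ∀ ι t, star (y ι t) * y ι t = g ι
  yorth : ∀ ι κ t s, ι ≠ κ → ty ι = ty κ → star (y ι t) * y κ s = 0
  gorth : ∀ ι κ, ι ≠ κ → ty ι = ty κ → g ι * g κ = 0
  gsum : (∑ ι ∈ univ.filter (fun ι => ty ι = false), g ι) * o = o
  J0 : 0 < J
  Λ1 : 1 ≤ Λ
  flat : ∀ κ ι t, ty κ = false → ty ι = true → star (y κ t) * g ι * y κ t = (J⁻¹ : ℝ) • g κ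
  H3 : ∃ l : I → I → ℝ, (∀ κ ι, 0 ≤ l κ ι) ∧ (∀ κ ι η, ty κ = true → ty ι = false → o η = η →
    av (fun t => ‖g ι (y κ t η)‖ ^ 2) ≤ l κ ι * ‖g κ η‖ ^ 2) ∧
    ∀ ι, ty ι = false → ∑ κ ∈ univ.filter (fun κ => ty κ = true), l κ ι ≤ Λ

variable {M : VonNeumannAlgebra H} {o : H →L[ℂ] H} {r : I → ℕ} {g : I → H →L[ℂ] H}
  {y : I → Ω → H →L[ℂ] H} {ρ : I → (H →L[ℂ] H) →ₗ[ℂ] ℂ} {n : ℕ} {ε : ℝ}
  {ty : I → Bool} {neg : Ω ≃ Ω} {J Λ : ℝ}

namespace CData

lemma yg (D : CData M o r g y ρ n ε ty neg J Λ) (ι : I) (t : Ω) : y ι t * g ι = y ι t := by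
  rw [← D.ydom ι t]; exact (PI.of_dom (by rw [D.ydom]; exact D.gp ι)).eq'

lemma normsq_y (D : CData M o r g y ρ n ε ty neg J Λ) (ι : I) (t : Ω) (ζ : H) :
    ‖y ι t ζ‖ ^ 2 = ‖g ι ζ‖ ^ 2 := normsq_congr (by rw [D.ydom, pstar (D.gp ι), pmul (D.gp ι)]) ζ

lemma sum_g (D : CData M o r g y ρ n ε ty neg J Λ) (s : Finset I) {b : Bool} (hs : ∀ ι ∈ s, ty ι = b)
    (ζ : H) : ∑ ι ∈ s, ‖g ι ζ‖ ^ 2 ≤ ‖ζ‖ ^ 2 :=
  sum_proj_normsq s g (fun i _ => D.gp i)
    (fun i hi j hj h => D.gorth i j h ((hs i hi).trans (hs j hj).symm)) ζ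

lemma normsq_sum_y (D : CData M o r g y ρ n ε ty neg J Λ) (s : Finset I) {b : Bool}
    (hs : ∀ ι ∈ s, ty ι = b) (ω : I → Ω) (v : I → H) :
    ‖∑ ι ∈ s, y ι (ω ι) (v ι)‖ ^ 2 = ∑ ι ∈ s, ‖g ι (v ι)‖ ^ 2 := by
  rw [normsq_sum_orth s _ fun i hi j hj h => by
    rw [← inner_star_right, ← mul_apply_eq_comp,
      D.yorth i j _ _ h ((hs i hi).trans (hs j hj).symm)]; simp]
  exact sum_congr rfl fun i _ => D.normsq_y _ _ _

lemma lay_le (D : CData M o r g y ρ n ε ty neg J Λ) (b : Bool) (ω : I → Ω) (ζ : H) :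
    ‖lay ty y b ω ζ‖ ≤ ‖ζ‖ := by
  have := D.normsq_sum_y (univ.filter fun ι => ty ι = b) (b := b) (by simp) ω fun _ => ζ
  have h2 := D.sum_g (univ.filter fun ι => ty ι = b) (b := b) (by simp) ζ
  rw [← this, ← _root_.sum_apply] at h2
  exact le_trans (le_abs_self _) (abs_le_of_sq_le_sq h2 (norm_nonneg _))

lemma sumsq (D : CData M o r g y ρ n ε ty neg J Λ) (t : ℕ) (ω : I → Ω) (η : H) :
    ∑ σ ∈ Gs ty t, ‖wd y σ ω η‖ ^ 2 ≤ ‖η‖ ^ 2 := by
  induction t with
  | zero => simp [Gs]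
  | succ t ih =>
    rw [sum_Gs]
    refine le_trans (sum_le_sum fun σ _ => ?_) ih
    simp only [wd_cons, mul_apply_eq_comp, D.normsq_y]
    exact D.sum_g _ (b := par t) (fun ι hι => (mem_filter.1 hι).2.1) _

lemma av_sumsq (D : CData M o r g y ρ n ε ty neg J Λ) (t : ℕ) (η : H) :
    ∑ σ ∈ Gs ty t, av (fun ω => ‖wd y σ ω η‖ ^ 2) ≤ ‖η‖ ^ 2 := by
  rw [← av_sum]; exact av_le fun ω => D.sumsq t ω η

lemma wd_flip (D : CData M o r g y ρ n ε ty neg J Λ) {σ : List I} (hn : σ.Nodup) {ι : I} (hι : ι ∈ σ)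
    (ω : I → Ω) : wd y σ (update ω ι (neg (ω ι))) = - wd y σ ω := by
  obtain ⟨β, α, rfl⟩ := List.append_of_mem hι
  have := wd_split y hn ω (ω ι)
  rw [update_eq_self] at this
  rw [wd_split y hn, this, D.hneg]; simp

lemma orth {V : Type*} [AddCommGroup V] [Module ℝ V] (D : CData M o r g y ρ n ε ty neg J Λ)
    {σ σ' : List I} (hn : σ.Nodup) (hn' : σ'.Nodup) (h : σ.toFinset ≠ σ'.toFinset)
    (F : (H →L[ℂ] H) → (H →L[ℂ] H) → V) (F1 : ∀ a b, F (-a) b = - F a b)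
    (F2 : ∀ a b, F a (-b) = - F a b) : av (fun ω => F (wd y σ ω) (wd y σ' ω)) = 0 := by
  have : ∃ ι, (ι ∈ σ ∧ ι ∉ σ') ∨ (ι ∉ σ ∧ ι ∈ σ') := by
    by_contra hc
    push Not at hc
    apply h; ext ι
    have := hc ι
    simp only [List.mem_toFinset]; tauto
  obtain ⟨ι, h | h⟩ := this
  · exact av_flip neg ι _ fun ω => by rw [D.wd_flip hn h.1, wd_update y h.2, F1]
  · exact av_flip neg ι _ fun ω => by rw [D.wd_flip hn' h.2, wd_update y h.1, F2]

lemma od' (D : CData M o r g y ρ n ε ty neg J Λ) {t : ℕ} (ht : t ≤ n) {σ σ' : List I}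
    (h : σ ∈ Gs ty t) (h' : σ' ∈ Gs ty t) (hne : σ ≠ σ') {Z : H →L[ℂ] H} (hZ : Z = 1 ∨ ∃ κ, Z = g κ) :
    ‖av (fun ω => star (wd y σ' ω) * Z * wd y σ ω) * o‖ ≤ 2 * n * ε := by
  have ε0 := D.ε0
  by_cases hs : σ.toFinset = σ'.toFinset
  · have := D.toRData.od t ht σ σ' (Gs_len h).1 (Gs_len h).2
      (List.perm_of_nodup_nodup_toFinset_eq (Gs_len h).2 (Gs_len h').2 hs) hne Z hZ
    have h2 : (t : ℝ) ≤ n := by exact_mod_cast ht
    nlinarith
  · rw [D.orth (Gs_len h).2 (Gs_len h').2 hs (fun a b => star b * Z * a) (by simp) (by simp)]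
    simp only [zero_mul, norm_zero]; positivity

lemma quad (D : CData M o r g y ρ n ε ty neg J Λ) {t : ℕ} (ht : t ≤ n) (S : Finset (List I))
    (hS : S ⊆ Gs ty t) {Z : H →L[ℂ] H} (hZ : Z = 1 ∨ ∃ κ, Z = g κ) :
    ‖(av (fun ω => star (∑ σ ∈ S, wd y σ ω) * Z * ∑ σ ∈ S, wd y σ ω) -
      ∑ σ ∈ S, av (fun ω => star (wd y σ ω) * Z * wd y σ ω)) * o‖ ≤
      ((Fintype.card I + 1) ^ n) ^ 2 * (2 * n * ε) := by
  have ε0 := D.ε0
  have e1 : av (fun ω => star (∑ σ ∈ S, wd y σ ω) * Z * ∑ σ ∈ S, wd y σ ω) =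
      ∑ σ ∈ S, ∑ σ' ∈ S, av (fun ω => star (wd y σ' ω) * Z * wd y σ ω) := by
    simp only [← av_sum]
    congr 1; ext1 ω
    rw [mul_sum]
    exact sum_congr rfl fun σ _ => by rw [sstar, sum_mul, sum_mul]
  rw [e1, ← sum_sub_distrib, sum_mul]
  have hc : (S.card : ℝ) ≤ (Fintype.card I + 1) ^ n :=
    le_trans (by exact_mod_cast card_le_card hS) (card_Gs_le ty ht)
  refine (norm_sum_le _ _).trans ((sum_le_card_nsmul _ _ ((S.card : ℝ) * (2 * n * ε))
    fun σ hσ => ?_).trans ?_)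
  · rw [← add_sum_erase _ _ hσ, add_sub_cancel_left, sum_mul]
    refine (norm_sum_le _ _).trans ((sum_le_card_nsmul _ _ (2 * n * ε) fun σ' hσ' =>
      D.od' ht (hS hσ) (hS (mem_of_mem_erase hσ')) (ne_of_mem_erase hσ').symm hZ).trans ?_)
    rw [nsmul_eq_mul]
    gcongr
    exact erase_subset _ _
  · rw [nsmul_eq_mul, ← mul_assoc, sq]
    gcongr

lemma quad_vec (D : CData M o r g y ρ n ε ty neg J Λ) {t : ℕ} (ht : t ≤ n) (S : Finset (List I))
    (hS : S ⊆ Gs ty t) (κ : I) {η : H} (hη : o η = η) :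
    av (fun ω => ‖g κ ((∑ σ ∈ S, wd y σ ω) η)‖ ^ 2) ≤
      ∑ σ ∈ S, av (fun ω => ‖g κ (wd y σ ω η)‖ ^ 2) +
      ((Fintype.card I + 1) ^ n) ^ 2 * (2 * n * ε) * ‖η‖ ^ 2 := by
  have key : ∀ x : (I → Ω) → H →L[ℂ] H, av (fun ω => ‖g κ (x ω η)‖ ^ 2) =
      (⟪η, av (fun ω => star (x ω) * g κ * x ω) η⟫_ℂ).re := fun x => by
    have := av_normsq (fun ω => g κ * x ω) η
    simp only [star_mul, pstar (D.gp κ), mul_assoc, pmul' (D.gp κ), mul_apply_eq_comp] at this
    simpa only [mul_assoc] using this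
  have h := D.quad ht S hS (Or.inr ⟨κ, rfl⟩)
  simp only [key]
  rw [← Complex.re_sum, ← inner_sum, ← _root_.sum_apply, ← sub_le_iff_le_add', ← re_inner_sub]
  set T := av (fun ω => star (∑ σ ∈ S, wd y σ ω) * g κ * ∑ σ ∈ S, wd y σ ω) -
      ∑ σ ∈ S, av (fun ω => star (wd y σ ω) * g κ * wd y σ ω)
  have e : T η = (T * o) η := by rw [mul_apply_eq_comp, hη]
  rw [e]
  refine (Complex.re_le_norm _).trans ((norm_inner_le_norm _ _).trans ?_)
  have := ((T * o).le_opNorm η).trans (mul_le_mul_of_nonneg_right h (norm_nonneg _))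
  nlinarith [norm_nonneg η]

lemma card_filter_mem (σ : List I) (P : I → Prop) [DecidablePred P] :
    ((univ.filter fun ι => P ι ∧ ι ∈ σ).card : ℝ) ≤ σ.length := by
  have : (univ.filter fun ι => P ι ∧ ι ∈ σ) ⊆ σ.toFinset := fun ι h => by
    simpa using (mem_filter.1 h).2.2
  exact_mod_cast (card_le_card this).trans (List.toFinset_card_le σ)

lemma flat_vec (D : CData M o r g y ρ n ε ty neg J Λ) {s : ℕ} (hs : par s = false) {σ : List I}
    (hσ : σ ∈ Gs ty (s + 1)) {ι : I} (hι : ty ι = true) (ω : I → Ω) (η : H) :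
    ‖g ι (wd y σ ω η)‖ ^ 2 = J⁻¹ * ‖wd y σ ω η‖ ^ 2 := by
  obtain ⟨κ, σ', rfl, -, h2, -⟩ := mem_Gs hσ
  rw [wd_cons, mul_apply_eq_comp, D.normsq_y, ← mul_apply_eq_comp, norm_sq_eq_re, star_mul,
    pstar (D.gp ι), mul_assoc, pmul' (D.gp ι), ← mul_assoc, D.flat κ ι _ (h2.trans hs) hι,
    re_inner_rsmul, re_inner_proj (D.gp κ)]

lemma o_wd (D : CData M o r g y ρ n ε ty neg J Λ) (σ : List I) (ω : I → Ω) {η : H} (hη : o η = η) :
    o (wd y σ ω η) = wd y σ ω η := by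
  rw [← mul_apply_eq_comp, D.ho.comm _ (wd_mem D.yM σ ω), mul_apply_eq_comp, hη]

lemma diag (D : CData M o r g y ρ n ε ty neg J Λ) (t : ℕ) {η : H} (hη : o η = η) :
    ∑ σ ∈ Gs ty t, ∑ ι ∈ univ.filter (fun ι => ty ι = par t ∧ ι ∈ σ),
      av (fun ω => ‖g ι (wd y σ ω η)‖ ^ 2) ≤ t * Λ / J * ‖η‖ ^ 2 := by
  have J0 := D.J0
  have Λ1 := D.Λ1
  have fin : ∀ s, ∀ c : ℝ, 0 ≤ c → c ≤ t * Λ / J →
      ∑ σ ∈ Gs ty s, c * av (fun ω => ‖wd y σ ω η‖ ^ 2) ≤ t * Λ / J * ‖η‖ ^ 2 := fun s c c0 hc => by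
    rw [← mul_sum]
    exact mul_le_mul hc (D.av_sumsq s η) (sum_nonneg fun _ _ => av_nonneg fun _ => sq_nonneg _)
      (c0.trans hc)
  cases t with
  | zero => simp [Gs]
  | succ s =>
    cases hs : par s with
    | false =>
      refine le_trans (sum_le_sum fun σ hσ => ?_) (fin (s + 1) ((s + 1 : ℕ) * J⁻¹) (by positivity)
        (by rw [mul_div_assoc, div_eq_mul_inv]; gcongr; exact le_mul_of_one_le_left (by positivity) Λ1))
      rw [sum_congr rfl fun ι hι => show av (fun ω => ‖g ι (wd y σ ω η)‖ ^ 2) =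
          J⁻¹ * av (fun ω => ‖wd y σ ω η‖ ^ 2) by
        rw [← av_mul_left]
        congr 1; ext1 ω
        exact D.flat_vec hs hσ (by simpa [par, hs] using (mem_filter.1 hι).2.1) ω η,
        sum_const, nsmul_eq_mul, mul_assoc]
      have := card_filter_mem σ fun ι => ty ι = par (s + 1)
      rw [(Gs_len hσ).1] at this
      exact mul_le_mul_of_nonneg_right this (mul_nonneg (by positivity)
        (av_nonneg fun _ => sq_nonneg _))
    | true =>
      obtain ⟨s', rfl⟩ : ∃ s', s = s' + 1 := by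
        cases s with
        | zero => simp [par] at hs
        | succ s' => exact ⟨s', rfl⟩
      have hs' : par s' = false := by simpa [par] using hs
      obtain ⟨l, l0, l1, l2⟩ := D.H3
      rw [sum_Gs]
      refine le_trans (sum_le_sum fun σ hσ => ?_) (fin (s' + 1) ((s' + 1 : ℕ) * Λ / J) (by positivity)
        (by gcongr; omega))
      have b0 : 0 ≤ av (fun ω => ‖wd y σ ω η‖ ^ 2) := av_nonneg fun _ => sq_nonneg _
      calc ∑ κ ∈ univ.filter (fun κ => ty κ = par (s' + 1) ∧ κ ∉ σ),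
            ∑ ι ∈ univ.filter (fun ι => ty ι = par (s' + 1 + 1) ∧ ι ∈ κ :: σ),
              av (fun ω => ‖g ι (wd y (κ :: σ) ω η)‖ ^ 2)
          ≤ ∑ κ ∈ univ.filter (fun κ => ty κ = par (s' + 1) ∧ κ ∉ σ),
            ∑ ι ∈ univ.filter (fun ι => ty ι = false ∧ ι ∈ σ),
              l κ ι * (J⁻¹ * av (fun ω => ‖wd y σ ω η‖ ^ 2)) := by
            refine sum_le_sum fun κ hκ => ?_
            obtain ⟨k1, k2⟩ := (mem_filter.1 hκ).2
            rw [hs] at k1
            have : univ.filter (fun ι => ty ι = par (s' + 1 + 1) ∧ ι ∈ κ :: σ) =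
                univ.filter (fun ι => ty ι = false ∧ ι ∈ σ) := by
              ext ι
              simp only [mem_filter, mem_univ, true_and, List.mem_cons, par, hs', Bool.not_false,
                Bool.not_true]
              constructor
              · rintro ⟨h1, rfl | h2⟩
                · rw [k1] at h1; exact absurd h1 (by simp)
                · exact ⟨h1, h2⟩
              · rintro ⟨h1, h2⟩; exact ⟨h1, Or.inr h2⟩
            rw [this]
            refine sum_le_sum fun ι hι => ?_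
            rw [av_update κ, ← av_mul_left, ← av_mul_left]
            refine av_mono fun ω => ?_
            simp only [wd_cons, update_self, wd_update y k2, mul_apply_eq_comp]
            rw [← D.flat_vec hs' hσ k1]
            exact l1 κ ι _ k1 (mem_filter.1 hι).2.1 (D.o_wd σ ω hη)
        _ ≤ ∑ ι ∈ univ.filter (fun ι => ty ι = false ∧ ι ∈ σ),
              Λ * (J⁻¹ * av (fun ω => ‖wd y σ ω η‖ ^ 2)) := by
            rw [sum_comm]
            refine sum_le_sum fun ι hι => ?_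
            rw [← sum_mul]
            refine mul_le_mul_of_nonneg_right (le_trans (sum_le_sum_of_subset_of_nonneg
              (fun κ hκ => ?_) fun κ _ _ => l0 κ ι) (l2 ι (mem_filter.1 hι).2.1)) (by positivity)
            have := (mem_filter.1 hκ).2.1
            rw [hs] at this
            simpa using this
        _ ≤ _ := by
            rw [sum_const, nsmul_eq_mul]
            have := card_filter_mem σ fun ι => ty ι = false
            rw [(Gs_len hσ).1] at this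
            calc _ ≤ ((s' + 1 : ℕ) : ℝ) * (Λ * (J⁻¹ * av (fun ω => ‖wd y σ ω η‖ ^ 2))) := by gcongr
              _ = _ := by ring

theorem bad (D : CData M o r g y ρ n ε ty neg J Λ) {κ₁ : ℝ} (κ0 : 0 ≤ κ₁)
    (hκ : n * Λ / J + Fintype.card I * (((Fintype.card I + 1) ^ n) ^ 2 * (2 * n * ε)) ≤ κ₁ ^ 2)
    {t : ℕ} (ht : t ≤ n) {η : H} (hη : o η = η) :
    av (fun ω => ‖(Bt ty y t ω - Bg ty y t ω) η‖) ≤ t * κ₁ * ‖η‖ := by
  have J0 := D.J0
  have Λ1 := D.Λ1
  have ε0 := D.ε0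
  induction t with
  | zero => simp [Bt, Bg, Gs, av]
  | succ t ih =>
    have ih := ih (by omega)
    let A : I → (I → Ω) → H →L[ℂ] H := fun ι ω => ∑ σ ∈ (Gs ty t).filter (ι ∈ ·), wd y σ ω
    let R : (I → Ω) → H := fun ω => ∑ ι ∈ univ.filter (fun ι => ty ι = par t), y ι (ω ι) (A ι ω η)
    have e : ∀ ω, (Bt ty y (t + 1) ω - Bg ty y (t + 1) ω) η =
        lay ty y (par t) ω ((Bt ty y t ω - Bg ty y t ω) η) + R ω := fun ω => by
      have : lay ty y (par t) ω * Bg ty y t ω = Bg ty y (t + 1) ω +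
          ∑ ι ∈ univ.filter (fun ι => ty ι = par t), y ι (ω ι) * A ι ω := by
        unfold Bg lay
        rw [sum_Gs, mul_sum]
        simp only [A, mul_sum, sum_filter (fun σ => _ ∈ σ)]
        rw [sum_comm (s := univ.filter fun ι => ty ι = par t), ← sum_add_distrib]
        refine sum_congr rfl fun σ _ => ?_
        rw [sum_mul, ← filter_filter, sum_filter (fun ι => ι ∉ σ), ← sum_add_distrib]
        refine sum_congr rfl fun ι _ => ?_
        by_cases h : ι ∈ σ <;> simp [h, wd_cons]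
      rw [← mul_apply_eq_comp, mul_sub, this]
      simp only [R, Bt, _root_.sub_apply, _root_.add_apply, _root_.sum_apply, mul_apply_eq_comp]
      abel
    have hR : av (fun ω => ‖R ω‖) ≤ κ₁ * ‖η‖ := by
      refine av_le_of_sq (by positivity) ?_
      simp only [R, D.normsq_sum_y (univ.filter fun ι => ty ι = par t) (b := par t) (by simp)]
      rw [av_sum]
      refine (sum_le_sum fun ι _ => D.quad_vec (show t ≤ n by omega) _ (filter_subset _ _) ι hη).trans ?_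
      rw [sum_add_distrib, sum_const, nsmul_eq_mul]
      have h1 := D.diag t hη
      have h2 : ∑ ι ∈ univ.filter (fun ι => ty ι = par t), ∑ σ ∈ (Gs ty t).filter (ι ∈ ·),
          av (fun ω => ‖g ι (wd y σ ω η)‖ ^ 2) = ∑ σ ∈ Gs ty t,
          ∑ ι ∈ univ.filter (fun ι => ty ι = par t ∧ ι ∈ σ), av (fun ω => ‖g ι (wd y σ ω η)‖ ^ 2) := by
        simp only [sum_filter (fun σ => _ ∈ σ)]
        rw [sum_comm]
        exact sum_congr rfl fun σ _ => by rw [← filter_filter, sum_filter (fun ι => ι ∈ σ)]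
      rw [h2]
      have h3 : ((univ.filter fun ι => ty ι = par t).card : ℝ) ≤ Fintype.card I := by
        exact_mod_cast card_le_univ _
      have h4 : (t : ℝ) * Λ / J ≤ n * Λ / J := by gcongr; omega
      have h5 := mul_le_mul_of_nonneg_right hκ (sq_nonneg ‖η‖)
      have h6 := mul_le_mul_of_nonneg_right h4 (sq_nonneg ‖η‖)
      have h7 := mul_le_mul_of_nonneg_right h3
        (show 0 ≤ (((Fintype.card I : ℝ) + 1) ^ n) ^ 2 * (2 * n * ε) * ‖η‖ ^ 2 by positivity)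
      rw [mul_pow]
      nlinarith
    refine (av_mono fun ω => (e ω ▸ (norm_add_le _ _).trans
      (add_le_add_left (D.lay_le _ _ _) _) : _ ≤ ‖(Bt ty y t ω - Bg ty y t ω) η‖ + ‖R ω‖)).trans ?_
    rw [av_add, Nat.cast_succ]; linarith

end CData

end Crest.Agent.H5.KS
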