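import Crest.Agent.H5.KS.LemC

/-! The commutator bound and the trace bound for the random product. -/

set_option autoImplicit false
set_option linter.unusedSectionVars false

namespace Crest.Agent.H5.KS

open scoped InnerProductSpace
open Finset Function

variable {H : Type*} [NormedAddCommGroup H] [InnerProductSpace ℂ H] [CompleteSpace H]
variable {I Ω : Type*} [Fintype I] [DecidableEq I] [Fintype Ω] [Nonempty Ω]
variable {M : VonNeumannAlgebra H} {o : H →L[ℂ] H} {r : I → ℕ} {g : I → H →L[ℂ] H}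
  {y : I → Ω → H →L[ℂ] H} {ρ : I → (H →L[ℂ] H) →ₗ[ℂ] ℂ} {n : ℕ} {ε : ℝ}
  {ty : I → Bool} {neg : Ω ≃ Ω} {J Λ : ℝ}

lemma norm_sum_star_mul_le {ι : Type*} (s : Finset ι) (x : ι → H →L[ℂ] H) {c : ℝ} (hc : 0 ≤ c)
    (h : ∀ ζ, ∑ i ∈ s, ‖x i ζ‖ ^ 2 ≤ c * ‖ζ‖ ^ 2) : ‖∑ i ∈ s, star (x i) * x i‖ ≤ c := by
  refine opNorm_le_of_sq hc fun ζ => ?_
  set w := (∑ i ∈ s, star (x i) * x i) ζ with hw
  have := H7.Kad.row_of_col s (fun i => x i ζ) w (fun i => x i w) c hc (by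
    conv_lhs => rhs; rw [hw, _root_.sum_apply]
    rw [inner_sum]
    exact sum_congr rfl fun i _ => inner_star_mul _ _ _ _) (h w)
  have h2 := mul_le_mul_of_nonneg_left (h ζ) hc
  nlinarith

lemma cm_neg (Y a : H →L[ℂ] H) : cm Y (-a) = - cm Y a := by unfold cm; noncomm_ring

lemma norm_tr_le {k : ℕ} (ζ : Fin k → H) (T : H →L[ℂ] H) : ‖tr ζ T‖ ≤ ∑ a, ‖ζ a‖ * ‖T (ζ a)‖ :=
  (norm_sum_le _ _).trans (sum_le_sum fun _ _ => norm_inner_le_norm _ _)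

lemma tr_sum {k : ℕ} (ζ : Fin k → H) {ι : Type*} (s : Finset ι) (T : ι → H →L[ℂ] H) :
    tr ζ (∑ i ∈ s, T i) = ∑ i ∈ s, tr ζ (T i) := by
  unfold tr; simp only [_root_.sum_apply, inner_sum]; exact sum_comm

lemma tr_add {k : ℕ} (ζ : Fin k → H) (S T : H →L[ℂ] H) : tr ζ (S + T) = tr ζ S + tr ζ T := by
  unfold tr; simp only [_root_.add_apply, inner_add_right, sum_add_distrib]

namespace CData

lemma last (D : CData M o r g y ρ n ε ty neg J Λ) {t : ℕ} {σ : List I} (h : σ ∈ Gs ty (t + 1)) :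
    ∃ ι ∈ σ, ty ι = false ∧ ∀ ω, wd y σ ω * g ι = wd y σ ω := by
  induction t generalizing σ with
  | zero =>
    obtain ⟨ι, σ', rfl, h1, h2, -⟩ := mem_Gs h
    rw [Gs, mem_singleton] at h1; subst h1
    exact ⟨ι, by simp, h2, fun ω => by rw [wd_cons, wd_nil, mul_one, D.yg]⟩
  | succ t ih =>
    obtain ⟨ι, σ', rfl, h1, -, -⟩ := mem_Gs h
    obtain ⟨κ, k1, k2, k3⟩ := ih h1
    exact ⟨κ, by simp [k1], k2, fun ω => by rw [wd_cons, mul_assoc, k3]⟩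

theorem good (D : CData M o r g y ρ n ε ty neg J Λ) {Y X₀ : H →L[ℂ] H} {C : ℝ}
    (hYo : Y * o = o * Y) (hYg : ∀ ι, ty ι = false → Y * g ι = g ι * Y)
    (hcol : ∀ S : Finset I, S.card ≤ n → Cheap M Y C (∑ ι ∈ S.filter (fun ι => ty ι = false), g ι))
    (XM : X₀ ∈ M) (hX : star X₀ * X₀ = 1)
    (hε : (Fintype.card I + 1) ^ n * (((Fintype.card I + 1) ^ n) ^ 2 * (2 * n * ε)) < 1)
    {t : ℕ} (ht : t + 1 ≤ n) {ξ : H} (hξ : o ξ = ξ) :
    av (fun ω => ‖cm Y (X₀ * Bg ty y (t + 1) ω) ξ‖ ^ 2) ≤ (3 * C * ‖ξ‖) ^ 2 := by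
  have ε0 := D.ε0
  set N : ℝ := (Fintype.card I + 1) ^ n with hN
  have N0 : 0 < N := by positivity
  set ε₃ : ℝ := N⁻¹ with hε₃
  have ε₃0 : 0 < ε₃ := by positivity
  have hε' : N ^ 2 * (2 * n * ε) ≤ ε₃ := by
    rw [hε₃, ← one_div, le_div_iff₀ N0]; linarith
  let 𝒯 := (Gs ty (t + 1)).image List.toFinset
  let GS : Finset I → Finset (List I) := fun S => (Gs ty (t + 1)).filter fun σ => σ.toFinset = S
  have h𝒯 : (𝒯.card : ℝ) * ε₃ ≤ 1 := by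
    have : (𝒯.card : ℝ) ≤ N := le_trans (by exact_mod_cast card_image_le) (card_Gs_le ty ht)
    rw [hε₃, ← div_eq_mul_inv, div_le_one N0]; exact this
  have fib : ∀ (f : List I → H →L[ℂ] H),
      ∑ S ∈ 𝒯, ∑ σ ∈ GS S, f σ = ∑ σ ∈ Gs ty (t + 1), f σ := fun f =>
    sum_fiberwise_of_maps_to (fun σ hσ => mem_image_of_mem _ hσ) f
  have fib' : ∀ (f : List I → ℝ),
      ∑ S ∈ 𝒯, ∑ σ ∈ GS S, f σ = ∑ σ ∈ Gs ty (t + 1), f σ := fun f =>
    sum_fiberwise_of_maps_to (fun σ hσ => mem_image_of_mem _ hσ) f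
  let x : Finset I → (I → Ω) → H →L[ℂ] H := fun S ω => X₀ * ∑ σ ∈ GS S, wd y σ ω
  let Dm : Finset I → H →L[ℂ] H := fun S => ∑ σ ∈ GS S, av fun ω => star (wd y σ ω) * wd y σ ω
  have wM := wd_mem D.yM
  have DM : ∀ S, Dm S ∈ M := fun S => sum_mem fun σ _ => av_mem fun ω =>
    mul_mem (star_mem (wM _ _)) (wM _ _)
  have D0 : ∀ S, 0 ≤ Dm S := fun S => sum_nonneg fun σ _ => av_op_nonneg fun ω =>
    star_mul_self_nonneg _
  have Dg : ∀ S ι, ty ι = false → g ι * Dm S = Dm S * g ι := fun S ι hι => by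
    simp only [Dm]
    rw [mul_sum, sum_mul]
    refine sum_congr rfl fun σ hσ => ?_
    rw [← av_mul_opl, ← av_mul_opr]
    congr 1; ext1 ω
    obtain ⟨κ, -, k2, k3⟩ := D.last (mem_filter.1 hσ).1
    have k4 : g κ * star (wd y σ ω) = star (wd y σ ω) := by
      simpa [pstar (D.gp κ)] using congrArg star (k3 ω)
    by_cases h : ι = κ
    · rw [h, ← mul_assoc, k4, mul_assoc, k3]
    · have k5 : g ι * star (wd y σ ω) = 0 := by
        rw [← k4, ← mul_assoc, D.gorth ι κ h (hι.trans k2.symm), zero_mul]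
      have k6 : wd y σ ω * g ι = 0 := by
        rw [← k3 ω, mul_assoc, D.gorth κ ι (Ne.symm h) (k2.trans hι.symm), mul_zero]
      rw [← mul_assoc, k5, mul_assoc _ _ (g ι), k6]; simp
  choose b bM b' b'M sb sb' h1 h2 h3 h4 using fun S => exists_sqrt_invM (DM S) (D0 S) ε₃0
  have step1 : av (fun ω => ‖cm Y (X₀ * Bg ty y (t + 1) ω) ξ‖ ^ 2) =
      ∑ S ∈ 𝒯, av (fun ω => ‖cm Y (x S ω) ξ‖ ^ 2) := by
    rw [← av_normsq_sum_orth]
    · congr 1; ext1 ω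
      rw [← _root_.sum_apply, ← cm_sum, ← mul_sum, fib]; rfl
    · intro S _ S' _ hne
      simp only [x, mul_sum, cm_sum, _root_.sum_apply, sum_inner, inner_sum, Complex.re_sum]
      rw [av_sum]
      refine sum_eq_zero fun σ' hσ' => ?_
      rw [av_sum]
      refine sum_eq_zero fun σ hσ => ?_
      obtain ⟨a1, a2⟩ := mem_filter.1 hσ
      obtain ⟨a1', a2'⟩ := mem_filter.1 hσ'
      exact D.orth (Gs_len a1).2 (Gs_len a1').2 (by rw [a2, a2']; exact hne)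
        (fun a b => (⟪cm Y (X₀ * a) ξ, cm Y (X₀ * b) ξ⟫_ℂ).re)
        (fun a b => by rw [mul_neg, cm_neg]; simp) (fun a b => by rw [mul_neg, cm_neg]; simp)
  have step2 : ∀ S ∈ 𝒯, av (fun ω => ‖cm Y (x S ω) ξ‖ ^ 2) ≤
      2 * C ^ 2 * ‖b S ξ‖ ^ 2 + 2 * ‖cm Y (b S) ξ‖ ^ 2 := fun S hS => by
    obtain ⟨σ₀, s0, rfl⟩ := mem_image.1 hS
    have hcard : σ₀.toFinset.card ≤ n := (List.toFinset_card_le σ₀).trans ((Gs_len s0).1.le.trans ht)
    set S := σ₀.toFinset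
    have pe := proj_sum (S.filter fun ι => ty ι = false) g (fun i _ => D.gp i)
      (fun i hi j hj h => D.gorth i j h ((mem_filter.1 hi).2.trans (mem_filter.1 hj).2.symm))
    refine wcol (hcol S hcard) (sum_mem fun ι _ => D.gM ι) D.ho hYo (x S) (fun ω => ⟨mul_mem XM
      (sum_mem fun σ _ => wM _ _), ?_⟩) (DM S) (D0 S) (b'M S) (sb' S) (h1 S) (h2 S) (h3 S) ?_ ?_ hξ
    · simp only [x]
      rw [mul_assoc, sum_mul]
      congr 1
      refine sum_congr rfl fun σ hσ => ?_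
      obtain ⟨a1, a2⟩ := mem_filter.1 hσ
      obtain ⟨κ, k1, k2, k3⟩ := D.last a1
      rw [← k3 ω, mul_assoc, pe.2 κ (mem_filter.2 ⟨by rw [← a2]; simpa using k1, k2⟩)]
    · refine (h4 S _ ?_).2
      rw [sum_mul, mul_sum]
      exact sum_congr rfl fun ι hι => Dg S ι (mem_filter.1 hι).2
    · have := D.quad ht (GS S) (filter_subset _ _) (Z := 1) (Or.inl rfl)
      simp only [mul_one] at this
      refine le_trans (le_of_eq ?_) (this.trans hε')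
      congr 4; ext1 ω
      simp only [x]
      rw [star_mul, mul_assoc, ← mul_assoc (star X₀), hX, one_mul]
  have hb : ∀ ζ, ∑ S ∈ 𝒯, ‖b S ζ‖ ^ 2 ≤ 2 * ‖ζ‖ ^ 2 := fun ζ => by
    have e : ∀ S, ‖b S ζ‖ ^ 2 = ∑ σ ∈ GS S, av (fun ω => ‖wd y σ ω ζ‖ ^ 2) + ε₃ * ‖ζ‖ ^ 2 := fun S => by
      rw [norm_sq_eq_re, sb, h3, re_inner_add, re_inner_rsmul, one_apply_eq_self, re_inner_self]
      simp only [Dm, av_normsq, _root_.sum_apply, inner_sum, Complex.re_sum]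
    simp only [e]
    rw [sum_add_distrib, fib', sum_const, nsmul_eq_mul, ← mul_assoc]
    have := D.av_sumsq (t + 1) ζ
    nlinarith [sq_nonneg ‖ζ‖]
  have hc : ∑ S ∈ 𝒯, ‖cm Y (b S) ξ‖ ^ 2 ≤ 2 * C ^ 2 * ‖ξ‖ ^ 2 := by
    let F := univ.filter (fun ι => ty ι = false)
    have bg : ∀ S, ∀ ι ∈ F, g ι * b S = b S * g ι := fun S ι hι =>
      (h4 S _ (Dg S ι (mem_filter.1 hι).2)).1
    have e1 : ∀ S, ‖cm Y (b S) ξ‖ ^ 2 = ∑ ι ∈ F, ‖cm Y (b S * g ι) (g ι ξ)‖ ^ 2 := fun S => by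
      have e2 : ∀ ι ∈ F, cm Y (b S * g ι) (g ι ξ) = g ι (cm Y (b S) ξ) := fun ι hι => by
        have hy := hYg ι (mem_filter.1 hι).2
        have : cm Y (b S) * g ι = g ι * cm Y (b S) := by
          unfold cm
          rw [sub_mul, mul_sub, mul_assoc, ← bg S ι hι, ← mul_assoc, hy, mul_assoc (b S), hy,
            ← mul_assoc (b S), ← bg S ι hι]
          simp only [mul_assoc]
        rw [cm_mul, cm_eq_zero hy, mul_zero, add_zero, ← mul_apply_eq_comp, mul_assoc, pmul (D.gp ι),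
          this, mul_apply_eq_comp]
      have e3 : cm Y (b S) ξ = ∑ ι ∈ F, g ι (cm Y (b S) ξ) := by
        have : o (cm Y (b S) ξ) = cm Y (b S) ξ := by
          have : o * cm Y (b S) = cm Y (b S) * o := by
            unfold cm
            rw [sub_mul, mul_sub, ← mul_assoc, ← hYo, mul_assoc, D.ho.comm _ (bM S), ← mul_assoc o,
              D.ho.comm _ (bM S), mul_assoc (b S), ← hYo]
            simp only [mul_assoc]
          rw [← mul_apply_eq_comp, this, mul_apply_eq_comp, hξ]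
        conv_lhs => rw [← this, ← D.gsum, mul_apply_eq_comp, this, _root_.sum_apply]
      rw [sum_congr rfl fun ι hι => by rw [e2 ι hι]]
      conv_lhs => rw [e3]
      refine normsq_sum_orth _ _ fun i hi j hj h => ?_
      rw [← inner_star_right, pstar (D.gp i), ← mul_apply_eq_comp,
        D.gorth i j h ((mem_filter.1 hi).2.trans (mem_filter.1 hj).2.symm)]; simp
    simp only [e1]
    rw [sum_comm]
    have e4 : ∀ ι ∈ F, ∑ S ∈ 𝒯, ‖cm Y (b S * g ι) (g ι ξ)‖ ^ 2 ≤ 2 * C ^ 2 * ‖g ι ξ‖ ^ 2 := by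
      intro ι hι
      have c := (hcol {ι} (by simp; omega)).gen 𝒯 (fun S => b S * g ι) (fun S _ =>
        ⟨mul_mem (bM S) (D.gM ι), by
          rw [filter_singleton, if_pos (mem_filter.1 hι).2, sum_singleton, mul_assoc,
            pmul (D.gp ι)]⟩) (g ι ξ)
      refine c.trans ?_
      have : ‖∑ S ∈ 𝒯, star (b S * g ι) * (b S * g ι)‖ ≤ 2 :=
        norm_sum_star_mul_le _ _ zero_le_two fun ζ => (hb (g ι ζ)).trans (by
          have := pow_le_pow_left₀ (norm_nonneg _) (proj_apply_le (D.gp ι) ζ) 2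
          linarith)
      nlinarith [sq_nonneg C, sq_nonneg ‖g ι ξ‖, mul_nonneg (sq_nonneg C) (sq_nonneg ‖g ι ξ‖)]
    refine (sum_le_sum e4).trans ?_
    rw [← mul_sum]
    have := D.sum_g F (b := false) (fun ι hι => (mem_filter.1 hι).2) ξ
    gcongr
  rw [step1]
  refine (sum_le_sum step2).trans ?_
  rw [sum_add_distrib, ← mul_sum, ← mul_sum]
  have := mul_le_mul_of_nonneg_left (hb ξ) (show 0 ≤ 2 * C ^ 2 by positivity)
  nlinarith [mul_nonneg (sq_nonneg C) (sq_nonneg ‖ξ‖)]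

theorem cm_bound (D : CData M o r g y ρ n ε ty neg J Λ) {Y X₀ : H →L[ℂ] H} {C κ₁ : ℝ} (C0 : 0 ≤ C)
    (hYo : Y * o = o * Y) (hYg : ∀ ι, ty ι = false → Y * g ι = g ι * Y)
    (hcol : ∀ S : Finset I, S.card ≤ n → Cheap M Y C (∑ ι ∈ S.filter (fun ι => ty ι = false), g ι))
    (XM : X₀ ∈ M) (hX : star X₀ * X₀ = 1) (κ0 : 0 ≤ κ₁)
    (hε : (Fintype.card I + 1) ^ n * (((Fintype.card I + 1) ^ n) ^ 2 * (2 * n * ε)) < 1)
    (hκ : n * Λ / J + Fintype.card I * (((Fintype.card I + 1) ^ n) ^ 2 * (2 * n * ε)) ≤ κ₁ ^ 2)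
    {t : ℕ} (ht : t + 1 ≤ n) {ξ : H} (hξ : o ξ = ξ) :
    av (fun ω => ‖cm Y (X₀ * Bt ty y (t + 1) ω) ξ‖) ≤ (3 * C + 2 * ‖Y‖ * (n * κ₁)) * ‖ξ‖ := by
  have h1 := av_le_of_sq (by positivity) (D.good hYo hYg hcol XM hX hε ht hξ)
  have h2 := D.bad κ0 hκ ht hξ
  have h3 := D.bad κ0 hκ ht (η := Y ξ) (by rw [← mul_apply_eq_comp, ← hYo, mul_apply_eq_comp, hξ])
  have X1 : ‖X₀‖ ≤ 1 := (PI.of_dom (by rw [hX]; exact IsStarProjection.one _)).norm_le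
  have h4 : ∀ ω, ‖cm Y (X₀ * Bt ty y (t + 1) ω) ξ‖ ≤ ‖cm Y (X₀ * Bg ty y (t + 1) ω) ξ‖ +
      (‖Y‖ * ‖(Bt ty y (t + 1) ω - Bg ty y (t + 1) ω) ξ‖ +
        ‖(Bt ty y (t + 1) ω - Bg ty y (t + 1) ω) (Y ξ)‖) := fun ω => by
    set A := Bt ty y (t + 1) ω - Bg ty y (t + 1) ω with hA
    have e : cm Y (X₀ * Bt ty y (t + 1) ω) ξ = cm Y (X₀ * Bg ty y (t + 1) ω) ξ +
        (Y (X₀ (A ξ)) - X₀ (A (Y ξ))) := by
      have : Bt ty y (t + 1) ω = Bg ty y (t + 1) ω + A := by rw [hA]; abel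
      rw [this, mul_add, cm_add]; rfl
    rw [e]
    refine (norm_add_le _ _).trans (add_le_add_right ((norm_sub_le _ _).trans (add_le_add ?_
      (apply_le_of_le_one X1 _))) _)
    exact (Y.le_opNorm _).trans (mul_le_mul_of_nonneg_left (apply_le_of_le_one X1 _) (norm_nonneg _))
  refine (av_mono h4).trans ?_
  rw [av_add, av_add, av_mul_left]
  have h5 : ((t + 1 : ℕ) : ℝ) * κ₁ ≤ n * κ₁ := by gcongr
  have h6 := Y.le_opNorm ξ
  have h7 : ((t + 1 : ℕ) : ℝ) * κ₁ * ‖Y ξ‖ ≤ n * κ₁ * (‖Y‖ * ‖ξ‖) := by gcongr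
  have h8 : ‖Y‖ * av (fun ω => ‖(Bt ty y (t + 1) ω - Bg ty y (t + 1) ω) ξ‖) ≤
      ‖Y‖ * (n * κ₁ * ‖ξ‖) := by
    refine mul_le_mul_of_nonneg_left (h2.trans ?_) (norm_nonneg _)
    gcongr
  nlinarith

theorem tr_bound (D : CData M o r g y ρ n ε ty neg J Λ) {κ₁ ε' : ℝ} (κ0 : 0 ≤ κ₁) (ε'0 : 0 ≤ ε')
    (hκ : n * Λ / J + Fintype.card I * (((Fintype.card I + 1) ^ n) ^ 2 * (2 * n * ε)) ≤ κ₁ ^ 2)
    {k : ℕ} (ζ : Fin k → H) (hζ : ∀ a, o (ζ a) = ζ a)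
    (h2 : ∀ j, ∀ b ∈ M, ‖b‖ ≤ 1 → av (fun t => ‖tr ζ (y j t * b)‖) ≤ ε')
    {t : ℕ} (ht : t + 1 ≤ n) :
    av (fun ω => ‖tr ζ (Bt ty y (t + 1) ω)‖) ≤
      n * κ₁ * ∑ a, ‖ζ a‖ ^ 2 + (Fintype.card I + 1) ^ n * ε' := by
  have h1 : ∀ ω, ‖tr ζ (Bt ty y (t + 1) ω)‖ ≤
      ∑ a, ‖ζ a‖ * ‖(Bt ty y (t + 1) ω - Bg ty y (t + 1) ω) (ζ a)‖ +
      ∑ σ ∈ Gs ty (t + 1), ‖tr ζ (wd y σ ω)‖ := fun ω => by
    have : Bt ty y (t + 1) ω = (Bt ty y (t + 1) ω - Bg ty y (t + 1) ω) + Bg ty y (t + 1) ω := by abel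
    conv_lhs => rw [this, tr_add]
    refine (norm_add_le _ _).trans (add_le_add (norm_tr_le _ _) ?_)
    unfold Bg; rw [tr_sum]; exact norm_sum_le _ _
  refine (av_mono h1).trans ?_
  rw [av_add, av_sum, av_sum]
  refine add_le_add ?_ ?_
  · rw [mul_sum]
    refine sum_le_sum fun a _ => ?_
    rw [av_mul_left]
    have := D.bad κ0 hκ ht (hζ a)
    have h5 : ((t + 1 : ℕ) : ℝ) * κ₁ * ‖ζ a‖ ≤ n * κ₁ * ‖ζ a‖ := by gcongr
    nlinarith [norm_nonneg (ζ a)]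
  · refine (sum_le_card_nsmul _ _ ε' fun σ hσ => ?_).trans ?_
    · obtain ⟨ι, σ', rfl, -, -, h3⟩ := mem_Gs hσ
      rw [av_update ι]
      refine av_le fun ω => ?_
      simp only [wd_cons, update_self, wd_update y h3]
      exact h2 ι _ (wd_mem D.yM _ _) (wd_norm D.y1 _ _)
    · rw [nsmul_eq_mul]
      exact mul_le_mul_of_nonneg_right (card_Gs_le ty ht) ε'0

end CData

end Crest.Agent.H5.KS
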