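import Crest.Agent.H5.KS.Av

/-! The recursion lemma: different orderings of the same letters are almost orthogonal. -/

set_option autoImplicit false
set_option linter.unusedSectionVars false

namespace Crest.Agent.H5.KS

open scoped InnerProductSpace
open Finset Function

variable {H : Type*} [NormedAddCommGroup H] [InnerProductSpace ℂ H] [CompleteSpace H]
variable {I Ω : Type*} [Fintype I] [DecidableEq I] [Fintype Ω] [Nonempty Ω]

/-- random word -/
noncomputable def wd (y : I → Ω → H →L[ℂ] H) (σ : List I) (ω : I → Ω) : H →L[ℂ] H :=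
  (σ.map fun ι => y ι (ω ι)).prod

section
variable (y : I → Ω → H →L[ℂ] H)

@[simp] lemma wd_nil (ω : I → Ω) : wd y [] ω = 1 := rfl

lemma wd_cons (ι : I) (σ : List I) (ω : I → Ω) : wd y (ι :: σ) ω = y ι (ω ι) * wd y σ ω := by
  simp [wd]

lemma wd_append (α β : List I) (ω : I → Ω) : wd y (α ++ β) ω = wd y α ω * wd y β ω := by
  simp [wd]

lemma wd_congr (σ : List I) {ω ω' : I → Ω} (h : ∀ i ∈ σ, ω i = ω' i) : wd y σ ω = wd y σ ω' := by
  unfold wd; rw [List.map_congr_left fun i hi => by rw [h i hi]]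

lemma wd_update {σ : List I} {ι : I} (h : ι ∉ σ) (ω : I → Ω) (t : Ω) :
    wd y σ (update ω ι t) = wd y σ ω :=
  wd_congr y σ fun i hi => update_of_ne (fun e : i = ι => h (e ▸ hi)) _ _

lemma wd_split {β α : List I} {ι : I} (h : (β ++ ι :: α).Nodup) (ω : I → Ω) (t : Ω) :
    wd y (β ++ ι :: α) (update ω ι t) = wd y β ω * y ι t * wd y α ω := by
  have h1 : ι ∉ β := fun hb => (List.nodup_append.1 h).2.2 ι hb ι (by simp) rfl
  have h2 : ι ∉ α := (List.nodup_cons.1 (List.nodup_append.1 h).2.1).1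
  rw [wd_append, wd_cons, wd_update y h1, wd_update y h2, update_self, mul_assoc]

variable {y}

lemma wd_mem {M : VonNeumannAlgebra H} (h : ∀ ι t, y ι t ∈ M) (σ : List I) (ω : I → Ω) :
    wd y σ ω ∈ M := by
  induction σ with
  | nil => exact one_mem _
  | cons ι σ ih => rw [wd_cons]; exact mul_mem (h _ _) ih

lemma wd_norm (h : ∀ ι t, ‖y ι t‖ ≤ 1) (σ : List I) (ω : I → Ω) : ‖wd y σ ω‖ ≤ 1 := by
  induction σ with
  | nil => exact (IsStarProjection.one _).norm_le _
  | cons ι σ ih => rw [wd_cons]; exact mul_le_one' (h _ _) ih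

end

/-- hypotheses of the recursion lemma -/
structure RData (M : VonNeumannAlgebra H) (o : H →L[ℂ] H) (r : I → ℕ) (g : I → H →L[ℂ] H)
    (y : I → Ω → H →L[ℂ] H) (ρ : I → (H →L[ℂ] H) →ₗ[ℂ] ℂ) (n : ℕ) (ε : ℝ) : Prop where
  ho : Cen M o
  rinj : Injective r
  gM : ∀ ι, g ι ∈ M
  gp : ∀ ι, IsStarProjection (g ι)
  yM : ∀ ι t, y ι t ∈ M
  y1 : ∀ ι t, ‖y ι t‖ ≤ 1
  ε0 : 0 ≤ ε
  ρle : ∀ ι A, ‖ρ ι A‖ ≤ ‖A * o‖
  H1 : ∀ ι (β β' : List I) (ω : I → Ω) (Z : H →L[ℂ] H), (Z = 1 ∨ ∃ κ, Z = g κ) → β.length ≤ n →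
    β'.length ≤ n → (∀ κ ∈ β, r κ < r ι) → (∀ κ ∈ β', r κ < r ι) →
    ‖(av (fun t => star (y ι t) * (star (wd y β' ω) * Z * wd y β ω) * y ι t) -
      ρ ι (star (wd y β' ω) * Z * wd y β ω) • g ι) * o‖ ≤ ε
  H2 : ∀ ι j, ∀ a ∈ M, ∀ b ∈ M, ‖a‖ ≤ 1 → ‖b‖ ≤ 1 →
    av (fun t => ‖ρ ι (a * y j t * b)‖) ≤ ε ∧ av (fun t => ‖ρ ι (a * star (y j t) * b)‖) ≤ ε

variable {M : VonNeumannAlgebra H} {o : H →L[ℂ] H} {r : I → ℕ} {g : I → H →L[ℂ] H}
  {y : I → Ω → H →L[ℂ] H} {ρ : I → (H →L[ℂ] H) →ₗ[ℂ] ℂ} {n : ℕ} {ε : ℝ}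

theorem RData.od (D : RData M o r g y ρ n ε) (N : ℕ) : N ≤ n → ∀ σ σ' : List I, σ.length = N →
    σ.Nodup → σ.Perm σ' → σ ≠ σ' → ∀ Z : H →L[ℂ] H, (Z = 1 ∨ ∃ κ, Z = g κ) →
    ‖av (fun ω => star (wd y σ' ω) * Z * wd y σ ω) * o‖ ≤ 2 * N * ε := by
  induction N using Nat.strong_induction_on with
  | _ N ih =>
  intro hN σ σ' hlen hnd hp hne Z hZ
  have ε0 := D.ε0
  have hZM : Z ∈ M := by rcases hZ with rfl | ⟨κ, rfl⟩; exacts [one_mem _, D.gM κ]
  have hZ1 : ‖Z‖ ≤ 1 := by
    rcases hZ with rfl | ⟨κ, rfl⟩; exacts [(IsStarProjection.one _).norm_le _, (D.gp κ).norm_le _]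
  have wM := wd_mem D.yM
  have w1 := wd_norm D.y1
  have ws1 : ∀ σ ω, ‖star (wd y σ ω)‖ ≤ 1 := fun σ ω => by rw [nstar]; exact w1 σ ω
  have hσ : σ ≠ [] := by rintro rfl; exact hne hp.nil_eq
  obtain ⟨ι, hι, hmax⟩ := exists_max_image σ.toFinset r (by simpa using hσ)
  have hι' : ι ∈ σ := by simpa using hι
  obtain ⟨β, α, rfl⟩ := List.append_of_mem hι'
  obtain ⟨β', α', rfl⟩ := List.append_of_mem (hp.subset hι')
  have hnd' := hp.nodup_iff.1 hnd
  have nβ := List.nodup_append.1 hnd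
  have nβ' := List.nodup_append.1 hnd'
  have rβ : ∀ κ ∈ β, r κ < r ι := fun κ hκ => lt_of_le_of_ne (hmax κ (by simp [hκ]))
    fun e => nβ.2.2 κ hκ ι (by simp) (D.rinj e)
  have rβ' : ∀ κ ∈ β', r κ < r ι := fun κ hκ => lt_of_le_of_ne
    (hmax κ (List.mem_toFinset.2 (hp.symm.subset (show κ ∈ β' ++ ι :: α' by simp [hκ]))))
    fun e => nβ'.2.2 κ hκ ι (by simp) (D.rinj e)
  have l1 : β.length + α.length + 1 = N := by simpa [add_assoc] using hlen
  have l2 : β'.length + α'.length + 1 = N := by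
    have := hp.length_eq; rw [hlen] at this; simpa [add_assoc] using this.symm
  set J : (I → Ω) → H →L[ℂ] H := fun ω => star (wd y β' ω) * Z * wd y β ω with hJ
  set F : (I → Ω) → H →L[ℂ] H := fun ω => star (wd y α' ω) * g ι * wd y α ω with hF
  have F1 : ∀ ω, ‖F ω‖ ≤ 1 := fun ω => (norm_conj_le (ws1 _ _) (w1 _ _)).trans ((D.gp ι).norm_le _)
  have J1 : ∀ ω, ‖J ω‖ ≤ 1 := fun ω => (norm_conj_le (ws1 _ _) (w1 _ _)).trans hZ1
  have o1 := D.ho.proj.norm_le _
  have step : ‖av (fun ω => star (wd y (β' ++ ι :: α') ω) * Z * wd y (β ++ ι :: α) ω) * o -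
      av (fun ω => ρ ι (J ω) • F ω) * o‖ ≤ ε := by
    rw [av_update ι, ← sub_mul, ← av_sub, ← av_mul_opr]
    refine (norm_av_le _).trans (av_le fun ω => ?_)
    have e1 : (av fun t => star (wd y (β' ++ ι :: α') (update ω ι t)) * Z *
        wd y (β ++ ι :: α) (update ω ι t)) =
        star (wd y α' ω) * av (fun t => star (y ι t) * J ω * y ι t) * wd y α ω := by
      rw [← av_mul_op]; congr 1; ext1 t
      rw [wd_split y hnd, wd_split y hnd']; simp only [hJ, star_mul, mul_assoc]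
    have e2 : (star (wd y α' ω) * av (fun t => star (y ι t) * J ω * y ι t) * wd y α ω -
        ρ ι (J ω) • F ω) * o = star (wd y α' ω) *
        ((av (fun t => star (y ι t) * J ω * y ι t) - ρ ι (J ω) • g ι) * o) * wd y α ω := by
      simp only [hF, mul_sub, sub_mul, mul_smul_comm, smul_mul_assoc, mul_assoc,
        D.ho.comm _ (wM α ω)]
    rw [e1, e2]
    exact (norm_conj_le (ws1 _ _) (w1 _ _)).trans
      (D.H1 ι β β' ω Z hZ (by omega) (by omega) rβ rβ')
  have main : ‖av (fun ω => ρ ι (J ω) • F ω) * o‖ ≤ (2 * N - 1) * ε := by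
    by_cases hβ : β.Perm β'
    · have hα : α.Perm α' := by
        have h1 : (β ++ ι :: α).Perm (β ++ ι :: α') := hp.trans (hβ.symm.append_right _)
        exact ((List.perm_append_left_iff β).1 h1).cons_inv
      rw [av_indep β.toFinset (fun ω => ρ ι (J ω)) F (fun ω ω' h => by
          simp only [hJ]
          rw [wd_congr y β fun i hi => h i (by simpa using hi),
            wd_congr y β' fun i hi => h i (by simpa using hβ.symm.subset hi)]) (fun ω ω' h => by
          have k : ∀ i ∈ α, ω i = ω' i := fun i hi => h i fun hb =>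
            nβ.2.2 i (by simpa using hb) i (by simp [hi]) rfl
          simp only [hF]
          rw [wd_congr y α k, wd_congr y α' fun i hi => k i (hα.symm.subset hi)]),
        ← av_lin, smul_mul_assoc, norm_smul]
      have b1 : ‖av F * o‖ ≤ 1 := mul_le_one' (norm_av_le_one F1) o1
      have b2 : ‖ρ ι (av J)‖ ≤ 1 := (D.ρle _ _).trans (mul_le_one' (norm_av_le_one J1) o1)
      by_cases hb : β = β'
      · have ha : α ≠ α' := fun e => hne (by rw [hb, e])
        have := ih α.length (by omega) (by omega) α α' rfl (List.nodup_cons.1 nβ.2.1).2 hα ha (g ι)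
          (Or.inr ⟨ι, rfl⟩)
        have h2 : (α.length : ℝ) + 1 ≤ N := by exact_mod_cast (by omega : α.length + 1 ≤ N)
        calc _ ≤ 1 * (2 * α.length * ε) := mul_le_mul b2 this (norm_nonneg _) zero_le_one
          _ ≤ _ := by nlinarith
      · have := ih β.length (by omega) (by omega) β β' rfl nβ.1 hβ hb Z hZ
        have h2 : (β.length : ℝ) + 1 ≤ N := by exact_mod_cast (by omega : β.length + 1 ≤ N)
        calc _ ≤ (2 * β.length * ε) * 1 :=
            mul_le_mul ((D.ρle _ _).trans this) b1 (norm_nonneg _) (by positivity)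
          _ ≤ _ := by nlinarith
    · have b1 : ‖av (fun ω => ρ ι (J ω) • F ω) * o‖ ≤ av fun ω => ‖ρ ι (J ω)‖ := by
        rw [← av_mul_opr]
        refine (norm_av_le _).trans (av_mono fun ω => ?_)
        rw [smul_mul_assoc, norm_smul]
        exact mul_le_of_le_one_right (norm_nonneg _) (mul_le_one' (F1 ω) o1)
      have b2 : (av fun ω => ‖ρ ι (J ω)‖) ≤ ε := by
        rw [List.perm_ext_iff_of_nodup nβ.1 nβ'.1] at hβ
        push Not at hβ
        obtain ⟨j, hj | hj⟩ := hβ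
        · obtain ⟨β₁, β₂, rfl⟩ := List.append_of_mem hj.1
          rw [av_update j]
          refine av_le fun ω => ?_
          have := (D.H2 ι j (star (wd y β' ω) * Z * wd y β₁ ω)
            (mul_mem (mul_mem (star_mem (wM _ _)) hZM) (wM _ _)) (wd y β₂ ω) (wM _ _)
            ((norm_conj_le (ws1 _ _) (w1 _ _)).trans hZ1) (w1 _ _)).1
          refine le_of_eq_of_le (congrArg av (funext fun t => ?_)) this
          simp only [hJ]
          rw [wd_split y nβ.1, wd_update y hj.2]; simp only [mul_assoc]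
        · obtain ⟨β₁, β₂, rfl⟩ := List.append_of_mem hj.2
          rw [av_update j]
          refine av_le fun ω => ?_
          have := (D.H2 ι j (star (wd y β₂ ω)) (star_mem (wM _ _)) (star (wd y β₁ ω) * Z * wd y β ω)
            (mul_mem (mul_mem (star_mem (wM _ _)) hZM) (wM _ _)) (ws1 _ _)
            ((norm_conj_le (ws1 _ _) (w1 _ _)).trans hZ1)).2
          refine le_of_eq_of_le (congrArg av (funext fun t => ?_)) this
          simp only [hJ]
          rw [wd_split y nβ'.1, wd_update y hj.1]; simp only [star_mul, mul_assoc]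
      have h2 : (1 : ℝ) ≤ N := by exact_mod_cast (by omega : 1 ≤ N)
      nlinarith
  have := norm_add_le (av (fun ω => star (wd y (β' ++ ι :: α') ω) * Z * wd y (β ++ ι :: α) ω) * o -
      av (fun ω => ρ ι (J ω) • F ω) * o) (av (fun ω => ρ ι (J ω) • F ω) * o)
  rw [sub_add_cancel] at this
  linarith

end Crest.Agent.H5.KS
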