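import Crest.Agent.H5.KS.Trace

/-! Column bounds on thin corners, averaging, patching over the centre. -/

set_option autoImplicit false
set_option linter.unusedSectionVars false
set_option linter.style.haveILetI false

namespace Crest.Agent.H5.KS

open scoped InnerProductSpace
open Filter Topology Finset

variable {H : Type*} [NormedAddCommGroup H] [InnerProductSpace ℂ H] [CompleteSpace H]
variable {M : VonNeumannAlgebra H}

/-- commutator -/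
noncomputable def cm (Y a : H →L[ℂ] H) : H →L[ℂ] H := Y * a - a * Y

lemma cm_mul (Y a b : H →L[ℂ] H) : cm Y (a * b) = cm Y a * b + a * cm Y b := by
  unfold cm; noncomm_ring

lemma cm_star (Y a : H →L[ℂ] H) : star (cm Y a) = - cm (star Y) (star a) := by
  unfold cm; simp

lemma cm_sum {ι : Type*} (Y : H →L[ℂ] H) (s : Finset ι) (a : ι → H →L[ℂ] H) :
    cm Y (∑ i ∈ s, a i) = ∑ i ∈ s, cm Y (a i) := by
  unfold cm; rw [mul_sum, sum_mul, sum_sub_distrib]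

lemma cm_add (Y a b : H →L[ℂ] H) : cm Y (a + b) = cm Y a + cm Y b := by
  unfold cm; noncomm_ring

lemma cm_sub (Y a b : H →L[ℂ] H) : cm Y (a - b) = cm Y a - cm Y b := by
  unfold cm; noncomm_ring

lemma cm_smul (Y a : H →L[ℂ] H) (c : ℂ) : cm Y (c • a) = c • cm Y a := by
  unfold cm; simp [smul_sub]

lemma cm_cut (Y : H →L[ℂ] H) {z a : H →L[ℂ] H} (h : z * a = a * z) :
    cm (z * Y * z) a = z * cm Y a * z := by
  unfold cm
  have e1 : z * Y * z * a = z * (Y * a) * z := by rw [mul_assoc _ z a, h]; simp only [mul_assoc]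
  have e2 : a * (z * Y * z) = z * (a * Y) * z := by
    rw [← mul_assoc, ← mul_assoc, ← h]; simp only [mul_assoc]
  rw [e1, e2, mul_sub, sub_mul]

lemma cm_add_left (Y Y' a : H →L[ℂ] H) : cm (Y + Y') a = cm Y a + cm Y' a := by
  unfold cm; noncomm_ring

lemma cm_eq_zero {Y a : H →L[ℂ] H} (h : Y * a = a * Y) : cm Y a = 0 := sub_eq_zero.2 h

lemma norm_cm_le (Y a : H →L[ℂ] H) : ‖cm Y a‖ ≤ 2 * ‖Y‖ * ‖a‖ := by
  unfold cm
  refine (norm_sub_le _ _).trans ?_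
  nlinarith [norm_mul_le Y a, norm_mul_le a Y]

lemma sum_normsq_le {ι : Type*} (s : Finset ι) (x : ι → H →L[ℂ] H) (ζ : H) :
    ∑ i ∈ s, ‖x i ζ‖ ^ 2 ≤ ‖∑ i ∈ s, star (x i) * x i‖ * ‖ζ‖ ^ 2 := by
  have := sum_normsq_star s (fun i => star (x i)) ζ
  simp only [star_star] at this
  rw [this]
  refine (Complex.re_le_norm _).trans ((norm_inner_le_norm _ _).trans ?_)
  have := (∑ i ∈ s, star (x i) * x i).le_opNorm ζ
  nlinarith [norm_nonneg ζ]

lemma normsq_add_le (a b : H) : ‖a + b‖ ^ 2 ≤ 2 * ‖a‖ ^ 2 + 2 * ‖b‖ ^ 2 := by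
  have := pow_le_pow_left₀ (norm_nonneg _) (norm_add_le a b) 2
  nlinarith [sq_nonneg (‖a‖ - ‖b‖)]

lemma opNorm_le_of_sq {T : H →L[ℂ] H} {C : ℝ} (hC : 0 ≤ C) (h : ∀ ζ, ‖T ζ‖ ^ 2 ≤ C ^ 2 * ‖ζ‖ ^ 2) :
    ‖T‖ ≤ C :=
  T.opNorm_le_bound hC fun ζ => le_of_sq_le_sq₀' (by rw [mul_pow]; exact h ζ) (by positivity)
where le_of_sq_le_sq₀' {a b : ℝ} (h : a ^ 2 ≤ b ^ 2) (hb : 0 ≤ b) : a ≤ b :=
  le_trans (le_abs_self a) (abs_le_of_sq_le_sq h hb)

/-- row times column -/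
lemma norm_row_col {ι : Type*} (s : Finset ι) (a b : ι → H →L[ℂ] H) {C : ℝ} (hC : 0 ≤ C)
    (ha : ‖∑ i ∈ s, a i * star (a i)‖ ≤ 1) (hb : ∀ ζ, ∑ i ∈ s, ‖b i ζ‖ ^ 2 ≤ C ^ 2 * ‖ζ‖ ^ 2) :
    ‖∑ i ∈ s, a i * b i‖ ≤ C := by
  refine opNorm_le_of_sq hC fun ζ => ?_
  set w := (∑ i ∈ s, a i * b i) ζ with hw
  have := H7.Kad.row_of_col s (fun i => b i ζ) w (fun i => star (a i) w) 1 zero_le_one (by
    conv_lhs => rhs; rw [hw, _root_.sum_apply]
    rw [inner_sum]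
    exact sum_congr rfl fun i _ => by rw [inner_star_left]; rfl) (by
    have := sum_normsq_le s (fun i => star (a i)) w
    simp only [star_star] at this
    exact this.trans (mul_le_mul_of_nonneg_right ha (sq_nonneg _)))
  linarith [hb ζ]

/-- column bound for the commutator on `M e` -/
def Cheap (M : VonNeumannAlgebra H) (Y : H →L[ℂ] H) (C : ℝ) (e : H →L[ℂ] H) : Prop :=
  ∀ (n : ℕ) (x : Fin n → H →L[ℂ] H), (∀ i, x i ∈ M ∧ x i * e = x i) → ∀ ζ,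
    ∑ i, ‖cm Y (x i) ζ‖ ^ 2 ≤ C ^ 2 * ‖∑ i, star (x i) * x i‖ * ‖ζ‖ ^ 2

lemma Cheap.gen {Y e : H →L[ℂ] H} {C : ℝ} (h : Cheap M Y C e) {ι : Type*} (s : Finset ι)
    (x : ι → H →L[ℂ] H) (hx : ∀ i ∈ s, x i ∈ M ∧ x i * e = x i) (ζ : H) :
    ∑ i ∈ s, ‖cm Y (x i) ζ‖ ^ 2 ≤ C ^ 2 * ‖∑ i ∈ s, star (x i) * x i‖ * ‖ζ‖ ^ 2 := by
  let φ := s.equivFin.symm
  have := h _ (fun i => x (φ i)) (fun i => hx _ (φ i).2) ζ
  rwa [Equiv.sum_comp φ fun i : s => ‖cm Y (x i) ζ‖ ^ 2,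
    Equiv.sum_comp φ fun i : s => star (x i) * x i, sum_coe_sort s fun i => ‖cm Y (x i) ζ‖ ^ 2,
    sum_coe_sort s fun i => star (x i) * x i] at this

lemma Cheap.single {Y e x : H →L[ℂ] H} {C : ℝ} (h : Cheap M Y C e) (hC : 0 ≤ C) (hx : x ∈ M)
    (hxe : x * e = x) : ‖cm Y x‖ ≤ C * ‖x‖ := by
  refine opNorm_le_of_sq (by positivity) fun ζ => ?_
  have := h 1 (fun _ => x) (fun _ => ⟨hx, hxe⟩) ζ
  simp only [Fin.sum_univ_one, CStarRing.norm_star_mul_self] at this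
  rw [mul_pow]; linarith

lemma Cheap.mono {Y e : H →L[ℂ] H} {C C' : ℝ} (h : Cheap M Y C e) (hC : C ^ 2 ≤ C' ^ 2) :
    Cheap M Y C' e := fun n x hx ζ => (h n x hx ζ).trans (by gcongr)

lemma Cheap.perturb {Y Y' e : H →L[ℂ] H} {C d : ℝ} (h : Cheap M Y C e) (hC : 0 ≤ C)
    (hd : ‖Y' - Y‖ ≤ d) : Cheap M Y' (2 * C + 3 * d) e := fun n x hx ζ => by
  have d0 : 0 ≤ d := (norm_nonneg _).trans hd
  have h1 := h n x hx ζ
  set N := ‖∑ i, star (x i) * x i‖ with hN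
  have N0 : 0 ≤ N := norm_nonneg _
  have h2 := sum_normsq_le univ x ζ
  have h3 := sum_normsq_le univ x ((Y' - Y) ζ)
  have h4 : ‖(Y' - Y) ζ‖ ^ 2 ≤ d ^ 2 * ‖ζ‖ ^ 2 := by
    rw [← mul_pow]
    exact pow_le_pow_left₀ (norm_nonneg _) (((Y' - Y).le_opNorm ζ).trans (by gcongr)) 2
  have h5 : ∀ i, ‖cm Y' (x i) ζ‖ ^ 2 ≤ 2 * ‖cm Y (x i) ζ‖ ^ 2 +
      (4 * d ^ 2 * ‖x i ζ‖ ^ 2 + 4 * ‖x i ((Y' - Y) ζ)‖ ^ 2) := fun i => by
    have e : cm Y' (x i) ζ = cm Y (x i) ζ + ((Y' - Y) (x i ζ) + -(x i ((Y' - Y) ζ))) := by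
      simp only [cm, _root_.sub_apply, mul_apply_eq_comp, map_sub]; abel
    have b1 := normsq_add_le (cm Y (x i) ζ) ((Y' - Y) (x i ζ) + -(x i ((Y' - Y) ζ)))
    have b2 := normsq_add_le ((Y' - Y) (x i ζ)) (-(x i ((Y' - Y) ζ)))
    have b3 : ‖(Y' - Y) (x i ζ)‖ ^ 2 ≤ d ^ 2 * ‖x i ζ‖ ^ 2 := by
      rw [← mul_pow]
      exact pow_le_pow_left₀ (norm_nonneg _) (((Y' - Y).le_opNorm _).trans (by gcongr)) 2
    rw [norm_neg] at b2
    rw [e]; linarith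
  refine (sum_le_sum fun i _ => h5 i).trans ?_
  rw [sum_add_distrib, sum_add_distrib, ← mul_sum, ← mul_sum, ← mul_sum]
  rw [← hN] at h2 h3
  have h6 := mul_le_mul_of_nonneg_left h4 N0
  have h7 := mul_le_mul_of_nonneg_left h2 (show 0 ≤ 4 * d ^ 2 by positivity)
  have h8 : 0 ≤ (2 * C ^ 2 + 12 * C * d + d ^ 2) * (N * ‖ζ‖ ^ 2) := by positivity
  nlinarith

lemma Cheap.cut {Y e z : H →L[ℂ] H} {C : ℝ} (h : Cheap M Y C e) (hz : Cen M z) :
    Cheap M (z * Y * z) C e := fun n x hx ζ => by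
  have h1 := h n x hx (z ζ)
  have h2 : ∀ i, ‖cm (z * Y * z) (x i) ζ‖ ^ 2 ≤ ‖cm Y (x i) (z ζ)‖ ^ 2 := fun i => by
    rw [cm_cut Y (hz.comm _ (hx i).1)]
    exact pow_le_pow_left₀ (norm_nonneg _) (proj_apply_le hz.proj _) 2
  refine (sum_le_sum fun i _ => h2 i).trans (h1.trans ?_)
  have := pow_le_pow_left₀ (norm_nonneg _) (proj_apply_le hz.proj ζ) 2
  gcongr

/-- the basic hypothesis on `Y` -/
structure Hyp (M : VonNeumannAlgebra H) (p Y : H →L[ℂ] H) (C : ℝ) : Prop where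
  C0 : 0 ≤ C
  c1 : Cheap M Y C p
  c2 : Cheap M (star Y) C p

lemma Hyp.cut {p Y z : H →L[ℂ] H} {C : ℝ} (h : Hyp M p Y C) (hz : Cen M z) :
    Hyp M p (z * Y * z) C :=
  ⟨h.C0, h.c1.cut hz, by
    have := h.c2.cut hz
    rwa [star_mul, star_mul, hz.star_eq, ← mul_assoc]⟩

lemma Hyp.perturb {p Y Y' : H →L[ℂ] H} {C d : ℝ} (h : Hyp M p Y C) (hd : ‖Y' - Y‖ ≤ d) :
    Hyp M p Y' (2 * C + 3 * d) :=
  ⟨by have := (norm_nonneg _).trans hd; have := h.C0; positivity, h.c1.perturb h.C0 hd,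
    h.c2.perturb h.C0 (by rwa [← star_sub, nstar])⟩

lemma Hyp.thin {p Y e : H →L[ℂ] H} {C : ℝ} (h : Hyp M p Y C) (pp : IsStarProjection p)
    (he : Sub M e p) : Cheap M Y (2 * C) e := fun n x hx ζ => by
  obtain ⟨v, vM, hv, v1, v2⟩ := he
  have v2' : star v * p = star v := by simpa [pstar pp] using congrArg star v2
  have h1 := h.c1 n (fun i => x i * star v)
    (fun i => ⟨mul_mem (hx i).1 (star_mem vM), by rw [mul_assoc, v2']⟩) (v ζ)
  have h2 : ‖cm Y v‖ ≤ C := by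
    have := h.c2.single h.C0 (star_mem vM) v2'
    rw [← norm_neg, ← cm_star, nstar, nstar] at this
    nlinarith [hv.norm_le, h.C0, norm_nonneg v]
  set N := ‖∑ i, star (x i) * x i‖ with hN
  have N0 : 0 ≤ N := norm_nonneg _
  have h3 : ‖∑ i, star (x i * star v) * (x i * star v)‖ ≤ N := by
    have : ∑ i, star (x i * star v) * (x i * star v) = v * (∑ i, star (x i) * x i) * star v := by
      rw [mul_sum, sum_mul]; exact sum_congr rfl fun i _ => by simp [mul_assoc]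
    rw [this]
    refine (norm_mul_le _ _).trans ((mul_le_mul (norm_mul_le _ _) hv.star.norm_le (norm_nonneg _)
      (by positivity)).trans ?_)
    nlinarith [hv.norm_le, norm_nonneg v]
  have h4 := sum_normsq_le univ (fun i => x i * star v) (cm Y v ζ)
  have h5 : ∀ i, ‖cm Y (x i) ζ‖ ^ 2 ≤ 2 * ‖cm Y (x i * star v) (v ζ)‖ ^ 2 +
      2 * ‖(x i * star v) (cm Y v ζ)‖ ^ 2 := fun i => by
    have e : x i = x i * star v * v := by rw [mul_assoc, v1, (hx i).2]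
    conv_lhs => rw [e, cm_mul]
    exact normsq_add_le _ _
  have h6 := pow_le_pow_left₀ (norm_nonneg _) (apply_le_of_le_one hv.norm_le ζ) 2
  have h7 : ‖cm Y v ζ‖ ^ 2 ≤ C ^ 2 * ‖ζ‖ ^ 2 := by
    rw [← mul_pow]
    exact pow_le_pow_left₀ (norm_nonneg _) (((cm Y v).le_opNorm _).trans (by gcongr)) 2
  refine (sum_le_sum fun i _ => h5 i).trans ?_
  rw [sum_add_distrib, ← mul_sum, ← mul_sum]
  have h8 : C ^ 2 * ‖∑ i, star (x i * star v) * (x i * star v)‖ * ‖v ζ‖ ^ 2 ≤ C ^ 2 * N * ‖ζ‖ ^ 2 := by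
    gcongr
  have h9 : ‖∑ i, star (x i * star v) * (x i * star v)‖ * ‖cm Y v ζ‖ ^ 2 ≤ N * (C ^ 2 * ‖ζ‖ ^ 2) := by
    gcongr
  nlinarith

section E
variable {κ : Type*} [Fintype κ] [DecidableEq κ] {E : κ → H →L[ℂ] H} {p : H →L[ℂ] H}

lemma Sys.norm_hat_le {f : H →L[ℂ] H} (hE : Sys M E p f) (a : H →L[ℂ] H) : ‖Sys.hat E a‖ ≤ ‖a‖ := by
  unfold Sys.hat
  simp only [mul_assoc]
  refine norm_row_col _ _ _ (norm_nonneg _) (by rw [hE.sum]; exact hE.fproj.norm_le _) fun ζ => ?_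
  have h1 := sum_normsq_star univ E ζ
  rw [hE.sum, re_inner_proj hE.fproj] at h1
  have h2 := pow_le_pow_left₀ (norm_nonneg _) (proj_apply_le hE.fproj ζ) 2
  calc ∑ i, ‖(a * star (E i)) ζ‖ ^ 2 ≤ ∑ i, ‖a‖ ^ 2 * ‖star (E i) ζ‖ ^ 2 :=
        sum_le_sum fun i _ => by
          rw [← mul_pow]; exact pow_le_pow_left₀ (norm_nonneg _) (a.le_opNorm _) 2
    _ ≤ _ := by rw [← mul_sum, h1]; gcongr

/-- `Y` commutes with the system `E` -/
def CommE (E : κ → H →L[ℂ] H) (Y : H →L[ℂ] H) : Prop :=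
  ∀ s, Y * E s = E s * Y ∧ Y * star (E s) = star (E s) * Y

lemma CommE.cut {Y z : H →L[ℂ] H} (hE : Sys M E p 1) (h : CommE E Y) (hz : Cen M z) :
    CommE E (z * Y * z) := fun s => by
  have : ∀ a ∈ M, Y * a = a * Y → z * Y * z * a = a * (z * Y * z) := fun a ha h => by
    rw [mul_assoc, hz.comm a ha, ← mul_assoc, mul_assoc z, h, ← mul_assoc, hz.comm a ha]
    simp only [mul_assoc]
  exact ⟨this _ (hE.mem s) (h s).1, this _ (star_mem (hE.mem s)) (h s).2⟩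

lemma avg_lemma {Y z : H →L[ℂ] H} {C : ℝ} (hE : Sys M E p 1) (hY : CommE E Y) (h : Hyp M p Y C)
    (hz : Cen M z) {ι : Type*} (s : Finset ι) (v : ι → H →L[ℂ] H) (vM : ∀ i ∈ s, v i ∈ M)
    (pv : ∀ i ∈ s, p * v i = v i) (vs : ∑ i ∈ s, v i * star (v i) = p * z) :
    ‖Sys.hat E (∑ i ∈ s, v i * Y * star (v i)) - z * Y‖ ≤ C := by
  have ppz := hz.proj_mul hE.qmem hE.proj
  have e1 : z * Y = Sys.hat E (p * z * Y) := by
    unfold Sys.hat
    have : ∀ i, E i * (p * z * Y) * star (E i) = z * (E i * star (E i)) * Y := fun i => by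
      rw [mul_assoc, mul_assoc, (hY i).2, ← mul_assoc, ← mul_assoc, ← mul_assoc, hE.wq,
        ← hz.comm _ (hE.mem i), mul_assoc z]
    simp only [this]
    rw [← sum_mul, ← mul_sum, hE.sum, mul_one]
  rw [e1, ← Sys.hat_sub]
  refine (hE.norm_hat_le _).trans ?_
  have e2 : ∑ i ∈ s, v i * Y * star (v i) - p * z * Y = ∑ i ∈ s, v i * cm Y (star (v i)) := by
    rw [← vs, sum_mul, ← sum_sub_distrib]
    exact sum_congr rfl fun i _ => by unfold cm; noncomm_ring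
  rw [e2]
  refine norm_row_col _ _ _ h.C0 (by rw [vs]; exact ppz.norm_le _) fun ζ => ?_
  have := h.c1.gen s (fun i => star (v i)) (fun i hi => ⟨star_mem (vM i hi), by
    simpa [pstar hE.proj] using congrArg star (pv i hi)⟩) ζ
  simp only [star_star, vs] at this
  refine this.trans ?_
  have := mul_le_mul_of_nonneg_left (ppz.norm_le _) (sq_nonneg C)
  rw [mul_one] at this
  gcongr

lemma cen_sum (s : Finset (H →L[ℂ] H)) (h1 : ∀ z ∈ s, Cen M z)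
    (h2 : ∀ z ∈ s, ∀ z' ∈ s, z ≠ z' → z * z' = 0) :
    Cen M (∑ z ∈ s, z) ∧ ∀ z ∈ s, z * ∑ z ∈ s, z = z := by
  have h3 : ∀ z ∈ s, z * ∑ z ∈ s, z = z := fun z hz => by
    rw [mul_sum, sum_eq_single z, (h1 z hz).sq]
    · intro b hb hne; exact h2 z hz b hb hne.symm
    · intro h; exact absurd hz h
  refine ⟨⟨sum_mem fun z hz => (h1 z hz).mem, mkproj ?_ ?_, fun a ha => ?_⟩, h3⟩
  · rw [sum_mul]; exact sum_congr rfl h3
  · rw [sstar]; exact sum_congr rfl fun z hz => (h1 z hz).star_eq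
  · rw [sum_mul, mul_sum]; exact sum_congr rfl fun z hz => (h1 z hz).comm a ha

lemma block_bound {Y X : H →L[ℂ] H} {C K : ℝ} (hE : Sys M E p 1) (hY : CommE E Y) (h : Hyp M p Y C)
    (XM : X ∈ M) (X1 : ‖X‖ ≤ 1) (K0 : 0 ≤ K) (s : Finset (H →L[ℂ] H)) (h1 : ∀ z ∈ s, Cen M z)
    (h2 : ∀ z ∈ s, ∀ z' ∈ s, z ≠ z' → z * z' = 0) (h3 : ∀ z ∈ s, ‖z * cm Y X * z‖ ≤ K) :
    ‖(∑ z ∈ s, z) * cm Y X * ∑ z ∈ s, z‖ ≤ K + 2 * C := by
  obtain ⟨hz, hz2⟩ := cen_sum s h1 h2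
  set w := ∑ z ∈ s, z with hw
  have a1 := avg_lemma hE hY h hz s (fun z => p * z) (fun z hz => mul_mem hE.qmem (h1 z hz).mem)
    (fun z _ => pmul' hE.proj _) (by
      rw [hw, mul_sum]
      exact sum_congr rfl fun z hz => by rw [(h1 z hz).ran_mul hE.qmem, pstar hE.proj, pmul hE.proj])
  have e1 : Sys.hat E (∑ z ∈ s, p * z * Y * star (p * z)) = ∑ z ∈ s, z * Y * z := by
    rw [Sys.hat_sum]
    refine sum_congr rfl fun z hz => ?_
    have hc := CommE.cut hE hY (h1 z hz)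
    unfold Sys.hat
    have : ∀ i, E i * (p * z * Y * star (p * z)) * star (E i) =
        (E i * star (E i)) * (z * Y * z) := fun i => by
      rw [star_mul, (h1 z hz).star_eq, pstar hE.proj, mul_assoc (E i) (star _), ← (hc i).2,
        ← hE.qw i, ← hE.wq i]
      simp only [mul_assoc, pmul' hE.proj, star_mul, pstar hE.proj]
    simp only [this]
    rw [← sum_mul, hE.sum, one_mul]
  rw [e1] at a1
  set D := ∑ z ∈ s, z * Y * z with hD
  have hDw : D * w = D := by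
    rw [hD, sum_mul]; exact sum_congr rfl fun z hz => by rw [mul_assoc, hz2 z hz]
  have e2 : w * cm Y X * w = cm ((w * Y - D) * w) X + cm D X := by
    rw [← cm_add_left, sub_mul, hDw, sub_add_cancel, cm_cut Y (hz.comm X XM)]
  have b1 : ‖cm ((w * Y - D) * w) X‖ ≤ 2 * C := by
    refine (norm_cm_le _ _).trans ?_
    have : ‖(w * Y - D) * w‖ ≤ C := by
      refine (norm_mul_le _ _).trans ?_
      rw [norm_sub_rev]
      nlinarith [hz.proj.norm_le _, h.C0, norm_nonneg w, norm_nonneg (D - w * Y)]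
    nlinarith [h.C0, norm_nonneg X, norm_nonneg ((w * Y - D) * w)]
  have b2 : ‖cm D X‖ ≤ K := by
    have : cm D X = ∑ z ∈ s, z * (z * cm Y X * z) := by
      unfold cm
      rw [hD, sum_mul, mul_sum, ← sum_sub_distrib]
      refine sum_congr rfl fun z hz => ?_
      rw [← mul_assoc z (z * _), pmul' (h1 z hz).proj, mul_sub, sub_mul, mul_assoc _ z X,
        (h1 z hz).comm X XM, ← mul_assoc z X, (h1 z hz).comm X XM]
      simp only [mul_assoc]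
    rw [this]
    refine norm_row_col _ _ _ K0 ?_ fun ζ => ?_
    · rw [sum_congr rfl fun z hz => by rw [(h1 z hz).star_eq, (h1 z hz).sq]]
      exact hz.proj.norm_le _
    · have h4 := sum_normsq_star s (fun z => z) ζ
      have i1 : ∑ z ∈ s, ‖star z ζ‖ ^ 2 = ∑ z ∈ s, ‖z ζ‖ ^ 2 :=
        sum_congr rfl fun z hz => by rw [(h1 z hz).star_eq]
      have i2 : ∑ z ∈ s, z * star z = w :=
        sum_congr rfl fun z hz => by rw [(h1 z hz).star_eq, (h1 z hz).sq]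
      rw [i1, i2, re_inner_proj hz.proj] at h4
      have h5 := pow_le_pow_left₀ (norm_nonneg _) (proj_apply_le hz.proj ζ) 2
      calc ∑ z ∈ s, ‖(z * cm Y X * z) ζ‖ ^ 2 ≤ ∑ z ∈ s, K ^ 2 * ‖z ζ‖ ^ 2 :=
            sum_le_sum fun z hz => by
              rw [← mul_pow]
              refine pow_le_pow_left₀ (norm_nonneg _) ?_ 2
              have : (z * cm Y X * z) ζ = (z * cm Y X * z) (z ζ) := by
                rw [← mul_apply_eq_comp _ z, mul_assoc _ z z, (h1 z hz).sq]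
              rw [this]
              exact (ContinuousLinearMap.le_opNorm _ _).trans (by gcongr; exact h3 z hz)
        _ ≤ _ := by rw [← mul_sum, h4]; gcongr
  rw [e2]
  linarith [norm_add_le (cm ((w * Y - D) * w) X) (cm D X)]

theorem patch {Y X : H →L[ℂ] H} {C K : ℝ} (hE : Sys M E p 1) (hY : CommE E Y) (h : Hyp M p Y C)
    (XM : X ∈ M) (X1 : ‖X‖ ≤ 1) (K0 : 0 ≤ K)
    (hloc : ∀ z, Cen M z → z ≠ 0 → ∃ z', Cen M z' ∧ z' ≠ 0 ∧ z' * z = z' ∧ ‖z' * cm Y X * z'‖ ≤ K) :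
    ‖cm Y X‖ ≤ K + 2 * C := by
  classical
  let Q : (H →L[ℂ] H) → Prop := fun z => Cen M z ∧ ∀ (ξ η : H) (ε : ℝ), 0 < ε →
    ∃ s : Finset (H →L[ℂ] H), (∀ z' ∈ s, Cen M z' ∧ z' * z = z' ∧ ‖z' * cm Y X * z'‖ ≤ K) ∧
      (∀ a ∈ s, ∀ b ∈ s, a ≠ b → a * b = 0) ∧ ‖z ξ - (∑ a ∈ s, a) ξ‖ ≤ ε ∧
      ‖z η - (∑ a ∈ s, a) η‖ ≤ ε
  obtain ⟨z, -, -, ⟨hz, hQ⟩, hmax⟩ := exists_maxPI M Q
    ⟨⟨zero_mem _, IsStarProjection.zero _, by simp⟩, fun ξ η ε hε => ⟨∅, by simp, by simp,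
      by simpa using hε.le, by simpa using hε.le⟩⟩
    (fun c F _ t hc ht => by
      refine ⟨⟨ht.mem (Eventually.of_forall fun a => (hc _ a.2).1),
        mkproj ((ht.mul ht).eq ht (Eventually.of_forall fun a => (hc _ a.2).2.2.1.1.sq))
          (ht.star.eq ht (Eventually.of_forall fun a => (hc _ a.2).2.2.1.1.star_eq)),
        fun x hx => (ht.mul (SSC.const x)).eq ((SSC.const x).mul ht)
          (Eventually.of_forall fun a => (hc _ a.2).2.2.1.1.comm x hx)⟩, fun ξ η ε hε => ?_⟩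
      have e1 := (Metric.tendsto_nhds.1 (ht.s1 ξ)) (ε / 2) (by positivity)
      have e2 := (Metric.tendsto_nhds.1 (ht.s1 η)) (ε / 2) (by positivity)
      obtain ⟨a, a1, a2⟩ := (e1.and e2).exists
      obtain ⟨-, -, ⟨ca, qa⟩, la⟩ := hc _ a.2
      obtain ⟨s, s1, s2, s3, s4⟩ := qa ξ η (ε / 2) (by positivity)
      have hat : (a : H →L[ℂ] H) * t = a := by
        have := la.1; rwa [ca.star_eq, ca.sq] at this
      rw [dist_eq_norm, norm_sub_rev] at a1 a2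
      refine ⟨s, fun z' hz' => ⟨(s1 z' hz').1, ?_, (s1 z' hz').2.2⟩, s2, ?_, ?_⟩
      · rw [← (s1 z' hz').2.1, mul_assoc, hat]
      · linarith [norm_sub_le_norm_sub_add_norm_sub (t ξ) (a.1 ξ) ((∑ a ∈ s, a) ξ)]
      · linarith [norm_sub_le_norm_sub_add_norm_sub (t η) (a.1 η) ((∑ a ∈ s, a) η)])
  have hz1 : z = 1 := by
    by_contra hne
    obtain ⟨z', c', n', l', g'⟩ := hloc (1 - z) hz.one_sub (fun h => hne (sub_eq_zero.1 h).symm)
    have o1 : z' * z = 0 := by rw [← l', mul_assoc, hz.proj.one_sub_mul_self, mul_zero]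
    have o2 : z * z' = 0 := by rw [hz.comm z' c'.mem, o1]
    refine n' (hmax z' c'.mem (PI.of_proj c'.proj) (by rw [hz.star_eq, o2])
      (by rw [hz.star_eq, o1]) ⟨⟨add_mem hz.mem c'.mem, hz.proj.add c'.proj o2, fun a ha => by
        rw [add_mul, mul_add, hz.comm a ha, c'.comm a ha]⟩, fun ξ η ε hε => ?_⟩)
    obtain ⟨s, s1, s2, s3, s4⟩ := hQ ξ η ε hε
    have hns : z' ∉ s := fun h => n' (by rw [← (s1 z' h).2.1, o1])
    have o3 : ∀ a ∈ s, a * z' = 0 := fun a ha => by rw [← (s1 a ha).2.1, mul_assoc, o2, mul_zero]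
    refine ⟨insert z' s, fun a ha => ?_, fun a ha b hb hab => ?_, ?_, ?_⟩
    · rcases mem_insert.1 ha with rfl | ha
      · exact ⟨c', by rw [mul_add, o1, c'.sq, zero_add], g'⟩
      · exact ⟨(s1 a ha).1, by rw [mul_add, o3 a ha, (s1 a ha).2.1, add_zero], (s1 a ha).2.2⟩
    · rcases mem_insert.1 ha with ha' | ha' <;> rcases mem_insert.1 hb with hb' | hb'
      · exact absurd (ha'.trans hb'.symm) hab
      · rw [ha', c'.comm b (s1 b hb').1.mem, o3 b hb']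
      · rw [hb']; exact o3 a ha'
      · exact s2 a ha' b hb' hab
    · rw [sum_insert hns]; simpa [add_comm z'] using s3
    · rw [sum_insert hns]; simpa [add_comm z'] using s4
  subst hz1
  have C0 := h.C0
  refine (cm Y X).opNorm_le_bound (by positivity) fun ξ => le_of_forall_pos_le_add fun ε hε => ?_
  obtain ⟨s, s1, s2, s3, s4⟩ := hQ ξ (cm Y X ξ) (ε / (‖cm Y X‖ + 1)) (by positivity)
  have b := block_bound hE hY h XM X1 K0 s (fun z hz => (s1 z hz).1) s2 fun z hz => (s1 z hz).2.2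
  have cw := (cen_sum s (fun z hz => (s1 z hz).1) s2).1
  set w := ∑ a ∈ s, a
  set T := cm Y X
  rw [one_apply_eq_self] at s3 s4
  have e : T ξ = (T ξ - w (T ξ)) + (w (T (ξ - w ξ)) + (w * T * w) ξ) := by
    simp only [mul_apply_eq_comp, map_sub]; abel
  have b1 : ‖w (T (ξ - w ξ))‖ ≤ ‖T‖ * (ε / (‖T‖ + 1)) :=
    (proj_apply_le cw.proj _).trans ((T.le_opNorm _).trans (by gcongr))
  have b2 : ‖(w * T * w) ξ‖ ≤ (K + 2 * C) * ‖ξ‖ := (ContinuousLinearMap.le_opNorm _ _).trans (by gcongr)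
  have b3 : ε / (‖T‖ + 1) + ‖T‖ * (ε / (‖T‖ + 1)) = ε := by field_simp; ring
  calc ‖T ξ‖ = ‖(T ξ - w (T ξ)) + (w (T (ξ - w ξ)) + (w * T * w) ξ)‖ := by rw [← e]
    _ ≤ ‖T ξ - w (T ξ)‖ + (‖w (T (ξ - w ξ))‖ + ‖(w * T * w) ξ‖) :=
      (norm_add_le _ _).trans (by gcongr; exact norm_add_le _ _)
    _ ≤ _ := by linarith

end E

end Crest.Agent.H5.KS
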