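import Crest.Agent.H5.KS.Fin

/-! An approximate trace on a nonzero central part of a finite algebra. -/

set_option autoImplicit false
set_option linter.unusedSectionVars false
set_option linter.style.haveILetI false

namespace Crest.Agent.H5.KS

open scoped InnerProductSpace
open Filter Topology Finset

variable {H : Type*} [NormedAddCommGroup H] [InnerProductSpace ℂ H] [CompleteSpace H]
variable {M : VonNeumannAlgebra H}

lemma exists_between {t₁ s : H →L[ℂ] H} (t₁M : t₁ ∈ M) (h₁ : PI t₁) (hN : NS M (t₁ * star t₁))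
    (sM : s ∈ M) (hs : PI s) (h1 : s * (star t₁ * t₁) = s) (h2 : t₁ * star t₁ * s = s)
    (hne : t₁ * star t₁ - s * star s ≠ 0) :
    ∃ t ∈ M, PI t ∧ t ≠ 0 ∧ (t₁ * star t₁ - s * star s) * t = t ∧
      t * (star t₁ * t₁ - star s * s) = t := by
  have eM : star t₁ * t₁ - star s * s ∈ M :=
    sub_mem (mul_mem (star_mem t₁M) t₁M) (mul_mem (star_mem sM) sM)
  have fM : t₁ * star t₁ - s * star s ∈ M :=
    sub_mem (mul_mem t₁M (star_mem t₁M)) (mul_mem sM (star_mem sM))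
  have pe := sub_dom_proj hs h₁.dom h1
  have pf := sub_ran_proj hs h₁.ran h2
  by_contra hcon
  have h0 : ∀ x ∈ M, (star t₁ * t₁ - star s * s) * x * (t₁ * star t₁ - s * star s) = 0 := by
    intro x hx
    by_contra hx0
    refine hcon (exists_PI_between eM fM (star_mem hx) (pmul pe) (pmul pf) fun h => hx0 ?_)
    have := congrArg star h
    rwa [star_mul, star_mul, pstar pe, pstar pf, star_star, star_zero, ← mul_assoc] at this
  obtain ⟨c, hc, c1, c2⟩ := exists_cs fM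
  have c3 := c2 _ h0
  rw [sub_mul, sub_eq_zero] at c3
  have vM : s * star t₁ ∈ M := mul_mem sM (star_mem t₁M)
  have pfc := hc.proj_mul (mul_mem t₁M (star_mem t₁M)) h₁.ran
  have hfin := NS.fin (v := s * star t₁ * c) (hN.mono (f' := t₁ * star t₁ * c)
    (by rw [← mul_assoc, pmul h₁.ran])) pfc (mul_mem vM hc.mem) (by
      rw [hc.dom_mul vM vM, star_mul, star_star, mul_assoc, mul_assoc, mul_assoc,
        ← hc.comm _ (star_mem t₁M), ← mul_assoc s, ← mul_assoc (star s), ← mul_assoc (star s), ← c3,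
        mul_assoc _ c, hc.comm _ (star_mem t₁M), ← mul_assoc, ← mul_assoc, h₁.eq', mul_assoc])
      (by rw [mul_assoc, ← mul_assoc c, hc.comm _ vM, mul_assoc _ c, hc.sq, ← mul_assoc, ← mul_assoc,
        h2])
  rw [hc.ran_mul vM, star_mul, star_star, mul_assoc s, ← mul_assoc (star t₁), ← mul_assoc s, h1] at hfin
  apply hne
  rw [← c1, hc.comm _ fM, sub_mul, hfin, sub_self]

lemma normsq_add_of_orth {s t : H →L[ℂ] H} (h : star s * t = 0) (ζ : H) :
    ‖(s + t) ζ‖ ^ 2 = ‖s ζ‖ ^ 2 + ‖t ζ‖ ^ 2 := by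
  rw [norm_sq_eq_re, add_dom h, _root_.add_apply, inner_add_right, Complex.add_re, ← norm_sq_eq_re,
    ← norm_sq_eq_re]

lemma normsq_congr {s t : H →L[ℂ] H} (h : star s * s = star t * t) (ζ : H) :
    ‖s ζ‖ ^ 2 = ‖t ζ‖ ^ 2 := by rw [norm_sq_eq_re, h, ← norm_sq_eq_re]

lemma apply_le_of_le_one {s : H →L[ℂ] H} (h : ‖s‖ ≤ 1) (x : H) : ‖s x‖ ≤ ‖x‖ :=
  (s.le_opNorm x).trans (by nlinarith [norm_nonneg x])

theorem KR_proj {f : H →L[ℂ] H} (hN : NS M f) (hf : f ∈ M) (pf : IsStarProjection f) (h0 : f ≠ 0) :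
    ∃ q ∈ M, IsStarProjection q ∧ q ≠ 0 ∧ f * q = q ∧ ∃ ζ : H,
      (∀ s ∈ M, PI s → q * s = s → s * q = s → ‖star s ζ‖ ^ 2 ≤ 2 * ‖s ζ‖ ^ 2) ∧
      ∀ e ∈ M, e * q = e → e ζ = 0 → e = 0 := by
  obtain ⟨ξ, hξ⟩ : ∃ ξ, f ξ ≠ 0 := by
    by_contra h; push Not at h; exact h0 (ContinuousLinearMap.ext h)
  set ζ := f ξ with hζ
  have fζ : f ζ = ζ := by rw [hζ, ← mul_apply_eq_comp, pmul pf]
  obtain ⟨q₀, p₀, r1, r2⟩ := exists_proj {η : H | ∃ t ∈ M.commutant, t ζ = η}
  have r2' : ∀ T : H →L[ℂ] H, (∀ t ∈ M.commutant, T (t ζ) = 0) → T * q₀ = 0 := fun T hT =>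
    r2 T (by rintro _ ⟨t, ht, rfl⟩; exact hT t ht)
  have k1 : ∀ t ∈ M.commutant, (1 - q₀) * t * q₀ = 0 := fun t ht => r2' _ fun u hu => by
    have := r1 _ ⟨t * u, mul_mem ht hu, rfl⟩
    simp only [mul_apply_eq_comp] at this
    simp [this]
  have q₀M : q₀ ∈ M := mem_of_comm fun t ht => comm_of_inv p₀ (k1 t ht) (k1 _ (star_mem ht))
  have faith : ∀ e ∈ M, e ζ = 0 → e * q₀ = 0 := fun e he h => r2' e fun t ht => by
    rw [← mul_apply_eq_comp, ← comm_of_mem he ht, mul_apply_eq_comp, h, map_zero]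
  have q₀ζ : q₀ ζ = ζ := r1 _ ⟨1, one_mem _, rfl⟩
  have fq₀ : f * q₀ = q₀ := by
    have := faith (1 - f) (sub_mem (one_mem _) hf) (by simp [fζ])
    rw [sub_mul, one_mul] at this
    exact (sub_eq_zero.1 this).symm
  have hN₀ : NS M q₀ := hN.mono fq₀
  have pos : ∀ t ∈ M, t * q₀ = t → t ≠ 0 → 0 < ‖t ζ‖ ^ 2 := fun t ht h1 h2 => by
    have : t ζ ≠ 0 := fun h => h2 (by rw [← h1]; exact faith t ht h)
    positivity
  -- step 1
  obtain ⟨s, sM, hs, ⟨s1, s2, s3⟩, hmax⟩ := exists_maxPI M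
    (fun s => s * q₀ = s ∧ q₀ * s = s ∧ 2 * ‖star s ζ‖ ^ 2 ≤ ‖s ζ‖ ^ 2) (by simp)
    (fun c F _ t hc ht =>
      ⟨(ht.mul (SSC.const _)).eq ht (Eventually.of_forall fun a => (hc _ a.2).2.2.1.1),
        ((SSC.const _).mul ht).eq ht (Eventually.of_forall fun a => (hc _ a.2).2.2.1.2.1),
        le_of_tendsto_of_tendsto' ((ht.star.normsq ζ).const_mul 2) (ht.normsq ζ)
          fun a => (hc _ a.2).2.2.1.2.2⟩)
  set e := q₀ - star s * s with he
  set f' := q₀ - s * star s with hf'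
  have f0 : f' ≠ 0 := fun h => by
    have e1 : ‖star s ζ‖ ^ 2 = ‖q₀ ζ‖ ^ 2 := normsq_congr (by
      rw [star_star, pstar p₀, pmul p₀]; exact (sub_eq_zero.1 h).symm) ζ
    have e2 := pow_le_pow_left₀ (norm_nonneg _) (apply_le_of_le_one hs.norm_le ζ) 2
    have e3 : 0 < ‖ζ‖ ^ 2 := by positivity
    rw [q₀ζ] at e1
    linarith
  let T : Set (H →L[ℂ] H) := {t | t ∈ M ∧ PI t ∧ t ≠ 0 ∧ f' * t = t ∧ t * e = t}
  have hT : ∀ t ∈ T, ‖t ζ‖ ^ 2 < 2 * ‖star t ζ‖ ^ 2 ∧ 0 < ‖t ζ‖ ^ 2 ∧ 0 < ‖star t ζ‖ ^ 2 ∧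
      t * q₀ = t := by
    rintro t ⟨tM, ht, t0, t1, t2⟩
    obtain ⟨o1, o2, o3, o4⟩ := orth_of_rem hs p₀ p₀ s1 s2 t1 t2
    refine ⟨?_, pos t tM o3 t0, pos _ (star_mem tM) (by simpa [pstar p₀] using congrArg star o4)
      (by simpa using t0), o3⟩
    by_contra hcon
    refine t0 (hmax t tM ht o1 o2 ⟨by rw [add_mul, s1, o3], by rw [mul_add, s2, o4], ?_⟩)
    rw [star_add, normsq_add_of_orth o1, normsq_add_of_orth (by simpa using congrArg star o2)]
    linarith
  have hTne : T.Nonempty := by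
    have := exists_between q₀M (PI.of_proj p₀) (s := s) (by rwa [pstar p₀, pmul p₀]) sM hs
      (by rwa [pstar p₀, pmul p₀]) (by rwa [pstar p₀, pmul p₀]) (by rwa [pstar p₀, pmul p₀])
    rw [pstar p₀, pmul p₀] at this
    obtain ⟨t, h1, h2, h3, h4, h5⟩ := this
    exact ⟨t, h1, h2, h3, h4, h5⟩
  let R : Set ℝ := (fun t : H →L[ℂ] H => ‖t ζ‖ ^ 2 / ‖star t ζ‖ ^ 2) '' T
  have hRb : BddAbove R := ⟨2, by
    rintro _ ⟨t, ht, rfl⟩
    exact (div_le_iff₀ (hT t ht).2.2.1).2 (hT t ht).1.le⟩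
  set μ := sSup R with hμ
  have hup : ∀ t ∈ T, ‖t ζ‖ ^ 2 ≤ μ * ‖star t ζ‖ ^ 2 := fun t ht =>
    (div_le_iff₀ (hT t ht).2.2.1).1 (le_csSup hRb ⟨t, ht, rfl⟩)
  have μ0 : 0 < μ := by
    obtain ⟨t, ht⟩ := hTne
    have := hup t ht
    have h1 := (hT t ht).2.1
    have h2 := (hT t ht).2.2.1
    by_contra h
    nlinarith
  obtain ⟨_, ⟨t₁, ht₁, rfl⟩, hlt⟩ := exists_lt_of_lt_csSup (hTne.image _)
    (show μ / 2 < sSup R by linarith)
  have hlt' : μ / 2 * ‖star t₁ ζ‖ ^ 2 < ‖t₁ ζ‖ ^ 2 := (lt_div_iff₀ (hT _ ht₁).2.2.1).1 hlt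
  obtain ⟨t₁M, P₁, -, a1, a2⟩ := id ht₁
  -- step 2
  obtain ⟨u, uM, hu, ⟨u1, u2, u3⟩, hmax2⟩ := exists_maxPI M
    (fun s => s * (star t₁ * t₁) = s ∧ t₁ * star t₁ * s = s ∧ ‖s ζ‖ ^ 2 ≤ μ / 2 * ‖star s ζ‖ ^ 2)
    (by simp) (fun c F _ t hc ht =>
      ⟨(ht.mul (SSC.const _)).eq ht (Eventually.of_forall fun a => (hc _ a.2).2.2.1.1),
        ((SSC.const _).mul ht).eq ht (Eventually.of_forall fun a => (hc _ a.2).2.2.1.2.1),
        le_of_tendsto_of_tendsto' (ht.normsq ζ) ((ht.star.normsq ζ).const_mul _)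
          fun a => (hc _ a.2).2.2.1.2.2⟩)
  have e0 : star t₁ * t₁ - star u * u ≠ 0 := fun h => by
    have e1 : ‖u ζ‖ ^ 2 = ‖t₁ ζ‖ ^ 2 := normsq_congr (sub_eq_zero.1 h).symm ζ
    have e2 : star u = star u * t₁ * star t₁ := by
      simpa [mul_assoc] using (congrArg star u2).symm
    have e3 : ‖star u ζ‖ ≤ ‖star t₁ ζ‖ := by
      rw [e2, mul_apply_eq_comp]
      exact apply_le_of_le_one ((norm_mul_le _ _).trans (by
        nlinarith [hu.star.norm_le, P₁.norm_le, norm_nonneg t₁, norm_nonneg (star u)])) _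
    have e4 := pow_le_pow_left₀ (norm_nonneg _) e3 2
    nlinarith
  obtain ⟨t₂', t₂M', P₂', n₂', b1', b2'⟩ := exists_between (t₁ := star t₁) (s := star u)
    (star_mem t₁M) P₁.star (by
      rw [star_star]
      exact hN₀.mono (by
        have : q₀ * star t₁ = star t₁ := by simpa [pstar p₀] using congrArg star (hT _ ht₁).2.2.2
        rw [← mul_assoc, this])) (star_mem uM) hu.star
    (by simpa [mul_assoc] using congrArg star u2) (by simpa [mul_assoc] using congrArg star u1)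
    (by simpa using e0)
  simp only [star_star] at b1' b2'
  set t₂ := star t₂' with ht₂
  have t₂M : t₂ ∈ M := star_mem t₂M'
  have P₂ : PI t₂ := P₂'.star
  have b1 : t₂ * (star t₁ * t₁ - star u * u) = t₂ := by simpa using congrArg star b1'
  have b2 : (t₁ * star t₁ - u * star u) * t₂ = t₂ := by simpa using congrArg star b2'
  have n₂ : t₂ ≠ 0 := by simpa [ht₂] using n₂'
  clear_value t₂
  have hlow : ∀ t ∈ M, PI t → t ≠ 0 → (t₁ * star t₁ - u * star u) * t = t →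
      t * (star t₁ * t₁ - star u * u) = t → t ∈ T ∧ μ / 2 * ‖star t ζ‖ ^ 2 < ‖t ζ‖ ^ 2 := by
    intro t tM ht t0 t1 t2
    obtain ⟨o1, o2, o3, o4⟩ := orth_of_rem hu P₁.dom P₁.ran u1 u2 t1 t2
    refine ⟨⟨tM, ht, t0, by rw [← o4, ← mul_assoc, ← mul_assoc, a1],
      by rw [← o3, mul_assoc, mul_assoc, a2]⟩, ?_⟩
    by_contra hcon
    refine t0 (hmax2 t tM ht o1 o2 ⟨by rw [add_mul, u1, o3], by rw [mul_add, u2, o4], ?_⟩)
    rw [star_add, normsq_add_of_orth o1, normsq_add_of_orth (by simpa using congrArg star o2)]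
    linarith
  have t₂q : t₂ * q₀ = t₂ := (hT _ (hlow t₂ t₂M P₂ n₂ b2 b1).1).2.2.2
  have q₀q : q₀ * (star t₂ * t₂) = star t₂ * t₂ := by
    have : q₀ * star t₂ = star t₂ := by simpa [pstar p₀] using congrArg star t₂q
    rw [← mul_assoc, this]
  refine ⟨star t₂ * t₂, mul_mem (star_mem t₂M) t₂M, P₂.dom,
    fun h => n₂ (eq_zero_of_star_mul_self h), by rw [← q₀q, ← mul_assoc, fq₀], ζ,
    fun v vM hv v1 v2 => ?_, fun x hx h1 h2 => ?_⟩
  · by_cases v0 : v = 0
    · simp [v0]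
    have v1' : star v * (star t₂ * t₂) = star v := by simpa [mul_assoc] using congrArg star v1
    have v2' : star t₂ * t₂ * star v = star v := by simpa [mul_assoc] using congrArg star v2
    have bq : star t₂ * t₂ * (star t₁ * t₁ - star u * u) = star t₂ * t₂ := by rw [mul_assoc, b1]
    have d1 : star (t₂ * star v) * (t₂ * star v) = star (star v) * star v := by
      rw [star_mul, mul_assoc, ← mul_assoc (star t₂), v2']
    have d2 : star (t₂ * (star v * v)) * (t₂ * (star v * v)) = star v * v := by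
      rw [star_mul, pstar hv.dom, mul_assoc, ← mul_assoc (star t₂), ← mul_assoc (star t₂ * t₂), v2',
        pmul hv.dom]
    obtain ⟨m1, -⟩ := hlow (t₂ * star v) (mul_mem t₂M (star_mem vM))
      (PI.of_dom (by rw [d1, star_star]; exact hv.ran))
      (fun h => v0 (by
        rw [h, mul_zero, star_star] at d1; exact eq_zero_of_mul_star_self d1.symm))
      (by rw [← mul_assoc, b2]) (by rw [← v1', mul_assoc, mul_assoc, bq])
    obtain ⟨-, m2⟩ := hlow (t₂ * (star v * v)) (mul_mem t₂M (mul_mem (star_mem vM) vM))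
      (PI.of_dom (by rw [d2]; exact hv.dom))
      (fun h => v0 (by rw [h, mul_zero] at d2; exact eq_zero_of_star_mul_self d2.symm))
      (by rw [← mul_assoc, b2]) (by rw [← v2, mul_assoc, mul_assoc, mul_assoc, bq])
    have m3 := hup _ m1
    rw [normsq_congr d1] at m3
    rw [normsq_congr d2] at m2
    have m4 : ‖star (t₂ * (star v * v)) ζ‖ ^ 2 = ‖star (t₂ * star v) ζ‖ ^ 2 := normsq_congr (by
      simp only [star_mul, star_star, mul_assoc]
      rw [← mul_assoc v (star v), ← mul_assoc (v * star v), hv.eq]) ζ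
    rw [m4] at m2
    linarith
  · have := faith x hx h2
    rw [← h1, ← q₀q, ← mul_assoc, this, zero_mul]

lemma conj_nonneg' {a : H →L[ℂ] H} (ha : 0 ≤ a) {e : H →L[ℂ] H} (pe : IsStarProjection e)
    (hc : a * e = e * a) : 0 ≤ a * e := by
  have := star_left_conjugate_nonneg ha e
  rwa [pstar pe, ← hc, mul_assoc, pmul pe] at this

lemma re_inner_rsmul (c : ℝ) (T : H →L[ℂ] H) (x : H) :
    (⟪x, (c • T) x⟫_ℂ).re = c * (⟪x, T x⟫_ℂ).re := by
  rw [← Complex.coe_smul, _root_.smul_apply, inner_smul_right]; simp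

lemma re_inner_add (S T : H →L[ℂ] H) (x : H) :
    (⟪x, (S + T) x⟫_ℂ).re = (⟪x, S x⟫_ℂ).re + (⟪x, T x⟫_ℂ).re := by
  rw [_root_.add_apply, inner_add_right, Complex.add_re]

lemma re_inner_sub (S T : H →L[ℂ] H) (x : H) :
    (⟪x, (S - T) x⟫_ℂ).re = (⟪x, S x⟫_ℂ).re - (⟪x, T x⟫_ℂ).re := by
  rw [_root_.sub_apply, inner_sub_right, Complex.sub_re]

lemma KR_elem {q : H →L[ℂ] H} (pq : IsStarProjection q) {ζ : H}
    (h : ∀ s ∈ M, PI s → q * s = s → s * q = s → ‖star s ζ‖ ^ 2 ≤ 2 * ‖s ζ‖ ^ 2)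
    {y : H →L[ℂ] H} (yM : y ∈ M) (y1 : q * y = y) (y2 : y * q = y) :
    ‖star y ζ‖ ^ 2 ≤ 2 * ‖y ζ‖ ^ 2 := by
  obtain ⟨v, vM, hv, p1, p2, -, p4, p5⟩ := exists_polarM yM
  have qv := p4 q y1
  have vq := p5 q y2
  have qv' : q * star v = star v := by simpa [pstar pq] using congrArg star vq
  have key : ∀ ε : ℝ, 0 < ε → ∀ N : ℕ, ∀ a ∈ M, ∀ o ∈ M, IsStarProjection o → 0 ≤ a →
      a ≤ ((N : ℝ) * ε) • (1 : H →L[ℂ] H) → o * a = a → star v * v * o = o →
      (⟪ζ, (v * a * star v) ζ⟫_ℂ).re ≤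
        ε * (⟪ζ, (v * o * star v) ζ⟫_ℂ).re + 2 * (⟪ζ, a ζ⟫_ℂ).re := by
    intro ε hε N
    induction N with
    | zero =>
      intro a _ o _ po a0 a1 _ _
      have : a = 0 := le_antisymm (by simpa using a1) a0
      have := re_inner_nonneg (star_right_conjugate_nonneg po.nonneg v) ζ
      subst a
      simp only [mul_zero, zero_mul, _root_.zero_apply, inner_zero_right,
        Complex.zero_re, add_zero]
      positivity
    | succ N ih =>
      intro a aM o oM po a0 a1 oa vo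
      have sa : star a = a := a0.isSelfAdjoint.star_eq
      have ao : a * o = a := flip_mul (pstar po) sa sa oa
      have sb : IsSelfAdjoint (a - ε • (1 : H →L[ℂ] H)) := by
        rw [IsSelfAdjoint, star_sub, sa, star_smul]; simp
      obtain ⟨b, hb⟩ : ∃ b, b = a - ε • (1 : H →L[ℂ] H) := ⟨_, rfl⟩
      rw [← hb] at sb
      obtain ⟨e₀, p₀, s1, s2, s3, s4, -⟩ := exists_split _ sb
      have hc : ∀ t : H →L[ℂ] H, t * a = a * t → t * b = b * t := fun t ht => by
        rw [hb, mul_sub, sub_mul, ht]; simp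
      have e₀M : e₀ ∈ M := mem_of_comm fun t ht => s4 t (hc t (comm_of_mem aM ht))
        (hc _ (comm_of_mem aM (star_mem ht)))
      have oe : o * e₀ = e₀ * o := s4 o (hc o (by rw [oa, ao])) (hc _ (by rw [pstar po, oa, ao]))
      have ob : o * b = b * o := hc o (by rw [oa, ao])
      obtain ⟨e, he⟩ : ∃ e, e = e₀ * o := ⟨_, rfl⟩
      have pe : IsStarProjection e := he ▸ p₀.mul po oe.symm
      have eM : e ∈ M := he ▸ mul_mem e₀M oM
      have be : b * e = e * b := by rw [he, ← mul_assoc, s3, mul_assoc, ← ob, mul_assoc]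
      have n1 : 0 ≤ b * e := by
        rw [he, ← mul_assoc]
        exact conj_nonneg' s1 po (by rw [mul_assoc, ← oe, ← mul_assoc, ← ob, mul_assoc])
      have n2 : b * e ≤ ((N : ℝ) * ε) • (1 : H →L[ℂ] H) := by
        have h1 : 0 ≤ ((N : ℝ) * ε) • (1 : H →L[ℂ] H) - b := by
          have := sub_nonneg.2 a1
          rw [hb]; convert this using 1
          push_cast; rw [add_mul, one_mul, add_smul]; abel
        have h2 := conj_nonneg' h1 pe (by rw [sub_mul, mul_sub, be]; simp)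
        rw [sub_mul, sub_nonneg, smul_mul_assoc, one_mul] at h2
        exact h2.trans (smul_le_smul_of_nonneg_left pe.le_one (by positivity))
      have n3 : a * (1 - e₀) ≤ ε • (o - e) := by
        have h1 := conj_nonneg' (neg_nonneg.2 s2) po (by
          have : (1 - e₀) * o = o * (1 - e₀) := by rw [sub_mul, mul_sub, oe]; simp
          rw [neg_mul, mul_neg, mul_assoc, this, ← mul_assoc, ← ob, mul_assoc])
        have : -(b * (1 - e₀)) * o = ε • (o - e) - a * (1 - e₀) := by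
          rw [neg_mul, mul_assoc, sub_mul 1, one_mul, ← he, hb, sub_mul, smul_mul_assoc, one_mul,
            mul_sub a, mul_sub a, ao, he, ← oe, ← mul_assoc, ao, mul_one]
          abel
        rwa [this, sub_nonneg] at h1
      have n4 : 0 ≤ a * (1 - e₀) := conj_nonneg' a0 p₀.one_sub (by
        have : a * e₀ = e₀ * a := (s4 a (hc a rfl) (hc _ (by rw [sa])))
        rw [mul_sub, sub_mul, this]; simp)
      have dec : a = b * e + ε • e + a * (1 - e₀) := by
        rw [hb, sub_mul, smul_mul_assoc, one_mul, he, ← oe, ← mul_assoc, ao, mul_sub, mul_one]; abel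
      have ve : star v * v * e = e := by rw [he, ← oe, ← mul_assoc, vo]
      have IH := ih (b * e) (mul_mem (hb ▸ sub_mem aM (rsmul_mem _ (one_mem _))) eM) e eM pe n1 n2
        (by rw [be, pmul' pe]) ve
      have d1 : star (v * e) * (v * e) = e := by
        rw [star_mul, pstar pe, mul_assoc, ← mul_assoc (star v), ve, pmul pe]
      have qe : e * q = e := flip_mul (pstar pq) (pstar pe) (pstar pe)
        (by rw [← ve, ← mul_assoc, ← mul_assoc, qv'])
      have hs := h (v * e) (mul_mem vM eM) (PI.of_dom (by rw [d1]; exact pe))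
        (by rw [← mul_assoc, qv]) (by rw [mul_assoc, qe])
      rw [norm_sq_eq_re, norm_sq_eq_re, d1, star_star, star_mul, pstar pe, mul_assoc,
        pmul' pe, ← mul_assoc] at hs
      have m1 := re_inner_mono (star_right_conjugate_le_conjugate n3 v) ζ
      rw [mul_smul_comm, smul_mul_assoc, re_inner_rsmul, mul_sub v o, sub_mul, re_inner_sub] at m1
      have m2 := re_inner_nonneg n4 ζ
      have m3 : (⟪ζ, (v * a * star v) ζ⟫_ℂ).re = (⟪ζ, (v * (b * e) * star v) ζ⟫_ℂ).re +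
          ε * (⟪ζ, (v * e * star v) ζ⟫_ℂ).re + (⟪ζ, (v * (a * (1 - e₀)) * star v) ζ⟫_ℂ).re := by
        conv_lhs => rw [dec]
        rw [mul_add, mul_add, add_mul, add_mul, re_inner_add, re_inner_add, mul_smul_comm,
          smul_mul_assoc, re_inner_rsmul]
      have m4 : (⟪ζ, a ζ⟫_ℂ).re = (⟪ζ, (b * e) ζ⟫_ℂ).re + ε * (⟪ζ, e ζ⟫_ℂ).re +
          (⟪ζ, (a * (1 - e₀)) ζ⟫_ℂ).re := by
        conv_lhs => rw [dec]
        rw [re_inner_add, re_inner_add, re_inner_rsmul]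
      nlinarith
  refine le_of_forall_pos_le_add fun η hη => ?_
  set ε := η / (‖ζ‖ ^ 2 + 1) with hε
  have ε0 : 0 < ε := by positivity
  obtain ⟨N, hN⟩ := exists_nat_ge (‖star y * y‖ / ε)
  have a0 : 0 ≤ star y * y := star_mul_self_nonneg y
  have := key ε ε0 N (star y * y) (mul_mem (star_mem yM) yM) (star v * v)
    (mul_mem (star_mem vM) vM) hv.dom a0 (by
      have h1 := a0.isSelfAdjoint.le_algebraMap_norm_self
      rw [Algebra.algebraMap_eq_smul_one] at h1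
      exact h1.trans (smul_le_smul_of_nonneg_right ((div_le_iff₀ ε0).1 hN) zero_le_one))
    (by rw [← mul_assoc, p2]) (pmul hv.dom)
  rw [p1, hv.eq', ← norm_sq_eq_re] at this
  have h1 := norm_sq_eq_re (star y) ζ
  have h2 := norm_sq_eq_re (star v) ζ
  rw [star_star] at h1 h2
  rw [← h1, ← h2] at this
  have h3 := pow_le_pow_left₀ (norm_nonneg _) (apply_le_of_le_one hv.star.norm_le ζ) 2
  have h4 : ε * ‖ζ‖ ^ 2 ≤ η := by
    rw [hε, div_mul_eq_mul_div, div_le_iff₀ (by positivity)]; nlinarith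
  nlinarith

lemma sum_normsq_star {ι : Type*} (s : Finset ι) (V : ι → H →L[ℂ] H) (η : H) :
    ∑ b ∈ s, ‖star (V b) η‖ ^ 2 = (⟪η, (∑ b ∈ s, V b * star (V b)) η⟫_ℂ).re := by
  rw [_root_.sum_apply, inner_sum, Complex.re_sum]
  exact sum_congr rfl fun b _ => by rw [norm_sq_eq_re, star_star]

lemma re_inner_proj {e : H →L[ℂ] H} (pe : IsStarProjection e) (η : H) :
    (⟪η, e η⟫_ℂ).re = ‖e η‖ ^ 2 := by rw [norm_sq_eq_re, pstar pe, pmul pe]

/-- approximate trace property of a finite family of vectors -/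
def CT (M : VonNeumannAlgebra H) {k : ℕ} (ζ : Fin k → H) : Prop :=
  ∀ x ∈ M, ∑ a, ‖star x (ζ a)‖ ^ 2 ≤ 2 * ∑ a, ‖x (ζ a)‖ ^ 2

lemma CT.cut {k : ℕ} {ζ : Fin k → H} (h : CT M ζ) {z : H →L[ℂ] H} (hz : Cen M z) :
    CT M fun a => z (ζ a) := fun x hx => by
  have := h (x * z) (mul_mem hx hz.mem)
  rwa [star_mul, hz.star_eq, hz.comm _ (star_mem hx)] at this

theorem exists_trace {κ : Type*} [Fintype κ] [DecidableEq κ] {E : κ → H →L[ℂ] H} {p z : H →L[ℂ] H}
    (hE : Sys M E p 1) (hz : Cen M z) (h0 : z ≠ 0) (hN : NS M (p * z)) :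
    ∃ z', Cen M z' ∧ z' ≠ 0 ∧ z' * z = z' ∧ ∃ (k : ℕ) (ζ : Fin k → H), CT M ζ ∧
      ∀ z'', Cen M z'' → z'' ≠ 0 → z'' * z' = z'' → ∃ a, z'' (ζ a) ≠ 0 := by
  have pzM : p * z ∈ M := mul_mem hE.qmem hz.mem
  have ppz := hz.proj_mul hE.qmem hE.proj
  have pz0 : p * z ≠ 0 := fun h => h0 (by
    have := hE.hat_cen hz p
    rw [h, Sys.hat_zero, hE.hat_q, one_mul] at this; exact this.symm)
  obtain ⟨q, qM, pq, q0, hq, ζ, k1, k2⟩ := KR_proj hN pzM ppz pz0
  obtain ⟨z', hz', z0, hzz, k, v, vM, vP, vq, vo, vs⟩ := hN.fam pzM ppz qM pq q0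
  have hzq : z * q = q := by rw [← hq, ← mul_assoc, ← mul_assoc, hz.comm p hE.qmem, mul_assoc p, hz.sq]
  have hzz' := hzz z hz hzq
  let V : κ × Option (Fin k) → H →L[ℂ] H := fun x => E x.1 * v x.2
  have VM : ∀ x, V x ∈ M := fun x => mul_mem (hE.mem _) (vM _)
  have Vq : ∀ x, V x * q = V x := fun x => by simp only [V]; rw [mul_assoc, vq]
  have qV : ∀ x, q * star (V x) = star (V x) := fun x => by
    simpa [pstar pq] using congrArg star (Vq x)
  have Vs : ∑ x, V x * star (V x) = z' := by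
    have : Sys.hat E (p * z * z') = z' := by
      rw [mul_assoc, hz.comm z' hz'.mem, hzz', hE.hat_cen hz', hE.hat_q, one_mul]
    rw [← this, ← vs, Fintype.sum_prod_type]
    refine sum_congr rfl fun i _ => ?_
    rw [mul_sum, sum_mul]
    exact sum_congr rfl fun j _ => by simp only [V, star_mul, mul_assoc]
  have zv : ∀ a, z' * v a = v a := fun a => by
    have h1 : (∑ b, v b * star (v b)) * v a = v a := by
      rw [sum_mul, sum_eq_single a, (vP a).eq]
      · intro b _ hb; rw [mul_assoc, vo b a hb, mul_zero]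
      · intro h; exact absurd (mem_univ a) h
    rw [vs] at h1
    rw [← h1, ← mul_assoc, hz'.comm _ (mul_mem pzM hz'.mem), mul_assoc (p * z) z' z', hz'.sq]
  have zV : ∀ x, z' * V x = V x := fun x => by
    simp only [V]; rw [← mul_assoc, hz'.comm _ (hE.mem _), mul_assoc, zv]
  have hsum : ∀ x ∈ M, ∀ b, ‖x (V b ζ)‖ ^ 2 = ∑ a, ‖(star (V a) * x * V b) ζ‖ ^ 2 := fun x hx b => by
    have := sum_normsq_star univ V (x (V b ζ))
    have e1 : z' (x (V b ζ)) = x (V b ζ) := by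
      change (z' * x * V b) ζ = (x * V b) ζ
      rw [hz'.comm x hx, mul_assoc, zV]
    rw [Vs, re_inner_proj hz'.proj, e1] at this
    simpa using this.symm
  let e := (Fintype.equivFin (κ × Option (Fin k))).symm
  refine ⟨z', hz', z0, hzz', _, fun a => V (e a) ζ, fun x hx => ?_, fun z'' hz'' n0 hle => ?_⟩
  · rw [Equiv.sum_comp e fun a => ‖star x (V a ζ)‖ ^ 2, Equiv.sum_comp e fun a => ‖x (V a ζ)‖ ^ 2]
    simp only [hsum _ hx, hsum _ (star_mem hx)]
    rw [sum_comm, mul_sum]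
    refine sum_le_sum fun a _ => ?_
    rw [mul_sum]
    refine sum_le_sum fun b _ => ?_
    have := KR_elem pq k1 (y := star (V b) * x * V a)
      (mul_mem (mul_mem (star_mem (VM b)) hx) (VM a)) (by rw [← mul_assoc q _ (V a), ← mul_assoc q, qV])
      (by rw [mul_assoc _ (V a), Vq])
    simpa [mul_assoc] using this
  · by_contra hcon
    push Not at hcon
    apply n0
    have : ∀ x, z'' * V x = 0 := fun x => k2 _ (mul_mem hz''.mem (VM x)) (by rw [mul_assoc, Vq])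
      (by simpa using hcon (e.symm x))
    rw [← hle, ← Vs, mul_sum]
    exact sum_eq_zero fun x _ => by rw [← mul_assoc, this, zero_mul]

end Crest.Agent.H5.KS
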