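import Crest.Agent.H5.KS.Base

/-! Strong* limits, Zorn for partial isometries, central supports, comparison. -/

set_option autoImplicit false
set_option linter.unusedSectionVars false

namespace Crest.Agent.H5.KS

open scoped InnerProductSpace
open Filter Topology

variable {H : Type*} [NormedAddCommGroup H] [InnerProductSpace ℂ H] [CompleteSpace H]

/-- bounded strong* convergence -/
structure SSC {ι : Type*} (F : Filter ι) (T : ι → H →L[ℂ] H) (t : H →L[ℂ] H) : Prop where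
  bd : ∃ C, ∀ᶠ i in F, ‖T i‖ ≤ C
  s1 : ∀ ξ, Tendsto (fun i => T i ξ) F (𝓝 (t ξ))
  s2 : ∀ ξ, Tendsto (fun i => star (T i) ξ) F (𝓝 (star t ξ))

namespace SSC
variable {ι : Type*} {F : Filter ι} {S T : ι → H →L[ℂ] H} {s t : H →L[ℂ] H}

lemma const (a : H →L[ℂ] H) : SSC F (fun _ => a) a :=
  ⟨⟨‖a‖, Eventually.of_forall fun _ => le_rfl⟩, fun _ => tendsto_const_nhds,
    fun _ => tendsto_const_nhds⟩

lemma star (h : SSC F T t) : SSC F (fun i => star (T i)) (star t) :=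
  ⟨by obtain ⟨C, hC⟩ := h.bd; exact ⟨C, hC.mono fun i hi => by rwa [nstar]⟩, h.s2,
    fun ξ => by simpa using h.s1 ξ⟩

lemma add (h : SSC F S s) (h' : SSC F T t) : SSC F (fun i => S i + T i) (s + t) := by
  obtain ⟨C, hC⟩ := h.bd
  obtain ⟨D, hD⟩ := h'.bd
  refine ⟨⟨C + D, (hC.and hD).mono fun i hi => (norm_add_le _ _).trans (add_le_add hi.1 hi.2)⟩,
    fun ξ => ?_, fun ξ => ?_⟩
  · simpa using (h.s1 ξ).add (h'.s1 ξ)
  · simpa using (h.s2 ξ).add (h'.s2 ξ)

lemma sub (h : SSC F S s) (h' : SSC F T t) : SSC F (fun i => S i - T i) (s - t) := by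
  obtain ⟨C, hC⟩ := h.bd
  obtain ⟨D, hD⟩ := h'.bd
  refine ⟨⟨C + D, (hC.and hD).mono fun i hi => (norm_sub_le _ _).trans (add_le_add hi.1 hi.2)⟩,
    fun ξ => ?_, fun ξ => ?_⟩
  · simpa using (h.s1 ξ).sub (h'.s1 ξ)
  · simpa using (h.s2 ξ).sub (h'.s2 ξ)

lemma aux {C : ℝ} (hC : ∀ᶠ i in F, ‖S i‖ ≤ C) (h1 : ∀ ξ, Tendsto (fun i => S i ξ) F (𝓝 (s ξ)))
    {x : ι → H} {y : H} (h2 : Tendsto x F (𝓝 y)) : Tendsto (fun i => S i (x i)) F (𝓝 (s y)) := by
  have h3 : Tendsto (fun i => S i (x i - y)) F (𝓝 0) := by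
    have h4 : Tendsto (fun i => C * ‖x i - y‖) F (𝓝 (C * 0)) :=
      (tendsto_iff_norm_sub_tendsto_zero.1 h2).const_mul C
    rw [mul_zero] at h4
    refine squeeze_zero_norm' (hC.mono fun i hi => ?_) h4
    exact ((S i).le_opNorm _).trans (mul_le_mul_of_nonneg_right hi (norm_nonneg _))
  have := h3.add (h1 y)
  simpa using this

lemma mul (h : SSC F S s) (h' : SSC F T t) : SSC F (fun i => S i * T i) (s * t) := by
  obtain ⟨C, hC⟩ := h.bd
  obtain ⟨D, hD⟩ := h'.bd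
  refine ⟨⟨C * D, (hC.and hD).mono fun i hi => (norm_mul_le _ _).trans
    (mul_le_mul hi.1 hi.2 (norm_nonneg _) ((norm_nonneg _).trans hi.1))⟩, fun ξ => ?_, fun ξ => ?_⟩
  · exact aux hC h.s1 (h'.s1 ξ)
  · simp only [star_mul]
    exact aux (hD.mono fun i hi => by rwa [nstar]) h'.s2 (h.s2 ξ)

lemma eq [F.NeBot] (h : SSC F S s) (h' : SSC F T t) (e : ∀ᶠ i in F, S i = T i) : s = t := by
  ext ξ
  exact tendsto_nhds_unique_of_eventuallyEq (h.s1 ξ) (h'.s1 ξ) (e.mono fun i hi => by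
    simp only [hi])

lemma normsq (h : SSC F T t) (ξ : H) : Tendsto (fun i => ‖T i ξ‖ ^ 2) F (𝓝 (‖t ξ‖ ^ 2)) :=
  (h.s1 ξ).norm.pow 2

lemma mem [F.NeBot] {M : VonNeumannAlgebra H} (h : SSC F T t) (e : ∀ᶠ i in F, T i ∈ M) : t ∈ M :=
  mem_of_comm fun a ha => ((const a).mul h).eq (h.mul (const a)) (e.mono fun _ hi =>
    comm_of_mem hi ha)

lemma pi [F.NeBot] (h : SSC F T t) (e : ∀ᶠ i in F, PI (T i)) : PI t :=
  ((h.mul h.star).mul h).eq h e

end SSC

/-- star order -/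
def SLe (s t : H →L[ℂ] H) : Prop := star s * t = star s * s ∧ t * star s = s * star s

lemma SLe.refl (s : H →L[ℂ] H) : SLe s s := ⟨rfl, rfl⟩

lemma SLe.star {s t : H →L[ℂ] H} (h : SLe s t) : SLe (star s) (star t) := by
  constructor
  · simpa using congrArg Star.star h.2
  · simpa using congrArg Star.star h.1

lemma SLe.trans {s t u : H →L[ℂ] H} (hs : PI s) (h : SLe s t) (h' : SLe t u) : SLe s u := by
  have key : ∀ {s t u : H →L[ℂ] H}, PI s → SLe s t → SLe t u →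
      Star.star s * u = Star.star s * s := by
    intro s t u hs h h'
    have e1 : Star.star s = Star.star s * s * Star.star t := by
      have := congrArg Star.star h.2
      simp only [star_mul, star_star] at this
      rw [mul_assoc, this, hs.seq']
    calc Star.star s * u = Star.star s * s * (Star.star t * u) := by rw [← mul_assoc, ← e1]
      _ = Star.star s * s * Star.star t * t := by rw [h'.1, ← mul_assoc]
      _ = Star.star s * s := by rw [← e1, h.1]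
  refine ⟨key hs h h', ?_⟩
  have := key hs.star h.star h'.star
  simpa using congrArg Star.star this

lemma SLe.normsq {s t : H →L[ℂ] H} (h : SLe s t) (ξ : H) :
    ‖t ξ - s ξ‖ ^ 2 = ‖t ξ‖ ^ 2 - ‖s ξ‖ ^ 2 := by
  have h1 : ⟪s ξ, t ξ⟫_ℂ = ⟪s ξ, s ξ⟫_ℂ := by rw [← inner_star_mul, h.1, inner_star_mul]
  rw [norm_sub_rev, norm_sub_sq (𝕜 := ℂ), h1, inner_self_eq_norm_sq]
  ring

lemma exists_slim {ι : Type*} (F : Filter ι) [F.NeBot] (T : ι → H →L[ℂ] H)
    (hb : ∀ᶠ i in F, ‖T i‖ ≤ 1) (hc : ∀ ξ, Cauchy (F.map fun i => T i ξ)) :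
    ∃ t : H →L[ℂ] H, ∀ ξ, Tendsto (fun i => T i ξ) F (𝓝 (t ξ)) := by
  choose f hf using fun ξ => CompleteSpace.complete (hc ξ)
  have hf' : Tendsto (fun i x => (T i : H →ₗ[ℂ] H) x) F (𝓝 f) := tendsto_pi_nhds.2 fun ξ => hf ξ
  let L : H →ₗ[ℂ] H := linearMapOfTendsto f (fun i => (T i : H →ₗ[ℂ] H)) hf'
  refine ⟨L.mkContinuous 1 fun ξ => ?_, fun ξ => hf ξ⟩
  have : Tendsto (fun i => ‖T i ξ‖) F (𝓝 ‖f ξ‖) := Tendsto.norm (hf ξ)
  exact le_of_tendsto this (hb.mono fun i hi =>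
    ((T i).le_opNorm ξ).trans (mul_le_mul_of_nonneg_right hi (norm_nonneg _)))

/-- a directed increasing family of partial isometries converges strongly* -/
lemma exists_chain_lim {ι : Type*} (F : Filter ι) [F.NeBot] (T : ι → H →L[ℂ] H)
    (hp : ∀ i, PI (T i)) (hd : ∀ i, ∀ᶠ j in F, SLe (T i) (T j)) :
    ∃ t : H →L[ℂ] H, SSC F T t ∧ ∀ i, SLe (T i) t := by
  have key : ∀ (T : ι → H →L[ℂ] H), (∀ i, PI (T i)) → (∀ i, ∀ᶠ j in F, SLe (T i) (T j)) →
      ∃ t : H →L[ℂ] H, ∀ ξ, Tendsto (fun i => T i ξ) F (𝓝 (t ξ)) := by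
    intro T hp hd
    refine exists_slim F T (Eventually.of_forall fun i => (hp i).norm_le) fun ξ => ?_
    rw [Metric.cauchy_iff]
    refine ⟨inferInstance, fun ε hε => ?_⟩
    have hne : Nonempty ι := F.nonempty_of_neBot
    have hbd : BddAbove (Set.range fun i => ‖T i ξ‖ ^ 2) := by
      refine ⟨‖ξ‖ ^ 2, ?_⟩
      rintro _ ⟨i, rfl⟩
      refine pow_le_pow_left₀ (norm_nonneg _) (((T i).le_opNorm ξ).trans ?_) 2
      nlinarith [(hp i).norm_le, norm_nonneg ξ]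
    obtain ⟨i, hi⟩ := exists_lt_of_lt_ciSup (f := fun i => ‖T i ξ‖ ^ 2)
      (show (⨆ i, ‖T i ξ‖ ^ 2) - (ε / 2) ^ 2 < ⨆ i, ‖T i ξ‖ ^ 2 by
        have : 0 < (ε / 2) ^ 2 := by positivity
        linarith)
    refine ⟨Metric.ball (T i ξ) (ε / 2), ?_, fun x hx y hy => ?_⟩
    · rw [mem_map]
      filter_upwards [hd i] with j hj
      have h1 := hj.normsq ξ
      have h2 := le_ciSup hbd j
      rw [Set.mem_preimage, Metric.mem_ball, dist_eq_norm]
      exact lt_of_pow_lt_pow_left₀ 2 (by positivity) (by linarith)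
    · have := dist_triangle_right x y (T i ξ)
      rw [Metric.mem_ball] at hx hy
      linarith
  obtain ⟨t, ht⟩ := key T hp hd
  obtain ⟨t', ht'⟩ := key (fun i => star (T i)) (fun i => (hp i).star)
    (fun i => (hd i).mono fun j hj => hj.star)
  have e : t' = star t := by
    ext ξ
    refine ext_inner_right ℂ fun η => ?_
    rw [inner_star_left]
    have h1 : Tendsto (fun i => ⟪star (T i) ξ, η⟫_ℂ) F (𝓝 ⟪t' ξ, η⟫_ℂ) :=
      (ht' ξ).inner tendsto_const_nhds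
    have h2 : Tendsto (fun i => ⟪ξ, T i η⟫_ℂ) F (𝓝 ⟪ξ, t η⟫_ℂ) := tendsto_const_nhds.inner (ht η)
    simp only [inner_star_left] at h1
    exact tendsto_nhds_unique h1 h2
  have hS : SSC F T t := ⟨⟨1, Eventually.of_forall fun i => (hp i).norm_le⟩, ht, e ▸ ht'⟩
  refine ⟨t, hS, fun i => ⟨?_, ?_⟩⟩
  · exact ((SSC.const _).mul hS).eq (SSC.const _) ((hd i).mono fun j hj => hj.1)
  · exact (hS.mul (SSC.const _)).eq (SSC.const _) ((hd i).mono fun j hj => hj.2)

/-- Zorn's lemma for partial isometries with a closed side condition. -/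
theorem exists_maxPI (M : VonNeumannAlgebra H) (Q : (H →L[ℂ] H) → Prop) (h0 : Q 0)
    (hQ : ∀ (c : Set (H →L[ℂ] H)) (F : Filter c) [F.NeBot] (t : H →L[ℂ] H),
      (∀ s ∈ c, s ∈ M ∧ PI s ∧ Q s ∧ SLe s t) → SSC F Subtype.val t → Q t) :
    ∃ s ∈ M, PI s ∧ Q s ∧
      ∀ t ∈ M, PI t → star s * t = 0 → t * star s = 0 → Q (s + t) → t = 0 := by
  let α := {s : H →L[ℂ] H // s ∈ M ∧ PI s ∧ Q s}
  let r : α → α → Prop := fun a b => SLe a.1 b.1
  haveI : Nonempty α := ⟨⟨0, zero_mem _, PI.zero, h0⟩⟩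
  obtain ⟨m, hm⟩ := exists_maximal_of_nonempty_chains_bounded (r := r) (fun c hc hne => by
    let c' : Set (H →L[ℂ] H) := Subtype.val '' c
    have hc' : ∀ s ∈ c', s ∈ M ∧ PI s ∧ Q s := by rintro _ ⟨a, -, rfl⟩; exact a.2
    haveI : Nonempty c' := (hne.image _).to_subtype
    let F : Filter c' := ⨅ a : c', 𝓟 {b | SLe a.1 b.1}
    have htot : ∀ a b : c', SLe a.1 b.1 ∨ SLe b.1 a.1 := by
      rintro ⟨_, a, ha, rfl⟩ ⟨_, b, hb, rfl⟩
      by_cases h : a = b
      · subst h; exact Or.inl (SLe.refl _)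
      · exact hc ha hb h
    haveI hF : F.NeBot := by
      refine iInf_neBot_of_directed ?_ fun a => principal_neBot_iff.2 ⟨a, SLe.refl _⟩
      intro a b
      rcases htot a b with h | h
      · exact ⟨b, principal_mono.2 fun x hx => SLe.trans (hc' _ a.2).2.1 h hx, le_rfl⟩
      · exact ⟨a, le_rfl, principal_mono.2 fun x hx => SLe.trans (hc' _ b.2).2.1 h hx⟩
    obtain ⟨t, ht, hle⟩ := exists_chain_lim F Subtype.val (fun a => (hc' _ a.2).2.1)
      (fun a => mem_iInf_of_mem a (mem_principal_self _))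
    refine ⟨⟨t, ht.mem (Eventually.of_forall fun a => (hc' _ a.2).1),
      ht.pi (Eventually.of_forall fun a => (hc' _ a.2).2.1),
      hQ c' F t (fun s hs => ⟨(hc' s hs).1, (hc' s hs).2.1, (hc' s hs).2.2, hle ⟨s, hs⟩⟩) ht⟩,
      fun a ha => hle ⟨a.1, a, ha, rfl⟩⟩)
    (fun {a b c} h h' => SLe.trans a.2.2.1 h h')
  obtain ⟨s, hsM, hsP, hsQ⟩ := m
  refine ⟨s, hsM, hsP, hsQ, fun t htM htP h1 h2 hq => ?_⟩
  have h3 : star t * s = 0 := by simpa using congrArg star h1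
  have := hm ⟨s + t, add_mem hsM htM, hsP.add htP h1 h2, hq⟩
    ⟨by simp [mul_add, h1], by simp [add_mul, h2]⟩
  have h4 := this.1
  simp only at h4
  rw [add_dom h1, star_add, add_mul, h3, add_zero] at h4
  exact eq_zero_of_star_mul_self (by simpa using h4)

/-- central support -/
lemma exists_cs {M : VonNeumannAlgebra H} {f : H →L[ℂ] H} (hf : f ∈ M) : ∃ c, Cen M c ∧
    c * f = f ∧ ∀ T : H →L[ℂ] H, (∀ x ∈ M, T * x * f = 0) → T * c = 0 := by
  obtain ⟨R, hR, h1, h2⟩ := exists_rpS {b | ∃ x ∈ M, x * f = b}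
  have h2' : ∀ T : H →L[ℂ] H, (∀ x ∈ M, T * x * f = 0) → T * R = 0 := fun T hT =>
    h2 T (by rintro _ ⟨x, hx, rfl⟩; rw [← mul_assoc]; exact hT x hx)
  have h1' : ∀ x ∈ M, (1 - R) * x * f = 0 := fun x hx => by
    rw [mul_assoc, sub_mul, h1 _ ⟨x, hx, rfl⟩, one_mul, sub_self]
  have k1 : ∀ t ∈ M.commutant, (1 - R) * t * R = 0 := fun t ht => h2' _ fun x hx => by
    rw [mul_assoc (1 - R), comm_of_mem hx ht, mul_assoc, mul_assoc, comm_of_mem hf ht,
      ← mul_assoc, ← mul_assoc, h1' x hx, zero_mul]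
  have k2 : ∀ t ∈ M, (1 - R) * t * R = 0 := fun t ht => h2' _ fun x hx => by
    rw [mul_assoc (1 - R)]; exact h1' _ (mul_mem ht hx)
  refine ⟨R, ⟨mem_of_comm fun t ht => comm_of_inv hR (k1 t ht) (k1 _ (star_mem ht)), hR,
    fun a ha => (comm_of_inv hR (k2 a ha) (k2 _ (star_mem ha))).symm⟩, ?_, h2'⟩
  simpa using h1 _ ⟨1, one_mem _, rfl⟩

/-- a nonzero partial isometry between two corners that are not centrally orthogonal -/
lemma exists_PI_between {M : VonNeumannAlgebra H} {e f x : H →L[ℂ] H} (he : e ∈ M) (hf : f ∈ M)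
    (hx : x ∈ M) (pe : e * e = e) (pf : f * f = f) (h : f * x * e ≠ 0) :
    ∃ t ∈ M, PI t ∧ t ≠ 0 ∧ f * t = t ∧ t * e = t := by
  obtain ⟨v, hv, h1, h2, h3, h4⟩ := exists_PI_of_ne (mul_mem (mul_mem hf hx) he) h
  exact ⟨v, hv, h1, h2, h3 f (by rw [← mul_assoc, ← mul_assoc, pf]),
    h4 e (by rw [mul_assoc, pe])⟩

lemma sub_dom_proj {s e : H →L[ℂ] H} (hs : PI s) (pe : IsStarProjection e) (h : s * e = s) :
    IsStarProjection (e - star s * s) :=
  hs.dom.sub_of_mul_eq_left pe (by rw [mul_assoc, h])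

lemma sub_ran_proj {s f : H →L[ℂ] H} (hs : PI s) (pf : IsStarProjection f) (h : f * s = s) :
    IsStarProjection (f - s * star s) :=
  hs.ran.sub_of_mul_eq_right pf (by rw [← mul_assoc, h])

/-- orthogonality of `t` living in the remainders -/
lemma orth_of_rem {s t e f : H →L[ℂ] H} (hs : PI s) (pe : IsStarProjection e)
    (pf : IsStarProjection f) (h1 : s * e = s) (h2 : f * s = s)
    (h3 : (f - s * star s) * t = t) (h4 : t * (e - star s * s) = t) :
    star s * t = 0 ∧ t * star s = 0 ∧ t * e = t ∧ f * t = t := by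
  have h1' : e * star s = star s := by simpa [pstar pe] using congrArg star h1
  have h2' : star s * f = star s := by simpa [pstar pf] using congrArg star h2
  refine ⟨?_, ?_, ?_, ?_⟩
  · rw [← h3, ← mul_assoc, mul_sub, h2', hs.seq', sub_self, zero_mul]
  · rw [← h4, mul_assoc, sub_mul, h1', hs.seq, sub_self, mul_zero]
  · rw [← h4, mul_assoc, sub_mul, pmul pe, mul_assoc, h1]
  · rw [← h3, ← mul_assoc, mul_sub, pmul pf, ← mul_assoc, h2]

/-- comparison: a maximal partial isometry from below `e` to below `f` -/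
theorem exists_compare {M : VonNeumannAlgebra H} {e f : H →L[ℂ] H} (he : e ∈ M) (hf : f ∈ M)
    (pe : IsStarProjection e) (pf : IsStarProjection f) :
    ∃ s ∈ M, PI s ∧ s * e = s ∧ f * s = s ∧
      ∀ x ∈ M, (f - s * star s) * x * (e - star s * s) = 0 := by
  obtain ⟨s, hsM, hs, ⟨h1, h2⟩, hmax⟩ := exists_maxPI M (fun s => s * e = s ∧ f * s = s)
    (by simp) (fun c F _ t hc ht =>
      ⟨(ht.mul (SSC.const e)).eq ht (Eventually.of_forall fun a => (hc _ a.2).2.2.1.1),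
        ((SSC.const f).mul ht).eq ht (Eventually.of_forall fun a => (hc _ a.2).2.2.1.2)⟩)
  refine ⟨s, hsM, hs, h1, h2, fun x hx => ?_⟩
  by_contra hne
  obtain ⟨t, htM, ht, ht0, h3, h4⟩ := exists_PI_between
    (sub_mem he (mul_mem (star_mem hsM) hsM)) (sub_mem hf (mul_mem hsM (star_mem hsM))) hx
    (pmul (sub_dom_proj hs pe h1)) (pmul (sub_ran_proj hs pf h2)) hne
  obtain ⟨o1, o2, o3, o4⟩ := orth_of_rem hs pe pf h1 h2 h3 h4
  exact ht0 (hmax t htM ht o1 o2 ⟨by rw [add_mul, h1, o3], by rw [mul_add, h2, o4]⟩)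

/-- local comparison -/
theorem local_compare {M : VonNeumannAlgebra H} {e f z : H →L[ℂ] H} (he : e ∈ M) (hf : f ∈ M)
    (pe : IsStarProjection e) (pf : IsStarProjection f) (hz : Cen M z) (h0 : z ≠ 0) :
    ∃ z', Cen M z' ∧ z' ≠ 0 ∧ z' * z = z' ∧ (Sub M (e * z') f ∨ Sub M (f * z') e) := by
  obtain ⟨s, hsM, hs, h1, h2, h3⟩ := exists_compare he hf pe pf
  obtain ⟨c, hc, hc1, hc2⟩ := exists_cs (sub_mem he (mul_mem (star_mem hsM) hsM))
  have h4 := hc2 _ h3
  by_cases h : c * z = 0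
  · refine ⟨z, hz, h0, hz.sq, Or.inl ⟨s * z, mul_mem hsM hz.mem, hz.pi_mul hsM hs, ?_, ?_⟩⟩
    · rw [hz.dom_mul hsM hsM]
      have : (e - star s * s) * z = 0 := by
        rw [← hc1, hc.comm _ (sub_mem he (mul_mem (star_mem hsM) hsM)), mul_assoc, h, mul_zero]
      rw [sub_mul] at this
      exact (sub_eq_zero.1 this).symm
    · rw [← mul_assoc, h2]
  · have hcz := hc.mul hz
    refine ⟨c * z, hcz, h, by rw [mul_assoc, hz.sq], Or.inr ⟨star s * (c * z),
      mul_mem (star_mem hsM) hcz.mem, hcz.pi_mul (star_mem hsM) hs.star, ?_, ?_⟩⟩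
    · rw [hcz.dom_mul (star_mem hsM) (star_mem hsM), star_star]
      rw [sub_mul] at h4
      rw [← mul_assoc, ← mul_assoc, sub_eq_zero.1 h4]
    · have h1' : e * star s = star s := by simpa [pstar pe] using congrArg star h1
      rw [← mul_assoc, h1']

/-- hereditary and dense families of central projections: finite intersections -/
lemma dense_finite {M : VonNeumannAlgebra H} {ι : Type*} (s : Finset ι)
    (P : ι → (H →L[ℂ] H) → Prop) {z₀ : H →L[ℂ] H}
    (hd : ∀ i ∈ s, ∀ z, Cen M z → z ≠ 0 → z * z₀ = z → ∃ z', Cen M z' ∧ z' ≠ 0 ∧ z' * z = z' ∧ P i z')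
    (hh : ∀ i ∈ s, ∀ z z', Cen M z → Cen M z' → z' * z = z' → P i z → P i z')
    {z : H →L[ℂ] H} (hz : Cen M z) (h0 : z ≠ 0) (hz0 : z * z₀ = z) :
    ∃ z', Cen M z' ∧ z' ≠ 0 ∧ z' * z = z' ∧ ∀ i ∈ s, P i z' := by
  classical
  induction s using Finset.induction_on with
  | empty => exact ⟨z, hz, h0, hz.sq, by simp⟩
  | insert a s ha ih =>
    obtain ⟨z', c1, n1, l1, p1⟩ := ih (fun i hi => hd i (Finset.mem_insert_of_mem hi))
      (fun i hi => hh i (Finset.mem_insert_of_mem hi))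
    obtain ⟨z'', c2, n2, l2, p2⟩ := hd a (Finset.mem_insert_self _ _) z' c1 n1
      (by rw [← l1, mul_assoc, hz0])
    refine ⟨z'', c2, n2, by rw [← l2, mul_assoc, l1], fun i hi => ?_⟩
    rcases Finset.mem_insert.1 hi with rfl | hi
    · exact p2
    · exact hh i (Finset.mem_insert_of_mem hi) z' z'' c1 c2 l2 (p1 i hi)

lemma Sub.mul_cen {M : VonNeumannAlgebra H} {e f z : H →L[ℂ] H} (h : Sub M e f) (hz : Cen M z) :
    Sub M (e * z) f := by
  obtain ⟨v, hv, h1, h2, h3⟩ := h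
  exact ⟨v * z, mul_mem hv hz.mem, hz.pi_mul hv h1, by rw [hz.dom_mul hv hv, h2],
    by rw [← mul_assoc, h3]⟩

end Crest.Agent.H5.KS
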